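import Vale.Agent.P117.Cyl

/-!
Bochner integrals in cylindrical coordinates. `integral_polar`: `integral_comp_polarCoord_symm`, then Fubini on `Ioi 0 ×ˢ Ioo (-π) π`
(`setIntegral_prod`, `Measure.volume_eq_prod`); the integrability of `r • g (polarCoord.symm ·)` on the target comes from
`lintegral_comp_polarCoord_symm` applied to `‖g‖ₑ` (or `integrableOn_image_iff_integrableOn_abs_det_fderiv_smul`);
`intervalIntegral.integral_of_le`, `integral_Ioc_eq_integral_Ioo`. `integral_cyl`: `measurePreserving_pt`, Fubini, and the same on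
`(Ioi 0 ×ˢ Ioo (-π) π) ×ˢ univ`; `ℂ` is identified with pairs through `Complex.volume_preserving_equiv_real_prod`.
-/

open MeasureTheory Set Real Filter
open scoped FourierTransform RealInnerProductSpace ContDiff ENNReal Topology

noncomputable section

namespace Vale.Agent.P117

theorem cylb_int {g : ℝ × ℝ → ℂ} (hg : Integrable g) :
    IntegrableOn (fun p : ℝ × ℝ => p.1 • g (polarCoord.symm p)) polarCoord.target := by
  have h := (integrableOn_image_iff_integrableOn_abs_det_fderiv_smul volume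
    polarCoord.open_target.measurableSet
    (fun p _ => (hasFDerivAt_polarCoord_symm p).hasFDerivWithinAt) polarCoord.symm.injOn g).1
    hg.integrableOn
  refine h.congr_fun (fun p hp => ?_) polarCoord.open_target.measurableSet
  simp only [det_fderivPolarCoordSymm]
  rw [abs_of_pos hp.1]

theorem integral_polar {g : ℝ × ℝ → ℂ} (hg : Integrable g) :
    ∫ y, g y = ∫ r in Ioi (0 : ℝ), ∫ θ in (-π)..π, r * g (r * cos θ, r * sin θ) := by
  have h := cylb_int hg
  rw [← integral_comp_polarCoord_symm]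
  rw [polarCoord_target, Measure.volume_eq_prod] at h ⊢
  rw [setIntegral_prod _ h]
  refine integral_congr_ae (ae_of_all _ fun r => ?_)
  simp only
  rw [intervalIntegral.integral_of_le (by linarith [pi_pos]), integral_Ioc_eq_integral_Ioo]
  simp only [polarCoord_symm_apply, Complex.real_smul]

theorem cylb_det (w : (ℝ × ℝ) × ℝ) :
    ((fderivPolarCoordSymm w.1).prodMap (ContinuousLinearMap.id ℝ ℝ)).det = w.1.1 := by
  have e : (((fderivPolarCoordSymm w.1).prodMap (ContinuousLinearMap.id ℝ ℝ) :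
      (ℝ × ℝ) × ℝ →L[ℝ] (ℝ × ℝ) × ℝ) : (ℝ × ℝ) × ℝ →ₗ[ℝ] (ℝ × ℝ) × ℝ) =
      (fderivPolarCoordSymm w.1 : ℝ × ℝ →ₗ[ℝ] ℝ × ℝ).prodMap LinearMap.id := rfl
  rw [ContinuousLinearMap.det, e, LinearMap.det_prodMap, LinearMap.det_id, mul_one]
  exact det_fderivPolarCoordSymm w.1

theorem cylb_main {G : (ℝ × ℝ) × ℝ → ℂ} (hG : Integrable G) :
    IntegrableOn (fun w : (ℝ × ℝ) × ℝ => w.1.1 • G (polarCoord.symm w.1, w.2))
      (polarCoord.target ×ˢ univ) ∧
    ∫ w, G w = ∫ w in polarCoord.target ×ˢ (univ : Set ℝ),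
      w.1.1 • G (polarCoord.symm w.1, w.2) := by
  have : Measure.IsAddHaarMeasure (volume : Measure ((ℝ × ℝ) × ℝ)) :=
    Measure.prod.instIsAddHaarMeasure _ _
  have hs : MeasurableSet (polarCoord.target ×ˢ (univ : Set ℝ)) :=
    polarCoord.open_target.measurableSet.prod MeasurableSet.univ
  have hd : ∀ w ∈ polarCoord.target ×ˢ (univ : Set ℝ),
      HasFDerivWithinAt (Prod.map polarCoord.symm (id : ℝ → ℝ))
        ((fderivPolarCoordSymm w.1).prodMap (ContinuousLinearMap.id ℝ ℝ))
        (polarCoord.target ×ˢ (univ : Set ℝ)) w := fun w _ =>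
    ((hasFDerivAt_polarCoord_symm w.1).prodMap w (hasFDerivAt_id w.2)).hasFDerivWithinAt
  have hi : InjOn (Prod.map polarCoord.symm (id : ℝ → ℝ))
      (polarCoord.target ×ˢ (univ : Set ℝ)) :=
    polarCoord.symm.injOn.prodMap (injOn_id _)
  have hc : EqOn (fun w : (ℝ × ℝ) × ℝ =>
      |((fderivPolarCoordSymm w.1).prodMap (ContinuousLinearMap.id ℝ ℝ)).det| •
        G (Prod.map polarCoord.symm (id : ℝ → ℝ) w))
      (fun w : (ℝ × ℝ) × ℝ => w.1.1 • G (polarCoord.symm w.1, w.2))
      (polarCoord.target ×ˢ (univ : Set ℝ)) := fun w hw => by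
    simp only [cylb_det]
    rw [abs_of_pos hw.1.1]
    rfl
  refine ⟨((integrableOn_image_iff_integrableOn_abs_det_fderiv_smul volume hs hd hi G).1
    hG.integrableOn).congr_fun hc hs, ?_⟩
  rw [← setIntegral_congr_fun hs hc, ← integral_image_eq_integral_abs_det_fderiv_smul volume hs hd hi,
    prodMap_image_prod, polarCoord.symm_image_target_eq_source, image_id, ← setIntegral_univ]
  refine setIntegral_congr_set ?_
  rw [← univ_prod_univ, Measure.volume_eq_prod]
  exact Measure.set_prod_ae_eq polarCoord_source_ae_eq_univ.symm (ae_eq_refl _)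

/-- the reordering of the coordinates -/
def cylbE : ℝ × ℂ ≃ᵐ (ℝ × ℝ) × ℝ :=
  ((MeasurableEquiv.refl ℝ).prodCongr Complex.measurableEquivRealProd).trans
    (MeasurableEquiv.prodAssoc.symm.trans
      (MeasurableEquiv.prodComm.prodCongr (MeasurableEquiv.refl ℝ)))

theorem cylb_apply (q : ℝ × ℂ) : cylbE q = ((q.2.re, q.1), q.2.im) := rfl

theorem cylb_mp : MeasurePreserving cylbE := by
  have h1 := (MeasurePreserving.id (volume : Measure ℝ)).prod
    Complex.volume_preserving_equiv_real_prod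
  have h2 := (volume_preserving_prodAssoc (α₁ := ℝ) (β₁ := ℝ) (γ₁ := ℝ)).symm _
  have h3 : MeasurePreserving (Prod.swap : ℝ × ℝ → ℝ × ℝ) := Measure.measurePreserving_swap
  exact (h3.prod (MeasurePreserving.id (volume : Measure ℝ))).comp (h2.comp h1)

/-- the point `ξ : ℂ` stands for the pair (distance to the axis, height) -/
theorem integral_cyl {g : E3 → ℂ} (hg : Integrable g) :
    ∫ x, g x = ∫ θ in (-π)..π, ∫ ξ in {ξ : ℂ | 0 < ξ.re},
      ξ.re * g (pt (ξ.re * cos θ) (ξ.re * sin θ) ξ.im) := by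
  have hG : Integrable fun w : (ℝ × ℝ) × ℝ => g (pt w.1.1 w.1.2 w.2) :=
    (measurePreserving_pt.integrable_comp_emb measurableEmbedding_pt).2 hg
  obtain ⟨h1, h2⟩ := cylb_main hG
  have hp : cylbE ⁻¹' (polarCoord.target ×ˢ (univ : Set ℝ)) =
      Ioo (-π) π ×ˢ {ξ : ℂ | 0 < ξ.re} := by
    ext q
    simp only [mem_preimage, cylb_apply, polarCoord_target, mem_prod, mem_Ioi, mem_univ, and_true,
      mem_ofPred_eq]
    exact and_comm
  have h3 := (cylb_mp.integrableOn_comp_preimage cylbE.measurableEmbedding).2 h1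
  rw [← measurePreserving_pt.integral_comp measurableEmbedding_pt, h2,
    ← cylb_mp.setIntegral_preimage_emb cylbE.measurableEmbedding]
  rw [hp, Measure.volume_eq_prod] at h3
  rw [hp, Measure.volume_eq_prod, intervalIntegral.integral_of_le (by linarith [pi_pos]),
    integral_Ioc_eq_integral_Ioo]
  refine (setIntegral_prod _ h3).trans ?_
  simp only [Function.comp_apply, cylb_apply, polarCoord_symm_apply, Complex.real_smul]

end Vale.Agent.P117
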