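import Vale.Agent.P117.Four

/-!
The Plancherel inequality for integrable functions. For `c > 0` Fubini gives
`∫ exp (-‖ξ‖² / c) * ‖𝓕 g ξ‖² = ∫∫ g x * conj (g y) * γ (x - y)` where `γ ≥ 0` is the Fourier transform of the Gaussian
(`fourier_gaussian_innerProductSpace`, integral one; see also the proof of `Real.tendsto_integral_gaussian_smul`).
If `Np 2 g` is finite, bound by `(‖g x‖² + ‖g y‖²) / 2 * γ (x - y)`. Then monotone convergence or Fatou (`lintegral_liminf_le`).
Any other route is fine (for instance through `MeasureTheory.Lp` and density of Schwartz functions).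
-/

open MeasureTheory Set Real Filter
open scoped FourierTransform RealInnerProductSpace ContDiff ENNReal Topology

noncomputable section

namespace Vale.Agent.P117

variable {V : Type} [NormedAddCommGroup V] [InnerProductSpace ℝ V] [FiniteDimensional ℝ V]
  [MeasurableSpace V] [BorelSpace V]
  {g m : V → ℂ}

theorem plan_np (f : V → ℂ) : Np volume 2 f = eLpNorm f 2 volume ^ (2 : ℝ) := by
  rw [eLpNorm_eq_lintegral_rpow_enorm_toReal two_ne_zero ENNReal.ofNat_ne_top, ← ENNReal.rpow_mul]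
  simp [Np]

theorem plan_ae (hg : Integrable g) (h2 : MemLp g 2) :
    𝓕 g =ᵐ[volume] (𝓕 (h2.toLp g) : Lp ℂ 2 (volume : Measure V)) := by
  refine ae_eq_of_integral_contDiff_smul_eq (continuous_fourier hg).locallyIntegrable
    ((Lp.memLp _).locallyIntegrable one_le_two) fun u h3 h4 => ?_
  have h5 : HasCompactSupport (Complex.ofRealCLM ∘ u) := h4.comp_left rfl
  have h6 : ContDiff ℝ ∞ (Complex.ofRealCLM ∘ u) := Complex.ofRealCLM.contDiff.comp h3
  set φ : SchwartzMap V ℂ := h5.toSchwartzMap h6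
  have h7 := congrArg (fun T : TemperedDistribution V ℂ => T φ)
    (Lp.fourier_toTemperedDistribution_eq (h2.toLp g))
  simp only [TemperedDistribution.fourier_apply, Lp.toTemperedDistribution_apply] at h7
  have h8 : ∫ ξ, 𝓕 (φ : V → ℂ) ξ • g ξ = ∫ x, φ x • 𝓕 g x := by
    have h9 := VectorFourier.integral_fourierIntegral_smul_eq_flip (L := innerₗ V)
      Real.continuous_fourierChar continuous_inner (φ.integrable (μ := volume)) hg
    rw [flip_innerₗ] at h9
    exact h9
  have h9 : ∫ ξ, (𝓕 φ) ξ • (h2.toLp g) ξ = ∫ ξ, 𝓕 (φ : V → ℂ) ξ • g ξ := by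
    refine integral_congr_ae ?_
    filter_upwards [h2.coeFn_toLp] with ξ hξ
    rw [hξ, SchwartzMap.fourier_coe]
  exact (h8.symm.trans h9.symm).trans h7

theorem planch (hg : Integrable g) : Np volume 2 (𝓕 g) ≤ Np volume 2 g := by
  rw [plan_np, plan_np]
  refine ENNReal.rpow_le_rpow ?_ zero_le_two
  rcases eq_or_ne (eLpNorm g 2 volume) ⊤ with h | h
  · rw [h]
    exact le_top
  · have h2 : MemLp g 2 := ⟨hg.1, h.lt_top⟩
    have h3 := congrArg ENNReal.ofReal (Lp.norm_fourier_eq (h2.toLp g))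
    rw [Lp.norm_def, Lp.norm_toLp, ENNReal.ofReal_toReal (Lp.eLpNorm_ne_top _),
      ENNReal.ofReal_toReal h] at h3
    rw [eLpNorm_congr_ae (plan_ae hg h2), h3]
theorem planch_inv (hg : Integrable g) : Np volume 2 (𝓕⁻ g) ≤ Np volume 2 g := by
  rw [Real.fourierInv_eq_fourier_comp_neg]
  exact (planch hg.comp_neg).trans_eq
    (lintegral_neg_eq_self (fun x => ‖g x‖ₑ ^ (2 : ℝ)))
/-- `cv_eq`, `planch_inv`, `planch` -/
theorem cv_L2 (hm : Integrable m) {A : ℝ} (hA : ∀ ξ, ‖m ξ‖ ≤ A) (hg : Integrable g) :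
    Np volume 2 (cv (𝓕⁻ m) g) ≤ ENNReal.ofReal A ^ 2 * Np volume 2 g := by
  rw [funext (cv_eq hm hg)]
  refine (planch_inv (integrable_mul_fourier hm hg)).trans
    (le_trans ?_ (mul_le_mul_right (planch hg) _))
  rw [Np, Np, ← lintegral_const_mul' _ _ (ENNReal.pow_ne_top ENNReal.ofReal_ne_top)]
  refine lintegral_mono fun ξ => ?_
  rw [enorm_mul, ENNReal.mul_rpow_of_nonneg _ _ zero_le_two]
  refine mul_le_mul_left ?_ _
  rw [ENNReal.rpow_two, ← ofReal_norm]
  exact pow_le_pow_left' (ENNReal.ofReal_le_ofReal (hA ξ)) 2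

end Vale.Agent.P117
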