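import Vale.Agent.P117.Four

/-!
Schur tests and elementary properties of `Np`. Hoelder: `ENNReal.lintegral_mul_le_Lp_mul_Lq` with
`k * h = k ^ (1/q) * (k ^ (1/p) * h)`; Tonelli: `lintegral_lintegral_swap`; Minkowski: `ENNReal.lintegral_Lp_add_le`;
`enorm_integral_le_lintegral_enorm`.
-/

open MeasureTheory Set Real Filter
open scoped FourierTransform RealInnerProductSpace ContDiff ENNReal Topology

noncomputable section

namespace Vale.Agent.P117

section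
variable {X Y Z : Type} [MeasurableSpace X] [MeasurableSpace Y] [MeasurableSpace Z]
  {μ : Measure X} {ν : Measure Y} {p : ℝ} {f g : X → ℂ}

theorem Np_two (μ : Measure X) (f : X → ℂ) : Np μ 2 f = ∫⁻ x, ‖f x‖ₑ ^ 2 ∂μ := by
  simp only [Np, ENNReal.rpow_ofNat]

theorem Np_four (μ : Measure X) (f : X → ℂ) : Np μ 4 f = ∫⁻ x, ‖f x‖ₑ ^ 4 ∂μ := by
  simp only [Np, ENNReal.rpow_ofNat]

theorem Np_mono (hp : 0 ≤ p) (h : ∀ x, ‖f x‖ ≤ ‖g x‖) : Np μ p f ≤ Np μ p g :=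
  lintegral_mono fun x => ENNReal.rpow_le_rpow (enorm_le_iff_norm_le.2 (h x)) hp

theorem Np_const_mul (hp : 0 ≤ p) (c : ℂ) (f : X → ℂ) :
    Np μ p (fun x => c * f x) = ‖c‖ₑ ^ p * Np μ p f := by
  simp only [Np, enorm_mul, ENNReal.mul_rpow_of_nonneg _ _ hp]
  exact lintegral_const_mul' _ _ (ENNReal.rpow_ne_top_of_nonneg hp enorm_ne_top)

theorem Np_add_le (hp : 1 ≤ p) (hf : Measurable f) (hg : Measurable g) {A B : ℝ} (hA : 0 ≤ A)
    (hB : 0 ≤ B) {N : ℝ≥0∞} (h1 : Np μ p f ≤ ENNReal.ofReal A ^ p * N)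
    (h2 : Np μ p g ≤ ENNReal.ofReal B ^ p * N) :
    Np μ p (fun x => f x + g x) ≤ ENNReal.ofReal (A + B) ^ p * N := by
  have hp0 : 0 < p := by linarith
  have hq : 0 ≤ 1 / p := by positivity
  have key : ∀ (C : ℝ≥0∞), (C ^ p * N) ^ (1 / p) = C * N ^ (1 / p) := fun C => by
    rw [ENNReal.mul_rpow_of_nonneg _ _ hq, ← ENNReal.rpow_mul, mul_one_div_cancel hp0.ne',
      ENNReal.rpow_one]
  have h3 := ENNReal.lintegral_Lp_add_le (μ := μ) hf.enorm.aemeasurable hg.enorm.aemeasurable hp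
  have h4 : Np μ p (fun x => f x + g x) ≤
      ∫⁻ a, ((fun x => ‖f x‖ₑ) + fun x => ‖g x‖ₑ) a ^ p ∂μ :=
    lintegral_mono fun x => ENNReal.rpow_le_rpow (enorm_add_le _ _) hp0.le
  rw [← ENNReal.rpow_le_rpow_iff (by positivity : 0 < 1 / p), key, ENNReal.ofReal_add hA hB,
    add_mul, ← key, ← key]
  exact (ENNReal.rpow_le_rpow h4 hq).trans (h3.trans
    (add_le_add (ENNReal.rpow_le_rpow h1 hq) (ENNReal.rpow_le_rpow h2 hq)))

theorem Np_add_le' (hp : 0 ≤ p) (hf : Measurable f) (g : X → ℂ) :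
    Np μ p (fun x => f x + g x) ≤ 2 ^ p * (Np μ p f + Np μ p g) := by
  unfold Np
  rw [← lintegral_add_left (hf.enorm.pow_const p), ← lintegral_const_mul' _ _
    (ENNReal.rpow_ne_top_of_nonneg hp ENNReal.ofNat_ne_top)]
  refine lintegral_mono fun x => (ENNReal.rpow_le_rpow (enorm_add_le _ _) hp).trans ?_
  rcases le_total ‖f x‖ₑ ‖g x‖ₑ with h | h
  · calc _ ≤ (2 * ‖g x‖ₑ) ^ p := ENNReal.rpow_le_rpow (by rw [two_mul]; gcongr) hp
      _ = 2 ^ p * ‖g x‖ₑ ^ p := ENNReal.mul_rpow_of_nonneg _ _ hp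
      _ ≤ _ := mul_le_mul_right le_add_self _
  · calc _ ≤ (2 * ‖f x‖ₑ) ^ p := ENNReal.rpow_le_rpow (by rw [two_mul]; gcongr) hp
      _ = 2 ^ p * ‖f x‖ₑ ^ p := ENNReal.mul_rpow_of_nonneg _ _ hp
      _ ≤ _ := mul_le_mul_right le_self_add _

theorem Np_fatou (hp : 0 ≤ p) {F : ℕ → X → ℂ} (hF : ∀ n, Measurable (F n))
    (hl : ∀ x, Tendsto (fun n => F n x) atTop (𝓝 (f x))) {c : ℝ≥0∞}
    (hc : ∀ᶠ n in atTop, Np μ p (F n) ≤ c) : Np μ p f ≤ c := by
  have h1 : ∀ x, ‖f x‖ₑ ^ p = liminf (fun n => ‖F n x‖ₑ ^ p) atTop := fun x =>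
    ((ENNReal.continuous_rpow_const.tendsto _).comp (hl x).enorm).liminf_eq.symm
  unfold Np
  simp only [h1]
  exact (lintegral_liminf_le fun n => (hF n).enorm.pow_const p).trans
    (liminf_le_of_frequently_le' hc.frequently)

theorem hi_add_lo (α : ℝ) (f : X → ℂ) (x : X) : f x = hi α f x + lo α f x := by
  by_cases h : α < ‖f x‖
  · simp [hi, lo, h]
  · simp [hi, lo, h, not_lt.1 h]

theorem measurable_hi (α : ℝ) (hf : Measurable f) : Measurable (hi α f) :=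
  hf.indicator (measurableSet_lt measurable_const hf.norm)

theorem measurable_lo (α : ℝ) (hf : Measurable f) : Measurable (lo α f) :=
  hf.indicator (measurableSet_le hf.norm measurable_const)

theorem norm_hi_le (α : ℝ) (f : X → ℂ) (x : X) : ‖hi α f x‖ ≤ ‖f x‖ :=
  norm_indicator_le_norm_self _ _

theorem norm_lo_le (α : ℝ) (f : X → ℂ) (x : X) : ‖lo α f x‖ ≤ ‖f x‖ :=
  norm_indicator_le_norm_self _ _

theorem norm_lo_le' {α : ℝ} (hα : 0 ≤ α) (f : X → ℂ) (x : X) : ‖lo α f x‖ ≤ α := by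
  by_cases h : ‖f x‖ ≤ α
  · simp [lo, h]
  · simp [lo, h, hα]

theorem schur [SFinite μ] [SFinite ν] (hp : 1 ≤ p) {k : X → Y → ℝ≥0∞}
    (hk : Measurable (Function.uncurry k)) {A B : ℝ≥0∞} (hA : ∀ x, ∫⁻ y, k x y ∂ν ≤ A)
    (hB : ∀ y, ∫⁻ x, k x y ∂μ ≤ B) {h : Y → ℝ≥0∞} (hh : Measurable h) :
    ∫⁻ x, (∫⁻ y, k x y * h y ∂ν) ^ p ∂μ ≤ A ^ (p - 1) * B * ∫⁻ y, h y ^ p ∂ν := by
  have hp0 : 0 < p := by linarith
  have hq : 0 ≤ 1 / p := by positivity
  have hq' : 0 ≤ 1 - 1 / p := by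
    rw [sub_nonneg, div_le_one hp0]
    exact hp
  have hm : Measurable (Function.uncurry fun x y => k x y * h y ^ p) :=
    hk.mul ((hh.comp measurable_snd).pow_const p)
  have h1 : ∀ x, (∫⁻ y, k x y * h y ∂ν) ^ p ≤ A ^ (p - 1) * ∫⁻ y, k x y * h y ^ p ∂ν := by
    intro x
    have a1 := ENNReal.lintegral_mul_norm_pow_le (μ := ν) (f := k x)
      (g := fun y => k x y * h y ^ p) hk.of_uncurry_left.aemeasurable
      hm.of_uncurry_left.aemeasurable hq' hq (by ring)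
    have a2 : ∀ y, k x y ^ (1 - 1 / p) * (k x y * h y ^ p) ^ (1 / p) = k x y * h y := fun y => by
      rw [ENNReal.mul_rpow_of_nonneg _ _ hq, ← mul_assoc, ← ENNReal.rpow_add_of_nonneg _ _ hq' hq,
        ← ENNReal.rpow_mul, mul_one_div_cancel hp0.ne', sub_add_cancel, ENNReal.rpow_one,
        ENNReal.rpow_one]
    simp only [a2] at a1
    refine (ENNReal.rpow_le_rpow a1 hp0.le).trans ?_
    rw [ENNReal.mul_rpow_of_nonneg _ _ hp0.le, ← ENNReal.rpow_mul, ← ENNReal.rpow_mul,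
      one_div_mul_cancel hp0.ne', ENNReal.rpow_one, sub_mul, one_div_mul_cancel hp0.ne', one_mul]
    exact mul_le_mul_left (ENNReal.rpow_le_rpow (hA x) (by linarith)) _
  refine (lintegral_mono h1).trans ?_
  rw [lintegral_const_mul _ hm.lintegral_prod_right, lintegral_lintegral_swap hm.aemeasurable,
    mul_assoc, ← lintegral_const_mul _ (hh.pow_const p)]
  refine mul_le_mul_right (lintegral_mono fun y => ?_) _
  rw [lintegral_mul_const _ hk.of_uncurry_right]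
  exact mul_le_mul_left (hB y) _

theorem schur_cs {w e : X → ℝ≥0∞} (hw : Measurable w) (he : Measurable e) (h0 : ∀ x, w x ≠ 0)
    (h1 : ∀ x, w x ≠ ⊤) : (∫⁻ x, e x ∂μ) ^ 2 ≤ (∫⁻ x, w x ∂μ) * ∫⁻ x, e x ^ 2 * (w x)⁻¹ ∂μ := by
  have hq : (0 : ℝ) ≤ 1 / 2 := by norm_num
  have a1 := ENNReal.lintegral_mul_norm_pow_le (μ := μ) (f := w) (g := fun x => e x ^ 2 * (w x)⁻¹)
    hw.aemeasurable ((he.pow_const 2).mul hw.inv).aemeasurable hq hq (by norm_num)
  have a0 : ∀ t : ℝ≥0∞, (t ^ (1 / 2 : ℝ)) ^ 2 = t := fun t => by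
    rw [← ENNReal.rpow_two, ← ENNReal.rpow_mul]
    norm_num
  have a2 : ∀ x, w x ^ (1 / 2 : ℝ) * (e x ^ 2 * (w x)⁻¹) ^ (1 / 2 : ℝ) = e x := fun x => by
    rw [← ENNReal.mul_rpow_of_nonneg _ _ hq, mul_left_comm, ENNReal.mul_inv_cancel (h0 x) (h1 x),
      mul_one, ← ENNReal.rpow_two, ← ENNReal.rpow_mul]
    norm_num
  simp only [a2] at a1
  refine (pow_le_pow_left' a1 2).trans_eq ?_
  rw [mul_pow, a0, a0]

/-- Vector valued Schur test with a test function. Cauchy-Schwarz: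
`(∫ e)² ≤ (∫ L φ') (∫ e² / (L φ'))`, then integrate in `z` and in `t`. -/
theorem schur2 {ζ : Measure Z} [SFinite μ] [SFinite ζ] {e : X → X → Z → ℝ≥0∞}
    (he : Measurable fun w : X × X × Z => e w.1 w.2.1 w.2.2) {L : X → X → ℝ}
    (hL : Measurable (Function.uncurry L)) (hL0 : ∀ t t', 0 < L t t') {φ : X → ℝ}
    (hφ : Measurable φ) (hφ0 : ∀ t, 0 < φ t) {H : X → ℝ≥0∞} (hH : Measurable H) {C : ℝ}
    (h0 : ∀ t t', ∫⁻ z, e t t' z ^ 2 ∂ζ ≤ ENNReal.ofReal (L t t') ^ 2 * H t')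
    (h1 : ∀ t, ∫⁻ t', ENNReal.ofReal (L t t' * φ t') ∂μ ≤ ENNReal.ofReal (C * φ t))
    (h2 : ∀ t', ∫⁻ t, ENNReal.ofReal (L t t' * φ t) ∂μ ≤ ENNReal.ofReal (C * φ t')) :
    ∫⁻ t, ∫⁻ z, (∫⁻ t', e t t' z ∂μ) ^ 2 ∂ζ ∂μ ≤ ENNReal.ofReal C ^ 2 * ∫⁻ t', H t' ∂μ := by
  have hw0 : ∀ t t', ENNReal.ofReal (L t t' * φ t') ≠ 0 := fun t t' =>
    (ENNReal.ofReal_pos.2 (mul_pos (hL0 t t') (hφ0 t'))).ne'
  have hw : ∀ t, Measurable fun t' => ENNReal.ofReal (L t t' * φ t') := fun t =>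
    (hL.of_uncurry_left.mul hφ).ennreal_ofReal
  have he1 : ∀ t, Measurable fun w : Z × X => e t w.2 w.1 := fun t =>
    he.comp (measurable_const.prodMk (measurable_snd.prodMk measurable_fst))
  have hm : Measurable (Function.uncurry fun t t' =>
      ENNReal.ofReal (L t t' * φ t) * (ENNReal.ofReal C * (ENNReal.ofReal (φ t'))⁻¹ * H t')) :=
    (hL.mul (hφ.comp measurable_fst)).ennreal_ofReal.mul
      (((hφ.ennreal_ofReal.inv.const_mul _).mul hH).comp measurable_snd)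
  have a1 : ∀ t, ∫⁻ z, (∫⁻ t', e t t' z ∂μ) ^ 2 ∂ζ ≤ ∫⁻ t', ENNReal.ofReal (L t t' * φ t) *
      (ENNReal.ofReal C * (ENNReal.ofReal (φ t'))⁻¹ * H t') ∂μ := by
    intro t
    have m1 : Measurable (Function.uncurry fun z t' =>
        e t t' z ^ 2 * (ENNReal.ofReal (L t t' * φ t'))⁻¹) :=
      ((he1 t).pow_const 2).mul ((hw t).inv.comp measurable_snd)
    calc _ ≤ ∫⁻ z, ENNReal.ofReal (C * φ t) *
          ∫⁻ t', e t t' z ^ 2 * (ENNReal.ofReal (L t t' * φ t'))⁻¹ ∂μ ∂ζ :=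
          lintegral_mono fun z => (schur_cs (hw t)
            ((he1 t).comp (measurable_const.prodMk measurable_id)) (hw0 t)
            fun _ => ENNReal.ofReal_ne_top).trans (mul_le_mul_left (h1 t) _)
      _ = ∫⁻ t', ENNReal.ofReal (C * φ t) *
          ∫⁻ z, e t t' z ^ 2 * (ENNReal.ofReal (L t t' * φ t'))⁻¹ ∂ζ ∂μ := by
          rw [lintegral_const_mul' _ _ ENNReal.ofReal_ne_top,
            lintegral_lintegral_swap m1.aemeasurable,
            lintegral_const_mul' _ _ ENNReal.ofReal_ne_top]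
      _ ≤ _ := by
          refine lintegral_mono fun t' => ?_
          rw [lintegral_mul_const' _ _ (ENNReal.inv_ne_top.2 (hw0 t t'))]
          refine (mul_le_mul_right (mul_le_mul_left (h0 t t') _) _).trans_eq ?_
          have b1 : ENNReal.ofReal (L t t') ≠ 0 := (ENNReal.ofReal_pos.2 (hL0 t t')).ne'
          have b2 := ENNReal.mul_inv_cancel b1 ENNReal.ofReal_ne_top
          rw [ENNReal.ofReal_mul' (hφ0 t).le, ENNReal.ofReal_mul' (hφ0 t).le,
            ENNReal.ofReal_mul' (hφ0 t').le,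
            ENNReal.mul_inv (Or.inl b1) (Or.inl ENNReal.ofReal_ne_top)]
          calc _ = ENNReal.ofReal (L t t') * ENNReal.ofReal (φ t) * (ENNReal.ofReal C *
                (ENNReal.ofReal (φ t'))⁻¹ * H t') *
                (ENNReal.ofReal (L t t') * (ENNReal.ofReal (L t t'))⁻¹) := by ring
            _ = _ := by rw [b2, mul_one]
  refine (lintegral_mono a1).trans ?_
  rw [lintegral_lintegral_swap hm.aemeasurable, ← lintegral_const_mul _ hH]
  refine lintegral_mono fun t' => ?_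
  have m2 : Measurable fun t => ENNReal.ofReal (L t t' * φ t) :=
    (hL.of_uncurry_right.mul hφ).ennreal_ofReal
  rw [lintegral_mul_const _ m2]
  refine (mul_le_mul_left (h2 t') _).trans_eq ?_
  have b2 := ENNReal.mul_inv_cancel (ENNReal.ofReal_pos.2 (hφ0 t')).ne' ENNReal.ofReal_ne_top
  rw [ENNReal.ofReal_mul' (hφ0 t').le]
  calc _ = ENNReal.ofReal C ^ 2 * H t' *
        (ENNReal.ofReal (φ t') * (ENNReal.ofReal (φ t'))⁻¹) := by ring
    _ = _ := by rw [b2, mul_one]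

end

variable {V : Type} [NormedAddCommGroup V] [InnerProductSpace ℝ V] [FiniteDimensional ℝ V]
  [MeasurableSpace V] [BorelSpace V]
  {p : ℝ}

theorem young_enn (hp : 1 ≤ p) {k h : V → ℝ≥0∞} (hk : Measurable k) (hh : Measurable h) :
    ∫⁻ x, (∫⁻ y, k (x - y) * h y) ^ p ≤ (∫⁻ y, k y) ^ p * ∫⁻ y, h y ^ p := by
  have h1 := schur (μ := volume) (ν := volume) hp (k := fun x y => k (x - y))
    (hk.comp (measurable_fst.sub measurable_snd)) (A := ∫⁻ y, k y) (B := ∫⁻ y, k y)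
    (fun x => (lintegral_sub_left_eq_self k x).le) (fun y => (lintegral_sub_right_eq_self k y).le)
    hh
  have h2 := ENNReal.rpow_add_of_nonneg (x := ∫⁻ y, k y) (p - 1) 1 (by linarith) zero_le_one
  rw [sub_add_cancel, ENNReal.rpow_one] at h2
  rwa [h2]

theorem young (hp : 1 ≤ p) {K f : V → ℂ} (hK : Ker K) (hf : Measurable f) {A : ℝ}
    (hA : ∫ y, ‖K y‖ ≤ A) : Np volume p (cv K f) ≤ ENNReal.ofReal A ^ p * Np volume p f := by
  have hp0 : 0 ≤ p := by linarith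
  have h1 := young_enn hp hK.cont.measurable.enorm hf.enorm
  rw [← ofReal_integral_norm_eq_lintegral_enorm hK.int] at h1
  refine le_trans (lintegral_mono fun x => ENNReal.rpow_le_rpow ?_ hp0) (h1.trans
    (mul_le_mul_left (ENNReal.rpow_le_rpow (ENNReal.ofReal_le_ofReal hA) hp0) _))
  simp only [← enorm_mul]
  exact enorm_integral_le_lintegral_enorm _

end Vale.Agent.P117
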