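import Vale.Agent.P117.Base

/-!
The decay weights `dc`, Fubini on the complex plane (`Complex.volume_preserving_equiv_real_prod`,
`Complex.measurableEquivRealProd`, `lintegral_prod`, `integral_prod`), the class `Dec`.
`integrable_one_add_norm` gives integrability; for the value `2 / a` use `integral_comp_abs`,
`integral_comp_mul_left`, `integral_add_right_eq_self`, or any other route.
-/

open MeasureTheory Set Real Filter
open scoped FourierTransform RealInnerProductSpace ContDiff ENNReal Topology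

noncomputable section

namespace Vale.Agent.P117

variable {G G' : ℂ → ℂ}

theorem dc_pos (n : ℕ) (t : ℝ) : 0 < dc n t := by
  unfold dc
  positivity
theorem dc_le_one (n : ℕ) (t : ℝ) : dc n t ≤ 1 :=
  inv_le_one_of_one_le₀ (one_le_pow₀ (le_add_of_nonneg_right (abs_nonneg t)))
theorem dc_add (n m : ℕ) (t : ℝ) : dc (n + m) t = dc n t * dc m t := by
  rw [dc, dc, dc, pow_add, mul_inv]
theorem dc_anti {n m : ℕ} (h : n ≤ m) (t : ℝ) : dc m t ≤ dc n t :=
  inv_anti₀ (by positivity) (pow_le_pow_right₀ (le_add_of_nonneg_right (abs_nonneg t)) h)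
theorem dc_mono (n : ℕ) {s t : ℝ} (h : |s| ≤ |t|) : dc n t ≤ dc n s :=
  inv_anti₀ (by positivity) (pow_le_pow_left₀ (by positivity) (by linarith) n)
theorem dc_neg (n : ℕ) (t : ℝ) : dc n (-t) = dc n t := by
  rw [dc, dc, abs_neg]
theorem continuous_dc (n : ℕ) : Continuous (dc n) :=
  Continuous.inv₀ (by fun_prop) fun t => by positivity
/-- Peetre -/
theorem dc_sub_le (n : ℕ) (s t : ℝ) : dc n (s - t) ≤ (1 + |t|) ^ n * dc n s := by
  have h1 : 1 + |s| ≤ (1 + |t|) * (1 + |s - t|) := by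
    have h2 := abs_add_le (s - t) t
    rw [sub_add_cancel] at h2
    nlinarith [abs_nonneg t, abs_nonneg (s - t)]
  have h3 := pow_le_pow_left₀ (by positivity) h1 n
  rw [dc, dc, ← div_eq_mul_inv, le_div_iff₀ (by positivity), inv_mul_le_iff₀ (by positivity),
    mul_comm, ← mul_pow]
  exact h3
theorem cx_int {σ : ℝ} (hσ : 0 < σ) : Integrable fun t : ℝ => (1 + |t|) ^ (-(1 + σ)) :=
  integrable_one_add_norm (E := ℝ) (by simpa using hσ)

theorem cx_val {σ : ℝ} (hσ : 0 < σ) : ∫ t : ℝ, (1 + |t|) ^ (-(1 + σ)) = 2 / σ := by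
  rw [integral_comp_abs (f := fun x => (1 + x) ^ (-(1 + σ)))]
  have h1 : ∀ x ∈ Ici (0 : ℝ), HasDerivAt (fun x : ℝ => -(1 + x) ^ (-σ) / σ)
      ((1 + x) ^ (-(1 + σ))) x := fun x hx => by
    have h0 : (0 : ℝ) < 1 + x := by linarith [mem_Ici.1 hx]
    refine ((((hasDerivAt_id' x).const_add 1).rpow_const (p := -σ)
      (Or.inl h0.ne')).fun_neg.div_const σ).congr_deriv ?_
    rw [show -σ - 1 = -(1 + σ) by ring]
    field_simp
  have h2 : Tendsto (fun x : ℝ => -(1 + x) ^ (-σ) / σ) atTop (𝓝 (-0 / σ)) :=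
    ((tendsto_rpow_neg_atTop hσ).comp (tendsto_atTop_add_const_left _ 1 tendsto_id)).neg.div_const σ
  rw [integral_Ioi_of_hasDerivAt_of_nonneg' h1 (fun x hx => by
    have := mem_Ioi.1 hx
    positivity) h2]
  simp
  ring

theorem cx_two (t : ℝ) : dc 2 t = (1 + |t|) ^ (-(1 + 1 : ℝ)) := by
  rw [dc, rpow_neg (by positivity), one_add_one_eq_two, rpow_two]

theorem cx_aff {g : ℝ → ℝ} {a : ℝ} (ha : 0 < a) (b : ℝ) :
    ∫ t, g (a * t + b) = a⁻¹ * ∫ t, g t := by
  rw [Measure.integral_comp_mul_left (fun y => g (y + b)) a, integral_add_right_eq_self g b,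
    abs_of_pos (inv_pos.2 ha), smul_eq_mul]

theorem integrable_dc {n : ℕ} (hn : 2 ≤ n) : Integrable (dc n) := by
  refine (cx_int one_pos).mono' (continuous_dc n).aestronglyMeasurable
    (Eventually.of_forall fun t => ?_)
  rw [← cx_two, Real.norm_eq_abs, abs_of_pos (dc_pos n t)]
  exact dc_anti hn t
theorem integrable_dc_aff {n : ℕ} (hn : 2 ≤ n) {a : ℝ} (ha : a ≠ 0) (b : ℝ) :
    Integrable fun t => dc n (a * t + b) :=
  ((integrable_dc hn).comp_add_right b).comp_mul_left' ha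
theorem integral_dc_aff {n : ℕ} (hn : 2 ≤ n) {a : ℝ} (ha : 0 < a) (b : ℝ) :
    ∫ t, dc n (a * t + b) ≤ 2 / a := by
  have h1 : ∫ t, dc n t ≤ 2 := by
    refine (integral_mono (integrable_dc hn) (integrable_dc le_rfl) (dc_anti hn)).trans_eq ?_
    simp only [cx_two]
    rw [cx_val one_pos, div_one]
  rw [cx_aff ha, div_eq_inv_mul]
  exact mul_le_mul_of_nonneg_left h1 (inv_pos.2 ha).le
theorem lintegral_dc_aff {n : ℕ} (hn : 2 ≤ n) {a : ℝ} (ha : 0 < a) (b : ℝ) :
    ∫⁻ t, ENNReal.ofReal (dc n (a * t + b)) ≤ ENNReal.ofReal (2 / a) := by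
  rw [← ofReal_integral_eq_lintegral_ofReal (integrable_dc_aff hn ha.ne' b)
    (Eventually.of_forall fun t => (dc_pos _ _).le)]
  exact ENNReal.ofReal_le_ofReal (integral_dc_aff hn ha b)
/-- the same for a real exponent -/
theorem lintegral_rpow_aff {σ : ℝ} (hσ : 0 < σ) {a c : ℝ} (ha : 0 < a) (hc : 0 < c) (b : ℝ) :
    ∫⁻ t, ENNReal.ofReal ((c + a * |t - b|) ^ (-(1 + σ))) ≤
      ENNReal.ofReal (2 * c ^ (-σ) / (σ * a)) := by
  have hq : 0 < a / c := div_pos ha hc
  have e : ∀ t : ℝ, (c + a * |t - b|) ^ (-(1 + σ)) =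
      c ^ (-(1 + σ)) * (1 + |a / c * t + -(a / c * b)|) ^ (-(1 + σ)) := fun t => by
    rw [← mul_rpow hc.le (by positivity), ← sub_eq_add_neg, ← mul_sub, abs_mul, abs_of_pos hq]
    congr 1
    field_simp
  simp only [e]
  rw [← ofReal_integral_eq_lintegral_ofReal
    ((((cx_int hσ).comp_add_right _).comp_mul_left' hq.ne').const_mul _)
    (Eventually.of_forall fun t => by positivity), integral_const_mul,
    cx_aff (g := fun t => (1 + |t|) ^ (-(1 + σ))) hq, cx_val hσ, neg_add, rpow_add hc, rpow_neg_one]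
  refine le_of_eq (congrArg _ ?_)
  field_simp
theorem continuous_mk : Continuous fun q : ℝ × ℝ => (⟨q.1, q.2⟩ : ℂ) :=
  Complex.equivRealProdCLM.symm.continuous
theorem measurable_mk : Measurable fun q : ℝ × ℝ => (⟨q.1, q.2⟩ : ℂ) :=
  continuous_mk.measurable
theorem measurePreserving_mk : MeasurePreserving fun q : ℝ × ℝ => (⟨q.1, q.2⟩ : ℂ) :=
  Complex.volume_preserving_equiv_real_prod.symm
theorem integrable_mk {E : Type} [NormedAddCommGroup E] {g : ℂ → E} :
    Integrable (fun q : ℝ × ℝ => g ⟨q.1, q.2⟩) ↔ Integrable g :=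
  Complex.volume_preserving_equiv_real_prod.symm.integrable_comp_emb
    Complex.measurableEquivRealProd.symm.measurableEmbedding
theorem lintegral_cx {g : ℂ → ℝ≥0∞} (hg : Measurable g) :
    ∫⁻ x, g x = ∫⁻ z : ℝ, ∫⁻ t : ℝ, g ⟨t, z⟩ := by
  rw [← measurePreserving_mk.lintegral_comp hg]
  exact lintegral_prod_symm _ (hg.comp measurable_mk).aemeasurable
theorem lintegral_cx' {g : ℂ → ℝ≥0∞} (hg : Measurable g) :
    ∫⁻ x, g x = ∫⁻ t : ℝ, ∫⁻ z : ℝ, g ⟨t, z⟩ := by
  rw [← measurePreserving_mk.lintegral_comp hg]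
  exact lintegral_prod _ (hg.comp measurable_mk).aemeasurable
theorem integral_cx {g : ℂ → ℂ} (hg : Integrable g) :
    ∫ x, g x = ∫ z : ℝ, ∫ t : ℝ, g ⟨t, z⟩ := by
  rw [← Complex.volume_preserving_equiv_real_prod.symm.integral_comp'  g]
  exact integral_prod_symm _ (integrable_mk.2 hg)
theorem integral_cx' {g : ℂ → ℂ} (hg : Integrable g) :
    ∫ x, g x = ∫ t : ℝ, ∫ z : ℝ, g ⟨t, z⟩ := by
  rw [← Complex.volume_preserving_equiv_real_prod.symm.integral_comp'  g]
  exact integral_prod _ (integrable_mk.2 hg)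
theorem inner_cx (x y : ℂ) : ⟪x, y⟫ = x.re * y.re + x.im * y.im := by
  rw [Complex.inner]
  simp
  ring
theorem norm_sq_cx (x : ℂ) : ‖x‖ ^ 2 = x.re ^ 2 + x.im ^ 2 := by
  rw [Complex.sq_norm, Complex.normSq_apply]
  ring
theorem cx_le {C s t y : ℝ} (h0 : 0 ≤ y) (h : y ≤ C * (dc 2 s * dc 2 t)) :
    y ≤ C * dc 2 s ∧ y ≤ C * dc 2 t ∧ y ≤ C := by
  have h1 := dc_pos 2 s
  have h2 := dc_pos 2 t
  have h3 := dc_le_one 2 s
  have h4 := dc_le_one 2 t
  have hC : 0 ≤ C := nonneg_of_mul_nonneg_left (h0.trans h) (mul_pos h1 h2)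
  refine ⟨h.trans (mul_le_mul_of_nonneg_left (mul_le_of_le_one_right h1.le h4) hC),
    h.trans (mul_le_mul_of_nonneg_left (mul_le_of_le_one_left h2.le h3) hC),
    h.trans (mul_le_of_le_one_right hC (mul_le_one₀ h3 h2.le h4))⟩

theorem Dec.nice (h : Dec G) : Nice G := by
  obtain ⟨C, hC⟩ := h.bd
  refine ⟨h.meas, integrable_mk.1 ?_, C, fun x => (cx_le (norm_nonneg _) (hC x)).2.2⟩
  exact (((integrable_dc le_rfl).mul_prod (integrable_dc le_rfl)).const_mul C).mono'
    (h.meas.comp measurable_mk).aestronglyMeasurable (Eventually.of_forall fun q => hC _)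
theorem Dec.slice (h : Dec G) (z : ℝ) : Nice fun t : ℝ => G ⟨t, z⟩ := by
  obtain ⟨C, hC⟩ := h.bd
  have hm : Measurable fun t : ℝ => G ⟨t, z⟩ :=
    (h.meas.comp measurable_mk).comp measurable_prodMk_right
  exact ⟨hm, ((integrable_dc le_rfl).const_mul C).mono' hm.aestronglyMeasurable
    (Eventually.of_forall fun t => (cx_le (norm_nonneg _) (hC ⟨t, z⟩)).1), C,
    fun x => (cx_le (norm_nonneg _) (hC _)).2.2⟩
theorem Dec.slice' (h : Dec G) (t : ℝ) : Nice fun z : ℝ => G ⟨t, z⟩ := by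
  obtain ⟨C, hC⟩ := h.bd
  have hm : Measurable fun z : ℝ => G ⟨t, z⟩ :=
    (h.meas.comp measurable_mk).comp measurable_prodMk_left
  exact ⟨hm, ((integrable_dc le_rfl).const_mul C).mono' hm.aestronglyMeasurable
    (Eventually.of_forall fun z => (cx_le (norm_nonneg _) (hC ⟨t, z⟩)).2.1), C,
    fun x => (cx_le (norm_nonneg _) (hC _)).2.2⟩
theorem Dec.of_le (h : Dec G) (hm : Measurable G') (hle : ∀ x, ‖G' x‖ ≤ ‖G x‖) : Dec G' :=
  ⟨hm, h.bd.imp fun _ hC x => (hle x).trans (hC x)⟩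
theorem Dec.comp_I (h : Dec G) : Dec fun x => G (Complex.I * x) := by
  refine ⟨h.meas.comp (measurable_const_mul _), h.bd.imp fun C hC x => (hC _).trans_eq ?_⟩
  rw [Complex.I_mul_re, Complex.I_mul_im, dc_neg, mul_comm (dc 2 x.im)]
theorem wt_pos {lam : ℝ} (h : 0 ≤ lam) (s t : ℝ) : 0 < wt lam s t := by
  unfold wt
  positivity
theorem wt_le_one {lam s : ℝ} (h : 0 ≤ lam) (hs : 0 ≤ s) (t : ℝ) : wt lam s t ≤ 1 :=
  rpow_le_one_of_one_le_of_nonpos (le_add_of_nonneg_right (by positivity)) (by linarith)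
theorem continuous_wt {lam : ℝ} (h : 0 ≤ lam) (s : ℝ) : Continuous (wt lam s) :=
  Continuous.rpow_const (by fun_prop) fun t => Or.inl (by positivity)
theorem Dec.wm (h : Dec G) {lam s : ℝ} (hl : 0 ≤ lam) (hs : 0 ≤ s) : Dec (wm lam s G) := by
  refine h.of_le ((Complex.measurable_ofReal.comp ((continuous_wt hl s).measurable.comp
    Complex.measurable_re)).mul h.meas) fun x => ?_
  rw [P117.wm, norm_mul, Complex.norm_real, Real.norm_eq_abs, abs_of_pos (wt_pos hl _ _)]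
  exact mul_le_of_le_one_left (norm_nonneg _) (wt_le_one hl hs _)

end Vale.Agent.P117
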