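import Vale.Agent.P117.Schur

/-!
Two forms of the Marcinkiewicz interpolation theorem for one function. Layer cake:
`lintegral_rpow_eq_lintegral_meas_lt_mul`; Chebyshev: `mul_meas_ge_le_lintegral₀`; Tonelli.
`μ {2α < ‖g‖} ≤ α ^ (-q₀) * A * ∫_{α < ‖f‖} ‖f‖ ^ q₀ + α ^ (-q₁) * B * ∫_{‖f‖ ≤ α} ‖f‖ ^ q₁`, and
`∫_0^s α ^ (p - 1 - q₀) = s ^ (p - q₀) / (p - q₀)`, `∫_s^∞ α ^ (p - 1 - q₁) = s ^ (p - q₁) / (q₁ - p)`
(`integral_rpow`, `integral_Ioi_rpow_of_lt`). In the second form `{2 B α < ‖g‖} ⊆ {B α < ‖g₁‖}`.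
A discrete version (dyadic `α`) is also fine.
-/

open MeasureTheory Set Real Filter
open scoped FourierTransform RealInnerProductSpace ContDiff ENNReal Topology

noncomputable section

namespace Vale.Agent.P117

section aux

variable {X : Type} [MeasurableSpace X] (μ : Measure X)

theorem marc_enorm (z : ℂ) {p : ℝ} (hp : 0 ≤ p) : ‖z‖ₑ ^ p = ENNReal.ofReal (‖z‖ ^ p) := by
  rw [← ofReal_norm, ENNReal.ofReal_rpow_of_nonneg (norm_nonneg _) hp]

theorem marc_cake {g : X → ℂ} (hg : Measurable g) {p c : ℝ} (hp : 0 < p) (hc : 0 < c) :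
    Np μ p g = ENNReal.ofReal (p * c ^ p) *
      ∫⁻ α in Ioi (0 : ℝ), μ {x | c * α < ‖g x‖} * ENNReal.ofReal (α ^ (p - 1)) := by
  have h := lintegral_rpow_eq_lintegral_meas_lt_mul μ (f := fun x => ‖g x‖ / c)
    (ae_of_all _ fun x => by positivity) (hg.norm.div_const c).aemeasurable hp
  simp only [lt_div_iff₀' hc] at h
  rw [mul_comm p, ENNReal.ofReal_mul (by positivity), mul_assoc, ← h,
    ← lintegral_const_mul' _ _ ENNReal.ofReal_ne_top]
  refine lintegral_congr fun x => ?_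
  rw [marc_enorm _ hp.le, ← ENNReal.ofReal_mul (by positivity), Real.div_rpow (norm_nonneg _) hc.le,
    mul_div_cancel₀ _ (Real.rpow_pos_of_pos hc p).ne']

theorem marc_cheb {g : X → ℂ} (hg : Measurable g) {q t : ℝ} (hq : 0 < q) (ht : 0 < t) :
    μ {x | t < ‖g x‖} ≤ ENNReal.ofReal (t ^ (-q)) * Np μ q g := by
  have h := mul_meas_ge_le_lintegral₀ (μ := μ) (f := fun x => ‖g x‖ₑ ^ q)
    (hg.enorm.pow_const q).aemeasurable (ENNReal.ofReal (t ^ q))
  have h1 : {x | t < ‖g x‖} ⊆ {x | ENNReal.ofReal (t ^ q) ≤ ‖g x‖ₑ ^ q} := fun x hx => by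
    rw [mem_ofPred_eq, marc_enorm _ hq.le]
    exact ENNReal.ofReal_le_ofReal (Real.rpow_le_rpow ht.le (le_of_lt hx) hq.le)
  calc μ {x | t < ‖g x‖} = ENNReal.ofReal (t ^ (-q)) * (ENNReal.ofReal (t ^ q) *
        μ {x | t < ‖g x‖}) := by
        rw [← mul_assoc, ← ENNReal.ofReal_mul (by positivity), ← Real.rpow_add ht]
        simp
    _ ≤ _ := by
        gcongr
        exact (mul_le_mul_right (measure_mono h1) _).trans h

theorem marc_meas [SFinite μ] {h : ℝ → X → ℂ} (hh : Measurable (Function.uncurry h)) (r q : ℝ) :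
    Measurable fun α : ℝ => ENNReal.ofReal (α ^ r) * Np μ q (h α) :=
  (measurable_id.pow_const r).ennreal_ofReal.mul
    (Measurable.lintegral_prod_right (f := fun α x => ‖h α x‖ₑ ^ q) (hh.enorm.pow_const q))

theorem marc_swap [SFinite μ] {h : ℝ → X → ℂ} (hh : Measurable (Function.uncurry h)) {f : X → ℂ}
    {r q p c : ℝ} (hx : ∀ x, ∫⁻ α in Ioi (0 : ℝ), ENNReal.ofReal (α ^ r) * ‖h α x‖ₑ ^ q ≤
      ENNReal.ofReal c * ‖f x‖ₑ ^ p) :
    ∫⁻ α in Ioi (0 : ℝ), ENNReal.ofReal (α ^ r) * Np μ q (h α) ≤ ENNReal.ofReal c * Np μ p f := by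
  simp only [Np, ← lintegral_const_mul' _ _ ENNReal.ofReal_ne_top]
  rw [lintegral_lintegral_swap]
  · exact lintegral_mono hx
  · exact ((measurable_fst.pow_const r).ennreal_ofReal.mul (hh.enorm.pow_const q)).aemeasurable

theorem marc_mhi {f : X → ℂ} (hf : Measurable f) :
    Measurable (Function.uncurry fun α => hi α f) :=
  (hf.comp measurable_snd).indicator
    (measurableSet_lt measurable_fst (hf.comp measurable_snd).norm)

theorem marc_mlo {f : X → ℂ} (hf : Measurable f) :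
    Measurable (Function.uncurry fun α => lo α f) :=
  (hf.comp measurable_snd).indicator
    (measurableSet_le (hf.comp measurable_snd).norm measurable_fst)

theorem marc_hi [SFinite μ] {f : X → ℂ} (hf : Measurable f) {q p : ℝ} (h0 : 0 < q) (h1 : q < p) :
    ∫⁻ α in Ioi (0 : ℝ), ENNReal.ofReal (α ^ (p - 1 - q)) * Np μ q (hi α f) ≤
      ENNReal.ofReal (1 / (p - q)) * Np μ p f := by
  refine marc_swap μ (marc_mhi hf) fun x => ?_
  have hpq : 0 < p - q := sub_pos.2 h1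
  have e1 : ∀ α : ℝ, ENNReal.ofReal (α ^ (p - 1 - q)) * ‖hi α f x‖ₑ ^ q =
      (Iio ‖f x‖).indicator (fun α => ENNReal.ofReal (α ^ (p - 1 - q)) * ‖f x‖ₑ ^ q) α := by
    intro α
    by_cases h : α < ‖f x‖
    · simp [hi, h]
    · simp [hi, h, h0]
  have hi : IntegrableOn (fun α : ℝ => α ^ (p - 1 - q)) (Ioo 0 ‖f x‖) :=
    (intervalIntegral.intervalIntegrable_rpow' (a := 0) (b := ‖f x‖)
      (by linarith : -1 < p - 1 - q)).1.mono_set Ioo_subset_Ioc_self
  simp only [e1]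
  rw [lintegral_indicator measurableSet_Iio, Measure.restrict_restrict measurableSet_Iio,
    Iio_inter_Ioi, lintegral_mul_const' _ _ (ENNReal.rpow_ne_top_of_nonneg h0.le enorm_ne_top),
    ← ofReal_integral_eq_lintegral_ofReal hi
      ((ae_restrict_mem measurableSet_Ioo).mono fun α hα => Real.rpow_nonneg hα.1.le _),
    ← integral_Ioc_eq_integral_Ioo, ← intervalIntegral.integral_of_le (norm_nonneg _),
    integral_rpow (Or.inl (by linarith)), show p - 1 - q + 1 = p - q by ring,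
    Real.zero_rpow hpq.ne', sub_zero, marc_enorm _ h0.le, marc_enorm _ (h0.trans h1).le,
    ← ENNReal.ofReal_mul (by positivity), ← ENNReal.ofReal_mul (by positivity)]
  refine le_of_eq (congrArg _ ?_)
  rw [div_mul_eq_mul_div, ← Real.rpow_add' (norm_nonneg _) (by linarith), sub_add_cancel]
  ring

theorem marc_lo [SFinite μ] {f : X → ℂ} (hf : Measurable f) {q p : ℝ} (h0 : 0 < p) (h1 : p < q) :
    ∫⁻ α in Ioi (0 : ℝ), ENNReal.ofReal (α ^ (p - 1 - q)) * Np μ q (lo α f) ≤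
      ENNReal.ofReal (1 / (q - p)) * Np μ p f := by
  refine marc_swap μ (marc_mlo hf) fun x => ?_
  have hpq : 0 < q - p := sub_pos.2 h1
  have hq : 0 < q := h0.trans h1
  rcases eq_or_ne (f x) 0 with hx | hx
  · have : ∀ α, lo α f x = 0 := fun α => by simp [lo, indicator, hx]
    simp [this, hq]
  have hs : 0 < ‖f x‖ := norm_pos_iff.2 hx
  have e1 : ∀ α : ℝ, ENNReal.ofReal (α ^ (p - 1 - q)) * ‖lo α f x‖ₑ ^ q =
      (Ici ‖f x‖).indicator (fun α => ENNReal.ofReal (α ^ (p - 1 - q)) * ‖f x‖ₑ ^ q) α := by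
    intro α
    by_cases h : ‖f x‖ ≤ α
    · simp [lo, h]
    · simp [lo, h, hq]
  have e2 : Ici ‖f x‖ ∩ Ioi 0 = Ici ‖f x‖ := inter_eq_left.2 fun α hα => hs.trans_le hα
  simp only [e1]
  rw [lintegral_indicator measurableSet_Ici, Measure.restrict_restrict measurableSet_Ici, e2,
    lintegral_mul_const' _ _ (ENNReal.rpow_ne_top_of_nonneg hq.le enorm_ne_top),
    ← Measure.restrict_congr_set Ioi_ae_eq_Ici,
    ← ofReal_integral_eq_lintegral_ofReal (integrableOn_Ioi_rpow_of_lt (by linarith) hs)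
      ((ae_restrict_mem measurableSet_Ioi).mono fun α hα => Real.rpow_nonneg (hs.trans hα).le _),
    integral_Ioi_rpow_of_lt (by linarith) hs, show p - 1 - q + 1 = -(q - p) by ring,
    neg_div_neg_eq, marc_enorm _ h0.le, marc_enorm _ hq.le,
    ← ENNReal.ofReal_mul (by positivity), ← ENNReal.ofReal_mul (by positivity)]
  refine le_of_eq (congrArg _ ?_)
  rw [div_mul_eq_mul_div, ← Real.rpow_add hs, show -(q - p) + q = p by ring]
  ring

theorem marc_pow {α : ℝ} (hα : 0 < α) (p q : ℝ) :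
    ENNReal.ofReal (α ^ (-q)) * ENNReal.ofReal (α ^ (p - 1)) =
      ENNReal.ofReal (α ^ (p - 1 - q)) := by
  rw [← ENNReal.ofReal_mul (by positivity), ← Real.rpow_add hα]
  congr 2
  ring

end aux

theorem marc {q₀ p q₁ : ℝ} (h0 : 0 < q₀) (h1 : q₀ < p) (h2 : p < q₁) : ∃ C : ℝ, 0 < C ∧
    ∀ {X : Type} [MeasurableSpace X] (μ : Measure X) [SFinite μ] (f g : X → ℂ) (A B : ℝ≥0∞),
      Measurable f → Measurable g →
      (∀ α : ℝ, 0 < α → ∃ g₁ g₂ : X → ℂ, Measurable g₁ ∧ Measurable g₂ ∧ (∀ x, g x = g₁ x + g₂ x) ∧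
        Np μ q₀ g₁ ≤ A * Np μ q₀ (hi α f) ∧ Np μ q₁ g₂ ≤ B * Np μ q₁ (lo α f)) →
      Np μ p g ≤ ENNReal.ofReal C * (A + B) * Np μ p f := by
  have hp : 0 < p := h0.trans h1
  have d0 : 0 < p - q₀ := sub_pos.2 h1
  have d1 : 0 < q₁ - p := sub_pos.2 h2
  refine ⟨p * 2 ^ p * (1 / (p - q₀) + 1 / (q₁ - p)), by positivity,
    fun μ _ f g A B hf hg H => ?_⟩
  have key : ∀ α ∈ Ioi (0 : ℝ), μ {x | 2 * α < ‖g x‖} * ENNReal.ofReal (α ^ (p - 1)) ≤
      A * (ENNReal.ofReal (α ^ (p - 1 - q₀)) * Np μ q₀ (hi α f)) +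
      B * (ENNReal.ofReal (α ^ (p - 1 - q₁)) * Np μ q₁ (lo α f)) := by
    intro α hα
    obtain ⟨g₁, g₂, m1, m2, e, n1, n2⟩ := H α hα
    have hs : {x | 2 * α < ‖g x‖} ⊆ {x | α < ‖g₁ x‖} ∪ {x | α < ‖g₂ x‖} := fun x hx => by
      by_contra hn
      simp only [mem_union, mem_ofPred_eq, not_or, not_lt] at hn hx
      have := norm_add_le (g₁ x) (g₂ x)
      rw [← e] at this
      linarith [hn.1, hn.2]
    have h3 : μ {x | 2 * α < ‖g x‖} ≤ ENNReal.ofReal (α ^ (-q₀)) * (A * Np μ q₀ (hi α f)) +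
        ENNReal.ofReal (α ^ (-q₁)) * (B * Np μ q₁ (lo α f)) :=
      ((measure_mono hs).trans (measure_union_le _ _)).trans (add_le_add
        ((marc_cheb μ m1 h0 hα).trans (mul_le_mul_right n1 _))
        ((marc_cheb μ m2 (hp.trans h2) hα).trans (mul_le_mul_right n2 _)))
    refine (mul_le_mul_left h3 _).trans (le_of_eq ?_)
    rw [← marc_pow hα, ← marc_pow hα]
    ring
  rw [marc_cake μ hg hp two_pos, ENNReal.ofReal_mul (p := p * 2 ^ p) (by positivity), mul_assoc,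
    mul_assoc]
  refine mul_le_mul_right ((setLIntegral_mono' measurableSet_Ioi key).trans ?_) _
  rw [lintegral_add_left ((marc_meas μ (marc_mhi hf) _ _).const_mul A),
    lintegral_const_mul _ (marc_meas μ (marc_mhi hf) _ _),
    lintegral_const_mul _ (marc_meas μ (marc_mlo hf) _ _)]
  refine (add_le_add (mul_le_mul_right (marc_hi μ hf h0 h1) A)
    (mul_le_mul_right (marc_lo μ hf hp h2) B)).trans ?_
  rw [ENNReal.ofReal_add (by positivity) (by positivity)]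
  calc _ ≤ A * (ENNReal.ofReal (1 / (p - q₀)) * Np μ p f) +
      B * (ENNReal.ofReal (1 / (q₁ - p)) * Np μ p f) +
      (B * (ENNReal.ofReal (1 / (p - q₀)) * Np μ p f) +
      A * (ENNReal.ofReal (1 / (q₁ - p)) * Np μ p f)) := le_self_add
    _ = _ := by ring

theorem marc_inf {q p : ℝ} (h0 : 0 < q) (h1 : q < p) : ∃ C : ℝ, 0 < C ∧
    ∀ {X : Type} [MeasurableSpace X] (μ : Measure X) [SFinite μ] (f g : X → ℂ) (A : ℝ≥0∞) (B : ℝ),
      0 < B → Measurable f → Measurable g →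
      (∀ α : ℝ, 0 < α → ∃ g₁ g₂ : X → ℂ, Measurable g₁ ∧ (∀ x, g x = g₁ x + g₂ x) ∧
        Np μ q g₁ ≤ A * Np μ q (hi α f) ∧ ∀ x, ‖g₂ x‖ ≤ B * α) →
      Np μ p g ≤ ENNReal.ofReal (C * B ^ (p - q)) * A * Np μ p f := by
  have hp : 0 < p := h0.trans h1
  have d0 : 0 < p - q := sub_pos.2 h1
  refine ⟨p * 2 ^ p * (1 / (p - q)), by positivity, fun μ _ f g A B hB hf hg H => ?_⟩
  have key : ∀ α ∈ Ioi (0 : ℝ), μ {x | 2 * B * α < ‖g x‖} * ENNReal.ofReal (α ^ (p - 1)) ≤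
      ENNReal.ofReal (B ^ (-q)) * A * (ENNReal.ofReal (α ^ (p - 1 - q)) * Np μ q (hi α f)) := by
    intro α hα
    obtain ⟨g₁, g₂, m1, e, n1, n2⟩ := H α hα
    have hs : {x | 2 * B * α < ‖g x‖} ⊆ {x | B * α < ‖g₁ x‖} := fun x hx => by
      simp only [mem_ofPred_eq] at hx ⊢
      have := norm_add_le (g₁ x) (g₂ x)
      rw [← e] at this
      linarith [n2 x]
    have h3 := (measure_mono hs).trans
      ((marc_cheb μ m1 h0 (mul_pos hB hα)).trans (mul_le_mul_right n1 _))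
    refine (mul_le_mul_left h3 _).trans (le_of_eq ?_)
    rw [← marc_pow hα, Real.mul_rpow hB.le (le_of_lt hα), ENNReal.ofReal_mul (by positivity)]
    ring
  rw [marc_cake μ hg hp (mul_pos two_pos hB)]
  refine (mul_le_mul_right (setLIntegral_mono' measurableSet_Ioi key) _).trans ?_
  rw [lintegral_const_mul _ (marc_meas μ (marc_mhi hf) _ _)]
  refine (mul_le_mul_right (mul_le_mul_right (marc_hi μ hf h0 h1) _) _).trans (le_of_eq ?_)
  have e : p * 2 ^ p * (1 / (p - q)) * B ^ (p - q) =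
      p * (2 * B) ^ p * (B ^ (-q) * (1 / (p - q))) := by
    rw [Real.mul_rpow two_pos.le hB.le, sub_eq_add_neg p q, Real.rpow_add hB]
    ring
  rw [e, ENNReal.ofReal_mul (p := p * (2 * B) ^ p) (by positivity),
    ENNReal.ofReal_mul (p := B ^ (-q)) (by positivity)]
  ring

end Vale.Agent.P117
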