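import Vale.Agent.P117.Cyl
import Vale.Agent.P117.Marc

/-!
Calculus of the bounds `Bd`. `Bd.interp`: `marc_inf` with `g₁ = cv K (hi α f)`, `g₂ = cv K (lo α f)`, `norm_cv_le`.
`Bd.dual`: `h = cv K f` is continuous, bounded, equivariant. For `N : ℕ` let `g = indicator (closedBall 0 N) (conj h * ‖h‖ ^ (p - 2))` (a function of class `-k`, `‖g‖ = ‖h‖ ^ (p - 1)` on the ball).
`J = ∫_{ball} ‖h‖ ^ p = ∫ h * g = ∫ f * cv K g` (Fubini, `K` even) `≤ (Np p f) ^ (1/p) * (Np q (cv K g)) ^ (1/q) ≤ (Np p f) ^ (1/p) * A * J ^ (1/q)`, and `J` is finite. Then `Np_fatou`.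
-/

open MeasureTheory Set Real Filter
open scoped FourierTransform RealInnerProductSpace ContDiff ENNReal Topology

noncomputable section

namespace Vale.Agent.P117

variable {p A B : ℝ} {k : ℤ} {K K' f : E3 → ℂ}

theorem Cls.hi (h : Cls k f) (α : ℝ) : Cls k (hi α f) := by
  obtain ⟨C, hC⟩ := h.bdd
  obtain ⟨R, hR⟩ := h.supp
  refine ⟨measurable_hi α h.meas, ⟨C, fun x => (norm_hi_le α f x).trans (hC x)⟩,
    ⟨R, fun x hx => ?_⟩, fun θ x => ?_⟩
  · have := norm_hi_le α f x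
    rwa [hR x hx, norm_zero, norm_le_zero_iff] at this
  · simp only [P117.hi, indicator_apply, mem_setOf_eq, h.eqv.norm θ x]
    split_ifs
    · exact h.eqv θ x
    · rw [mul_zero]

theorem Cls.lo (h : Cls k f) (α : ℝ) : Cls k (lo α f) := by
  obtain ⟨C, hC⟩ := h.bdd
  obtain ⟨R, hR⟩ := h.supp
  refine ⟨measurable_lo α h.meas, ⟨C, fun x => (norm_lo_le α f x).trans (hC x)⟩,
    ⟨R, fun x hx => ?_⟩, fun θ x => ?_⟩
  · have := norm_lo_le α f x
    rwa [hR x hx, norm_zero, norm_le_zero_iff] at this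
  · simp only [P117.lo, indicator_apply, mem_setOf_eq, h.eqv.norm θ x]
    split_ifs
    · exact h.eqv θ x
    · rw [mul_zero]

theorem Bd.mono (hp : 0 ≤ p) (h : Bd p k A K) (hA : A ≤ B) : Bd p k B K := fun f hf =>
  (h f hf).trans (mul_le_mul_left (ENNReal.rpow_le_rpow (ENNReal.ofReal_le_ofReal hA) hp) _)

theorem Bd.add (hp : 1 ≤ p) (hK : Ker K) (hK' : Ker K') (hA : 0 ≤ A) (hB : 0 ≤ B) (h : Bd p k A K)
    (h' : Bd p k B K') : Bd p k (A + B) fun x => K x + K' x := by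
  intro f hf
  have e : cv (fun x => K x + K' x) f = fun x => cv K f x + cv K' f x :=
    funext fun x => cv_add_left hK hK' hf.nice.int x
  rw [e]
  exact Np_add_le hp (cv_ker hK hf.nice).cont.measurable (cv_ker hK' hf.nice).cont.measurable hA hB
    (h f hf) (h' f hf)

theorem Bd.sum (hp : 1 ≤ p) (n : ℕ) {H : ℕ → E3 → ℂ} (hH : ∀ i, Ker (H i)) (hA : 0 ≤ A)
    (h : ∀ i < n, Bd p k A (H i)) : Bd p k (n * A) fun x => ∑ i ∈ Finset.range n, H i x := by
  induction n with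
  | zero =>
    intro f _
    have hp0 : 0 < p := by linarith
    simp [Np, cv, ENNReal.zero_rpow_of_pos hp0]
  | succ n ih =>
    have h1 := Bd.add hp (Ker.sum (Finset.range n) fun i _ => hH i) (hH n)
      (mul_nonneg (Nat.cast_nonneg n) hA) hA (ih fun i hi => h i (by omega)) (h n (by omega))
    simp only [Finset.sum_range_succ, Nat.cast_succ, add_mul, one_mul]
    exact h1

theorem Bd.const_mul (hp : 0 ≤ p) (h : Bd p k A K) {c : ℝ} (hc : 0 ≤ c) :
    Bd p k (c * A) fun x => (c : ℂ) * K x := by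
  intro f hf
  have e : cv (fun x => (c : ℂ) * K x) f = fun x => (c : ℂ) * cv K f x := by
    funext x
    simp only [cv, mul_assoc, integral_const_mul]
  rw [e, Np_const_mul hp, ENNReal.ofReal_mul hc, ENNReal.mul_rpow_of_nonneg _ _ hp, mul_assoc,
    ← ofReal_norm, Complex.norm_real, Real.norm_of_nonneg hc]
  exact mul_le_mul_right (h f hf) _

theorem Bd.of_L1 (hp : 1 ≤ p) (hK : Ker K) (hA : ∫ x, ‖K x‖ ≤ A) (k : ℤ) : Bd p k A K :=
  fun _ hf => young hp hK hf.meas hA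

theorem Bd.interp {q : ℝ} (hq : 1 ≤ q) (hp : q < p) : ∃ C : ℝ, 0 < C ∧
    ∀ (k : ℤ) (A B : ℝ) (K : E3 → ℂ), 0 < A → 0 < B → Ker K → Bd q k A K → ∫ x, ‖K x‖ ≤ B →
      Bd p k (C * A ^ (q / p) * B ^ (1 - q / p)) K := by
  have hq0 : 0 < q := by linarith
  have hp0 : 0 < p := by linarith
  obtain ⟨C, hC, hm⟩ := marc_inf hq0 hp
  refine ⟨C ^ (1 / p), by positivity, fun k A B K hA hB hK h hI f hf => ?_⟩
  have h1 := hm volume f (cv K f) (ENNReal.ofReal A ^ q) B hB hf.meas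
    (cv_ker hK hf.nice).cont.measurable fun α hα =>
      ⟨cv K (hi α f), cv K (lo α f), (cv_ker hK (hf.hi α).nice).cont.measurable, fun x => by
        rw [← cv_add_right hK (hf.hi α).nice.int (hf.lo α).nice.int]
        simp only [← hi_add_lo], h _ (hf.hi α), fun x =>
        (norm_cv_le hK.int (Eventually.of_forall (norm_lo_le' hα.le f)) x).trans
          (mul_le_mul_of_nonneg_right hI hα.le)⟩
  refine h1.trans_eq ?_
  rw [ENNReal.ofReal_rpow_of_pos hA, ENNReal.ofReal_rpow_of_pos (by positivity),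
    ← ENNReal.ofReal_mul (by positivity), mul_rpow (by positivity) (by positivity),
    mul_rpow (by positivity) (by positivity), ← rpow_mul hC.le, ← rpow_mul hA.le, ← rpow_mul hB.le,
    one_div_mul_cancel hp0.ne', div_mul_cancel₀ _ hp0.ne', sub_mul, div_mul_cancel₀ _ hp0.ne',
    one_mul, rpow_one, mul_right_comm]

end Vale.Agent.P117
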