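import Vale.Agent.P117.Four

/-!
Uniform decay of Fourier transforms for compact families. `Real.pow_mul_norm_iteratedFDeriv_fourier_le` with `k = 0`;
the derivatives of `N (a, ·)` are bounded by those of `N` (`iteratedFDeriv_comp_add_left`,
`ContinuousLinearMap.iteratedFDeriv_comp_right` or `ContDiff.iteratedFDeriv_right`-like continuity), which are bounded on the
compact set `S ×ˢ closedBall 0 R`, and vanish for `R < ‖y‖`. Finally `(1 + t) ^ n ≤ 2 ^ n * (1 + t ^ n)`.
-/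

open MeasureTheory Set Real Filter
open scoped FourierTransform RealInnerProductSpace ContDiff ENNReal Topology

noncomputable section

namespace Vale.Agent.P117

variable {V : Type} [NormedAddCommGroup V] [InnerProductSpace ℝ V] [FiniteDimensional ℝ V]
  [MeasurableSpace V] [BorelSpace V]

theorem decay_int {P : Type} [NormedAddCommGroup P] [NormedSpace ℝ P] {N : P × V → ℂ}
    (hN : ContDiff ℝ ∞ N) {S : Set P} (hS : IsCompact S) {R : ℝ}
    (hR : ∀ a ∈ S, ∀ y, R < ‖y‖ → N (a, y) = 0) (j : ℕ) :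
    ∃ B, 0 ≤ B ∧ ∀ a ∈ S, ∫ v, ‖iteratedFDeriv ℝ j (fun y => N (a, y)) v‖ ≤ B := by
  obtain ⟨B, hB⟩ := (hS.prod (isCompact_closedBall (0 : V) R)).exists_bound_of_continuousOn
    (hN.continuous_iteratedFDeriv (m := j) (mod_cast le_top)).continuousOn
  refine ⟨|B| * volume.real (Metric.closedBall (0 : V) R), by positivity, fun a ha => ?_⟩
  have hs : tsupport (fun y => N (a, y)) ⊆ Metric.closedBall 0 R :=
    closure_minimal (fun y hy => mem_closedBall_zero_iff.2 (not_lt.1 fun h => hy (hR a ha y h)))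
      Metric.isClosed_closedBall
  rw [← setIntegral_eq_integral_of_forall_compl_eq_zero (s := Metric.closedBall 0 R) fun v hv =>
    norm_eq_zero.2 (Function.notMem_support.1 fun h => hv (hs (support_iteratedFDeriv_subset j h)))]
  refine (Real.le_norm_self _).trans (norm_setIntegral_le_of_norm_le_const measure_closedBall_lt_top
    fun v hv => ?_)
  have e : (fun y => N (a, y)) = (fun q => N ((a, 0) + q)) ∘ ContinuousLinearMap.inr ℝ P V := by
    funext y
    simp
  have hN' : ContDiff ℝ ∞ fun q => N ((a, 0) + q) := hN.comp (contDiff_const.add contDiff_id)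
  rw [norm_norm, e, ContinuousLinearMap.iteratedFDeriv_comp_right _ hN' _ (mod_cast le_top),
    iteratedFDeriv_comp_add_left]
  refine (ContinuousMultilinearMap.norm_compContinuousLinearMap_le _ _).trans ?_
  have h1 : ∏ _i : Fin j, ‖ContinuousLinearMap.inr ℝ P V‖ ≤ 1 :=
    Finset.prod_le_one (fun _ _ => ContinuousLinearMap.opNorm_nonneg _) fun _ _ => ContinuousLinearMap.norm_inr_le_one ..
  refine (mul_le_of_le_one_right (norm_nonneg _) h1).trans (le_trans (hB _ ?_) (le_abs_self B))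
  simpa using ⟨ha, by simpa using hv⟩

theorem decay_pow {P : Type} [NormedAddCommGroup P] [NormedSpace ℝ P] {N : P × V → ℂ}
    (hN : ContDiff ℝ ∞ N) {S : Set P} (hS : IsCompact S) {R : ℝ}
    (hR : ∀ a ∈ S, ∀ y, R < ‖y‖ → N (a, y) = 0) (n : ℕ) :
    ∃ C, 0 ≤ C ∧ ∀ a ∈ S, ∀ x, ‖x‖ ^ n * ‖𝓕 (fun y => N (a, y)) x‖ ≤ C := by
  choose B hB0 hB using decay_int hN hS hR
  refine ⟨2 ^ n * ∑ j ∈ Finset.range (n + 1), B j,
    mul_nonneg (by positivity) (Finset.sum_nonneg fun j _ => hB0 j), fun a ha x => ?_⟩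
  have hf : ContDiff ℝ ∞ fun y => N (a, y) := hN.comp (contDiff_const.prodMk contDiff_id)
  have hc : HasCompactSupport fun y => N (a, y) :=
    HasCompactSupport.intro (isCompact_closedBall 0 R) fun y hy =>
      hR a ha y (not_le.1 fun h => hy (mem_closedBall_zero_iff.2 h))
  have h := Real.pow_mul_norm_iteratedFDeriv_fourier_le (K := 0) (N := ⊤) hf
    (fun k m _ _ => Continuous.integrable_of_hasCompactSupport ((continuous_norm.pow k).mul
      (hf.continuous_iteratedFDeriv (mod_cast le_top)).norm)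
      (hc.iteratedFDeriv m).norm.mul_left) (k := 0) (n := n) le_rfl le_top x
  simp only [norm_iteratedFDeriv_zero, pow_zero, one_mul, Nat.cast_zero, mul_zero, zero_add,
    Finset.range_one, Finset.sum_product, Finset.sum_singleton] at h
  exact h.trans (mul_le_mul_of_nonneg_left (Finset.sum_le_sum fun j _ => hB j a ha) (by positivity))

theorem unif_decay {P : Type} [NormedAddCommGroup P] [NormedSpace ℝ P] {N : P × V → ℂ}
    (hN : ContDiff ℝ ∞ N) {S : Set P} (hS : IsCompact S) {R : ℝ}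
    (hR : ∀ a ∈ S, ∀ y, R < ‖y‖ → N (a, y) = 0) (n : ℕ) :
    ∃ C, 0 ≤ C ∧ ∀ a ∈ S, ∀ x, ‖𝓕⁻ (fun y => N (a, y)) x‖ ≤ C * ((1 + ‖x‖) ^ n)⁻¹ := by
  obtain ⟨C0, h0, hC0⟩ := decay_pow hN hS hR 0
  obtain ⟨C1, h1, hC1⟩ := decay_pow hN hS hR n
  refine ⟨2 ^ (n - 1) * (C0 + C1), by positivity, fun a ha x => ?_⟩
  have a0 := hC0 a ha (-x)
  have a1 := hC1 a ha (-x)
  rw [pow_zero, one_mul] at a0
  rw [norm_neg] at a1
  rw [Real.fourierInv_eq_fourier_neg, ← div_eq_mul_inv, le_div_iff₀ (by positivity)]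
  calc _ ≤ ‖𝓕 (fun y => N (a, y)) (-x)‖ * (2 ^ (n - 1) * (1 ^ n + ‖x‖ ^ n)) :=
        mul_le_mul_of_nonneg_left (add_pow_le zero_le_one (norm_nonneg x) n) (norm_nonneg _)
    _ = 2 ^ (n - 1) * (‖𝓕 (fun y => N (a, y)) (-x)‖ + ‖x‖ ^ n * ‖𝓕 (fun y => N (a, y)) (-x)‖) := by
        ring
    _ ≤ _ := by gcongr

theorem Sm.decay {m : V → ℂ} (h : Sm m) (n : ℕ) :
    ∃ C, 0 ≤ C ∧ ∀ x, ‖𝓕⁻ m x‖ ≤ C * ((1 + ‖x‖) ^ n)⁻¹ := by
  obtain ⟨R, hR⟩ := h.cs.isCompact.isBounded.subset_closedBall 0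
  obtain ⟨C, h0, hC⟩ := unif_decay (N := fun q : ℝ × V => m q.2) (h.smooth.comp contDiff_snd)
    (isCompact_singleton (x := 0)) (R := R) (fun _ _ y hy => image_eq_zero_of_notMem_tsupport
      fun hs => not_le.2 hy (mem_closedBall_zero_iff.1 (hR hs))) n
  exact ⟨C, h0, hC 0 rfl⟩

end Vale.Agent.P117
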