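import Vale.Agent.P117.Four

/-!
Rotations and cylindrical coordinates. `measurePreserving_pt`: `PiLp.volume_preserving_toLp`, `volume_preserving_piFinSuccAbove` or
`measurePreserving_piFinSuccAbove`, `volume_preserving_finTwoArrow`; polar coordinates: `lintegral_comp_polarCoord_symm`,
`integral_comp_polarCoord_symm`, `polarCoord_target`. `EuclideanSpace.norm_sq_eq`, `Fin.sum_univ_three`.
-/

open MeasureTheory Set Real Filter
open scoped FourierTransform RealInnerProductSpace ContDiff ENNReal Topology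

noncomputable section

namespace Vale.Agent.P117

variable {k : ℤ} {f K m : E3 → ℂ}

@[simp] theorem pt_zero (a b z : ℝ) : pt a b z 0 = a := rfl
@[simp] theorem pt_one (a b z : ℝ) : pt a b z 1 = b := rfl
@[simp] theorem pt_two (a b z : ℝ) : pt a b z 2 = z := rfl
theorem pt_eta (x : E3) : pt (x 0) (x 1) (x 2) = x := by
  ext i
  fin_cases i <;> rfl
theorem rot_eq (θ : ℝ) (x : E3) :
    rot θ x = pt (cos θ * x 0 - sin θ * x 1) (sin θ * x 0 + cos θ * x 1) (x 2) := rfl
theorem norm_sq_e3 (x : E3) : ‖x‖ ^ 2 = x 0 ^ 2 + x 1 ^ 2 + x 2 ^ 2 := by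
  simp [EuclideanSpace.norm_sq_eq, Fin.sum_univ_three]
theorem inner_e3 (x y : E3) : ⟪x, y⟫ = x 0 * y 0 + x 1 * y 1 + x 2 * y 2 := by
  simp [PiLp.inner_apply, Fin.sum_univ_three, mul_comm]
theorem exists_rotL (θ : ℝ) : ∃ A : E3 ≃ₗᵢ[ℝ] E3, ∀ x, A x = rot θ x := by
  let A : E3 →ₗᵢ[ℝ] E3 :=
    { toFun := rot θ
      map_add' := fun x y => by
        ext i
        fin_cases i <;> simp [rot] <;> ring
      map_smul' := fun c x => by
        ext i
        fin_cases i <;> simp [rot] <;> ring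
      norm_map' := fun x => by
        change ‖rot θ x‖ = ‖x‖
        rw [← sq_eq_sq₀ (norm_nonneg _) (norm_nonneg _), norm_sq_e3, norm_sq_e3, rot_eq, pt_zero,
          pt_one, pt_two]
        linear_combination (x 0 ^ 2 + x 1 ^ 2) * sin_sq_add_cos_sq θ }
  exact ⟨A.toLinearIsometryEquiv rfl, fun _ => rfl⟩
theorem norm_rot (θ : ℝ) (x : E3) : ‖rot θ x‖ = ‖x‖ := by
  obtain ⟨A, hA⟩ := exists_rotL θ
  rw [← hA, A.norm_map]
theorem rot_zero (x : E3) : rot 0 x = x := by
  ext i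
  fin_cases i <;> simp [rot]
theorem rot_add (θ θ' : ℝ) (x : E3) : rot (θ + θ') x = rot θ (rot θ' x) := by
  ext i
  fin_cases i <;> simp [rot, cos_add, sin_add] <;> ring
theorem rot_two_pi (θ : ℝ) (x : E3) : rot (θ + 2 * π) x = rot θ x := by
  rw [rot_eq, rot_eq, cos_add_two_pi, sin_add_two_pi]
theorem continuous_rot : Continuous fun w : ℝ × E3 => rot w.1 w.2 := by
  unfold rot
  fun_prop
theorem measurePreserving_rot (θ : ℝ) : MeasurePreserving (rot θ) := by
  obtain ⟨A, hA⟩ := exists_rotL θ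
  rw [← funext hA]
  exact A.measurePreserving
theorem rot_pt (θ r z : ℝ) : rot θ (pt r 0 z) = pt (r * cos θ) (r * sin θ) z := by
  ext i
  fin_cases i <;> simp [rot, pt, mul_comm]
theorem rho_rot (θ : ℝ) (x : E3) : rho (rot θ x) = rho x := by
  rw [rho, rho, rot_eq, pt_zero, pt_one]
  congr 1
  linear_combination (x 0 ^ 2 + x 1 ^ 2) * sin_sq_add_cos_sq θ
theorem rho_pt {r : ℝ} (hr : 0 ≤ r) (θ z : ℝ) : rho (pt (r * cos θ) (r * sin θ) z) = r := by
  rw [← rot_pt, rho_rot, rho, pt_zero, pt_one]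
  simpa using sqrt_sq hr
theorem continuous_pt : Continuous fun w : (ℝ × ℝ) × ℝ => pt w.1.1 w.1.2 w.2 := by
  unfold pt
  fun_prop
theorem measurePreserving_pt : MeasurePreserving fun w : (ℝ × ℝ) × ℝ => pt w.1.1 w.1.2 w.2 := by
  have h1 := (volume_preserving_piFinSuccAbove (fun _ : Fin 3 => ℝ) 2).symm _
  have h2 := (MeasurePreserving.id (volume : Measure ℝ)).prod
    ((volume_preserving_finTwoArrow ℝ).symm _)
  have h3 : MeasurePreserving (Prod.swap : (ℝ × ℝ) × ℝ → ℝ × (ℝ × ℝ)) :=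
    Measure.measurePreserving_swap
  have h := (PiLp.volume_preserving_toLp (Fin 3)).comp (h1.comp (h2.comp h3))
  convert h using 1
  funext w
  ext i
  fin_cases i <;> rfl
theorem measurableEmbedding_pt :
    MeasurableEmbedding fun w : (ℝ × ℝ) × ℝ => pt w.1.1 w.1.2 w.2 :=
  continuous_pt.measurableEmbedding fun w w' h => by
    have h0 := congrArg (· 0) h
    have h1 := congrArg (· 1) h
    have h2 := congrArg (· 2) h
    exact Prod.ext (Prod.ext h0 h1) h2
theorem lintegral_cyl {g : E3 → ℝ≥0∞} (hg : Measurable g) (h : ∀ θ x, g (rot θ x) = g x) :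
    ∫⁻ x, g x = ENNReal.ofReal (2 * π) *
      ∫⁻ z : ℝ, ∫⁻ r in Ioi (0 : ℝ), g (pt r 0 z) * ENNReal.ofReal r := by
  have hm : Measurable fun w : (ℝ × ℝ) × ℝ => g (pt w.1.1 w.1.2 w.2) :=
    hg.comp continuous_pt.measurable
  have hm' : Measurable fun w : ℝ × ℝ => g (pt w.2 0 w.1) * ENNReal.ofReal w.2 :=
    (hm.comp (f := fun w : ℝ × ℝ => ((w.2, (0 : ℝ)), w.1)) (by fun_prop)).mul (by fun_prop)
  rw [← measurePreserving_pt.lintegral_comp hg, Measure.volume_eq_prod, lintegral_prod_symm' _ hm,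
    ← lintegral_const_mul _ hm'.lintegral_prod_right']
  refine lintegral_congr fun z => ?_
  rw [← lintegral_comp_polarCoord_symm, polarCoord_target, Measure.volume_eq_prod,
    ← Measure.prod_restrict]
  have e : ∀ p : ℝ × ℝ, ENNReal.ofReal p.1 • g (pt (polarCoord.symm p).1 (polarCoord.symm p).2 z) =
      g (pt p.1 0 z) * ENNReal.ofReal p.1 := fun p => by
    rw [polarCoord_symm_apply, ← rot_pt, h, smul_eq_mul, mul_comm]
  simp only [e]
  rw [lintegral_prod_symm' (fun p : ℝ × ℝ => g (pt p.1 0 z) * ENNReal.ofReal p.1)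
    (hm'.comp (f := fun p : ℝ × ℝ => (z, p.1)) (by fun_prop))]
  simp only [lintegral_const, Measure.restrict_apply_univ, Real.volume_Ioo]
  rw [mul_comm, sub_neg_eq_add, ← two_mul]
theorem Eqv.norm (h : Eqv k f) (θ : ℝ) (x : E3) : ‖f (rot θ x)‖ = ‖f x‖ := by
  have e : (k : ℂ) * θ * Complex.I = ((k * θ : ℝ) : ℂ) * Complex.I := by push_cast; rfl
  rw [h θ x, norm_mul, e, Complex.norm_exp_ofReal_mul_I, one_mul]
theorem Np_cyl (hf : Measurable f) (h : Eqv k f) (p : ℝ) : Np volume p f = ENNReal.ofReal (2 * π) *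
    ∫⁻ z : ℝ, ∫⁻ r in Ioi (0 : ℝ), ‖f (pt r 0 z)‖ₑ ^ p * ENNReal.ofReal r :=
  lintegral_cyl (g := fun x => ‖f x‖ₑ ^ p) (hf.enorm.pow_const p) fun θ x => by
    rw [← ofReal_norm, h.norm, ofReal_norm]
theorem Eqv.fourier (h : Eqv k f) : Eqv k (𝓕 f) := by
  intro θ ξ
  obtain ⟨A, hA⟩ := exists_rotL θ
  have e : f ∘ A = fun x => Complex.exp (k * θ * Complex.I) * f x := funext fun x => by
    rw [Function.comp_apply, hA, h]
  rw [← hA, ← Real.fourier_comp_linearIsometry, e, Real.fourier_eq, Real.fourier_eq,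
    ← integral_const_mul]
  simp only [mul_smul_comm]
theorem inv_rot (h : ∀ θ ξ, m (rot θ ξ) = m ξ) (θ : ℝ) (x : E3) :
    𝓕⁻ m (rot θ x) = 𝓕⁻ m x := by
  obtain ⟨A, hA⟩ := exists_rotL θ
  have e : m ∘ A = m := funext fun x => by rw [Function.comp_apply, hA, h]
  rw [← hA, ← Real.fourierInv_comp_linearIsometry, e]
theorem Eqv.cv (hK : ∀ θ x, K (rot θ x) = K x) (h : Eqv k f) : Eqv k (cv K f) := by
  intro θ x
  obtain ⟨A, hA⟩ := exists_rotL θ
  rw [P117.cv, P117.cv, ← integral_const_mul,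
    ← A.measurePreserving.integral_comp A.toHomeomorph.measurableEmbedding]
  refine integral_congr_ae (ae_of_all _ fun y => ?_)
  simp only
  rw [← hA, ← map_sub, hA, hA, hK, h]
  ring
theorem Cls.nice (h : Cls k f) : Nice f := by
  obtain ⟨C, hC⟩ := h.bdd
  obtain ⟨R, hR⟩ := h.supp
  refine ⟨h.meas, ?_, C, hC⟩
  refine (integrableOn_iff_integrable_of_support_subset (s := Metric.closedBall 0 R)
    fun x hx => ?_).1 ?_
  · exact mem_closedBall_zero_iff.2 (not_lt.1 fun h => hx (hR x h))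
  · exact Measure.integrableOn_of_bounded measure_closedBall_lt_top.ne
      h.meas.aestronglyMeasurable (ae_of_all _ hC)

end Vale.Agent.P117
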