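import Vale.Agent.P117.Plan
import Vale.Agent.P117.Cyl
import Vale.Agent.P117.Decay

/-!
The `L¹` norm of a kernel. Cauchy-Schwarz with the weight `w x = 1 + ε² ‖x‖²`: `∫ w⁻² = c ε⁻³` (`integrable_rpow_neg_one_add_norm_sq`,
`Measure.integral_comp_smul`). `w * 𝓕⁻ m = 𝓕⁻ (m - ε² / (4 π²) ∑ j, ∂_j ∂_j m)` (`Real.fourier_iteratedFDeriv` evaluated at `fun _ => e j`, or `Real.fourier_fderiv` twice,
or the Schwartz space lemmas); this function is bounded by `2 D`, vanishes off the closed set `S`; `planch_inv`.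
-/

open MeasureTheory Set Real Filter
open scoped FourierTransform RealInnerProductSpace ContDiff ENNReal Topology

noncomputable section

namespace Vale.Agent.P117

theorem l1_int {m : E3 → ℂ} (hm : Sm m) (n : ℕ) : Integrable (iteratedFDeriv ℝ n m) :=
  (hm.smooth.continuous_iteratedFDeriv (by exact_mod_cast le_top)).integrable_of_hasCompactSupport
    (hm.cs.iteratedFDeriv n)

/-- second derivative in a coordinate direction -/
def l1_d (m : E3 → ℂ) (j : Fin 3) (ξ : E3) : ℂ :=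
  iteratedFDeriv ℝ 2 m ξ fun _ => EuclideanSpace.single j 1

theorem l1_d_int {m : E3 → ℂ} (hm : Sm m) (j : Fin 3) : Integrable (l1_d m j) :=
  (ContinuousMultilinearMap.apply ℝ (fun _ : Fin 2 => E3) ℂ
    (fun _ => EuclideanSpace.single j 1)).integrable_comp (l1_int hm 2)

theorem l1_d_le (m : E3 → ℂ) (j : Fin 3) (ξ : E3) : ‖l1_d m j ξ‖ ≤ ‖iteratedFDeriv ℝ 2 m ξ‖ := by
  have h := (iteratedFDeriv ℝ 2 m ξ).le_opNorm fun _ => EuclideanSpace.single j (1 : ℝ)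
  simpa [l1_d] using h

theorem l1_d_inv {m : E3 → ℂ} (hm : Sm m) (j : Fin 3) (x : E3) :
    𝓕⁻ (l1_d m j) x = ((-(4 * π ^ 2) * x j ^ 2 : ℝ) : ℂ) * 𝓕⁻ m x := by
  have h := Real.fourier_iteratedFDeriv (N := ⊤) hm.smooth (fun n _ => l1_int hm n) (n := 2) le_top
  rw [Real.fourierInv_eq_fourier_neg, Real.fourierInv_eq_fourier_neg]
  unfold l1_d
  rw [← Real.fourier_continuousMultilinearMap_apply (l1_int hm 2), h]
  simp only [VectorFourier.fourierPowSMulRight_apply, Finset.prod_const, Finset.card_univ,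
    Fintype.card_fin, neg_apply, Complex.real_smul, smul_eq_mul]
  have e : innerSL ℝ (-x) (EuclideanSpace.single j (1 : ℝ)) = -x j := by
    change ⟪-x, EuclideanSpace.single j (1 : ℝ)⟫ = -x j
    simp [EuclideanSpace.inner_single_right]
  rw [e]
  push_cast
  ring_nf
  rw [Complex.I_sq]
  ring

/-- the multiplier of the weighted kernel -/
def l1_M (m : E3 → ℂ) (ε : ℝ) (ξ : E3) : ℂ :=
  m ξ + ∑ j, ((-(ε ^ 2 / (4 * π ^ 2)) : ℝ) : ℂ) * l1_d m j ξ

theorem l1_M_int {m : E3 → ℂ} (hm : Sm m) (ε : ℝ) : Integrable (l1_M m ε) :=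
  hm.ker.int.add (integrable_finset_sum _ fun j _ => (l1_d_int hm j).const_mul _)

theorem l1_M_inv {m : E3 → ℂ} (hm : Sm m) (ε : ℝ) (x : E3) :
    𝓕⁻ (l1_M m ε) x = ((1 + ‖ε • x‖ ^ 2 : ℝ) : ℂ) * 𝓕⁻ m x := by
  unfold l1_M
  rw [inv_add hm.ker.int (integrable_finset_sum _ fun j _ => (l1_d_int hm j).const_mul _),
    inv_sum _ fun j _ => (l1_d_int hm j).const_mul _]
  simp only [inv_const_mul, l1_d_inv hm, ← mul_assoc, ← Complex.ofReal_mul]
  have hπ : π ≠ 0 := pi_ne_zero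
  have e : ∀ t : ℝ, -(ε ^ 2 / (4 * π ^ 2)) * (-(4 * π ^ 2) * t) = ε ^ 2 * t := fun t => by
    field_simp
  rw [norm_smul, mul_pow, Real.norm_eq_abs, sq_abs, norm_sq_e3, Fin.sum_univ_three]
  simp only [mul_assoc, e]
  push_cast
  ring

theorem l1_M_zero {m : E3 → ℂ} {S : Set E3} (hS : IsClosed S) (h0 : ∀ ξ ∉ S, m ξ = 0) (ε : ℝ)
    {ξ : E3} (hξ : ξ ∉ S) : l1_M m ε ξ = 0 := by
  have h1 : m =ᶠ[𝓝 ξ] fun _ => 0 := by
    filter_upwards [hS.isOpen_compl.mem_nhds hξ] with y hy using h0 y hy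
  have h2 : iteratedFDeriv ℝ 2 m ξ = 0 := by
    rw [(h1.iteratedFDeriv ℝ 2).eq_of_nhds]
    simp
  simp [l1_M, l1_d, h2, h0 ξ hξ]

theorem l1_M_le {m : E3 → ℂ} {ε D : ℝ} (hε : 0 < ε) (hD : 0 ≤ D) {ξ : E3} (h1 : ‖m ξ‖ ≤ D)
    (h2 : ‖iteratedFDeriv ℝ 2 m ξ‖ ≤ D / ε ^ 2) : ‖l1_M m ε ξ‖ ≤ 2 * D := by
  have h3 : ∀ j, ‖((-(ε ^ 2 / (4 * π ^ 2)) : ℝ) : ℂ) * l1_d m j ξ‖ ≤ D / 3 := fun j => by
    rw [norm_mul, Complex.norm_real, norm_neg, Real.norm_of_nonneg (by positivity)]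
    have h4 : ε ^ 2 / (4 * π ^ 2) ≤ ε ^ 2 / 3 :=
      div_le_div_of_nonneg_left (by positivity) (by norm_num) (by nlinarith [pi_gt_three])
    calc _ ≤ ε ^ 2 / 3 * (D / ε ^ 2) :=
          mul_le_mul h4 ((l1_d_le m j ξ).trans h2) (norm_nonneg _) (by positivity)
      _ = D / 3 := by field_simp
  unfold l1_M
  refine (norm_add_le _ _).trans ?_
  have h5 := (norm_sum_le _ _).trans (Finset.sum_le_sum fun j (_ : j ∈ Finset.univ) => h3 j)
  simp only [Finset.sum_const, Finset.card_univ, Fintype.card_fin, nsmul_eq_mul] at h5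
  push_cast at h5 ⊢
  linarith

theorem l1_w_int : Integrable fun x : E3 => ((1 + ‖x‖ ^ 2)⁻¹) ^ 2 := by
  have h := integrable_rpow_neg_one_add_norm_sq (E := E3) (μ := volume) (r := 4)
    (by simp; norm_num)
  refine h.congr (Eventually.of_forall fun x => ?_)
  have : (-4 / 2 : ℝ) = -((2 : ℕ) : ℝ) := by norm_num
  simp only [this]
  rw [Real.rpow_neg (by positivity), Real.rpow_natCast, inv_pow]

theorem l1_w {ε : ℝ} (hε : 0 < ε) :
    ∫⁻ x : E3, ENNReal.ofReal ((1 + ‖ε • x‖ ^ 2)⁻¹) ^ (2 : ℝ) =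
      ENNReal.ofReal ((ε ^ 3)⁻¹ * ∫ x : E3, ((1 + ‖x‖ ^ 2)⁻¹) ^ 2) := by
  have h := Measure.integral_comp_smul (volume : Measure E3)
    (fun x : E3 => ((1 + ‖x‖ ^ 2)⁻¹) ^ 2) ε
  have hf : Module.finrank ℝ E3 = 3 := by simp
  rw [hf, abs_of_pos (by positivity), smul_eq_mul] at h
  rw [← h, ofReal_integral_eq_lintegral_ofReal (l1_w_int.comp_smul hε.ne')
    (Eventually.of_forall fun x => by positivity)]
  refine lintegral_congr fun x => ?_
  rw [ENNReal.ofReal_pow (by positivity), ENNReal.rpow_two]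

theorem l1_bound : ∃ C : ℝ, 0 < C ∧ ∀ (m : E3 → ℂ) (ε D W : ℝ) (S : Set E3), Sm m → 0 < ε → 0 ≤ D →
    0 ≤ W → IsClosed S → (∀ ξ ∉ S, m ξ = 0) → volume S ≤ ENNReal.ofReal (W ^ 2 * ε ^ 3) →
    (∀ ξ, ‖m ξ‖ ≤ D) → (∀ ξ ∈ S, ‖iteratedFDeriv ℝ 2 m ξ‖ ≤ D / ε ^ 2) →
    ∫ x, ‖𝓕⁻ m x‖ ≤ C * D * W := by
  set c : ℝ := ∫ x : E3, ((1 + ‖x‖ ^ 2)⁻¹) ^ 2 with hc
  have hc0 : 0 ≤ c := integral_nonneg fun x => by positivity
  refine ⟨2 * √c + 1, by positivity, ?_⟩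
  intro m ε D W S hm hε hD hW hS h0 hvol hb hb2
  have hM : Np volume 2 (l1_M m ε) ≤ ENNReal.ofReal ((2 * D) ^ 2 * (W ^ 2 * ε ^ 3)) := by
    calc Np volume 2 (l1_M m ε)
        ≤ ∫⁻ ξ, S.indicator (fun _ => ENNReal.ofReal ((2 * D) ^ 2)) ξ := by
          refine lintegral_mono fun ξ => ?_
          by_cases hξ : ξ ∈ S
          · rw [indicator_of_mem hξ, ENNReal.ofReal_pow (by positivity), ENNReal.rpow_two]
            refine pow_le_pow_left' ?_ 2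
            rw [← ofReal_norm_eq_enorm]
            exact ENNReal.ofReal_le_ofReal (l1_M_le hε hD (hb ξ) (hb2 ξ hξ))
          · rw [l1_M_zero hS h0 ε hξ]
            simp
      _ = ENNReal.ofReal ((2 * D) ^ 2) * volume S := by
          rw [lintegral_indicator_const hS.measurableSet]
      _ ≤ ENNReal.ofReal ((2 * D) ^ 2) * ENNReal.ofReal (W ^ 2 * ε ^ 3) := by gcongr
      _ = _ := (ENNReal.ofReal_mul (by positivity)).symm
  have hP := (planch_inv (l1_M_int hm ε)).trans hM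
  have hK : ∀ x, ‖𝓕⁻ m x‖ₑ =
      ‖𝓕⁻ (l1_M m ε) x‖ₑ * ENNReal.ofReal ((1 + ‖ε • x‖ ^ 2)⁻¹) := fun x => by
    have hw : 0 < 1 + ‖ε • x‖ ^ 2 := by positivity
    rw [l1_M_inv hm, ← ofReal_norm_eq_enorm, ← ofReal_norm_eq_enorm,
      ← ENNReal.ofReal_mul (norm_nonneg _), norm_mul, Complex.norm_real, Real.norm_of_nonneg hw.le]
    exact congrArg _ (by field_simp)
  have hH := ENNReal.lintegral_mul_le_Lp_mul_Lq (volume : Measure E3) Real.HolderConjugate.two_two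
    (f := fun x => ‖𝓕⁻ (l1_M m ε) x‖ₑ) (g := fun x => ENNReal.ofReal ((1 + ‖ε • x‖ ^ 2)⁻¹))
    (continuous_inv (l1_M_int hm ε)).enorm.aemeasurable
    (Measurable.aemeasurable (by fun_prop))
  rw [l1_w hε, ← hc] at hH
  have h1 : ∫⁻ x, ‖𝓕⁻ m x‖ₑ ≤ ENNReal.ofReal (2 * √c * D * W) := by
    calc ∫⁻ x, ‖𝓕⁻ m x‖ₑ = _ := lintegral_congr hK
      _ ≤ _ := hH
      _ ≤ ENNReal.ofReal ((2 * D) ^ 2 * (W ^ 2 * ε ^ 3)) ^ (1 / 2 : ℝ) *
          ENNReal.ofReal ((ε ^ 3)⁻¹ * c) ^ (1 / 2 : ℝ) := by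
          refine mul_le_mul_left ?_ _
          exact ENNReal.rpow_le_rpow hP (by norm_num)
      _ = ENNReal.ofReal (2 * √c * D * W) := by
          rw [← ENNReal.mul_rpow_of_nonneg _ _ (by norm_num), ← ENNReal.ofReal_mul (by positivity),
            ENNReal.ofReal_rpow_of_nonneg (by positivity) (by norm_num), ← Real.sqrt_eq_rpow]
          refine congrArg _ ?_
          rw [Real.sqrt_eq_iff_mul_self_eq (by positivity) (by positivity)]
          have h2 : √c * √c = c := Real.mul_self_sqrt hc0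
          symm
          calc 2 * √c * D * W * (2 * √c * D * W) = (2 * D) ^ 2 * W ^ 2 * (√c * √c) := by ring
            _ = _ := by rw [h2]; field_simp
  rw [integral_norm_eq_lintegral_enorm hm.ker_inv.cont.aestronglyMeasurable]
  refine (ENNReal.toReal_le_of_le_ofReal (by positivity) h1).trans ?_
  have := mul_nonneg hD hW
  nlinarith

end Vale.Agent.P117
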