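import Vale.Agent.P117.Four

/-!
Quadrilinear orthogonality. Put `u i = 𝓕 (H i)`: continuous with bounded support, hence `Ker`; `H i = 𝓕⁻ (u i)` by inversion.
`H₁ * H₂ = 𝓕⁻ (cv u₁ u₂)` (`fourier_cv` at `-x`). With `U = cv u₁ u₂`, `W = cv u₃ u₄`:
`∫ 𝓕⁻ U * conj (𝓕⁻ W) = ∫ U * conj (𝓕 (𝓕⁻ W)) = ∫ U * conj W` (Fubini, e.g.
`VectorFourier.integral_sesq_fourierIntegral_eq_neg_flip`, and inversion: `𝓕⁻ W = H₃ * H₄` is integrable), and `U * conj W = 0`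
pointwise since `U ξ ≠ 0` forces `ξ ∈ S₁ + S₂`.
-/

open MeasureTheory Set Real Filter
open scoped FourierTransform RealInnerProductSpace ContDiff ENNReal Topology

noncomputable section

namespace Vale.Agent.P117

variable {V : Type} [NormedAddCommGroup V] [InnerProductSpace ℝ V] [FiniteDimensional ℝ V]
  [MeasurableSpace V] [BorelSpace V]

theorem orth_ker {H : V → ℂ} (k : Ker H) {S : Set V} {R : ℝ} (b : ∀ ξ ∈ S, ‖ξ‖ ≤ R)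
    (v : ∀ ξ ∉ S, 𝓕 H ξ = 0) : Ker (𝓕 H) := by
  refine ⟨continuous_fourier k.int, (continuous_fourier k.int).integrable_of_hasCompactSupport
    (HasCompactSupport.intro (isCompact_closedBall (0 : V) R) fun ξ hξ => v ξ fun h => hξ ?_),
    _, norm_fourier_le H⟩
  exact mem_closedBall_zero_iff.2 (b ξ h)

theorem orth_inv {H H' : V → ℂ} (k : Ker H) (k' : Ker H') (l : Ker (𝓕 H)) (l' : Ker (𝓕 H'))
    (x : V) : 𝓕⁻ (cv (𝓕 H) (𝓕 H')) x = H x * H' x := by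
  rw [Real.fourierInv_eq_fourier_neg, fourier_cv l.int l'.int, ← Real.fourierInv_eq_fourier_neg,
    ← Real.fourierInv_eq_fourier_neg, k.cont.fourierInv_fourier_eq k.int l.int,
    k'.cont.fourierInv_fourier_eq k'.int l'.int]

theorem orth_fourier {H H' : V → ℂ} (k : Ker H) (k' : Ker H') (l : Ker (𝓕 H)) (l' : Ker (𝓕 H')) :
    𝓕 (fun x => H x * H' x) = cv (𝓕 H) (𝓕 H') := by
  have kW := cv_ker l l'.nice
  have e : 𝓕 (cv (𝓕 H) (𝓕 H')) = fun x => H (-x) * H' (-x) := funext fun x => by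
    rw [← orth_inv k k' l l', Real.fourierInv_eq_fourier_neg, neg_neg]
  have hi : Integrable (𝓕 (cv (𝓕 H) (𝓕 H'))) := by
    rw [e]
    exact (k.mul k').int.comp_neg
  rw [← funext (orth_inv k k' l l')]
  exact kW.cont.fourier_fourierInv_eq kW.int hi

theorem orth_supp {u u' : V → ℂ} {S S' : Set V} (v : ∀ ξ ∉ S, u ξ = 0) (v' : ∀ ξ ∉ S', u' ξ = 0)
    {ξ : V} (h : cv u u' ξ ≠ 0) : ∃ a ∈ S, ∃ b ∈ S', a + b = ξ := by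
  by_contra hn
  refine h ((integral_congr_ae (Eventually.of_forall fun y => ?_)).trans (integral_zero V ℂ))
  by_cases h1 : ξ - y ∈ S
  · by_cases h2 : y ∈ S'
    · exact absurd ⟨_, h1, _, h2, sub_add_cancel ξ y⟩ hn
    · simp only [v' y h2, mul_zero]
  · simp only [v _ h1, zero_mul]

theorem orth_conj (Q : V → ℂ) (ξ : V) :
    𝓕 (fun y => (starRingEnd ℂ) (Q (-y))) ξ = (starRingEnd ℂ) (𝓕 Q ξ) := by
  rw [Real.fourier_eq, Real.fourier_eq, ← integral_conj, ← integral_neg_eq_self]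
  refine integral_congr_ae (Eventually.of_forall fun v => ?_)
  simp only [Circle.smul_def, smul_eq_mul, map_mul, neg_neg, inner_neg_left]
  rw [← Circle.coe_inv_eq_conj, ← AddChar.map_neg_eq_inv, neg_neg]

theorem orth4 {H₁ H₂ H₃ H₄ : V → ℂ} (k₁ : Ker H₁) (k₂ : Ker H₂) (k₃ : Ker H₃) (k₄ : Ker H₄)
    {S₁ S₂ S₃ S₄ : Set V} {R : ℝ} (b₁ : ∀ ξ ∈ S₁, ‖ξ‖ ≤ R) (b₂ : ∀ ξ ∈ S₂, ‖ξ‖ ≤ R)
    (b₃ : ∀ ξ ∈ S₃, ‖ξ‖ ≤ R) (b₄ : ∀ ξ ∈ S₄, ‖ξ‖ ≤ R) (v₁ : ∀ ξ ∉ S₁, 𝓕 H₁ ξ = 0)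
    (v₂ : ∀ ξ ∉ S₂, 𝓕 H₂ ξ = 0) (v₃ : ∀ ξ ∉ S₃, 𝓕 H₃ ξ = 0) (v₄ : ∀ ξ ∉ S₄, 𝓕 H₄ ξ = 0)
    (h : ∀ a ∈ S₁, ∀ b ∈ S₂, ∀ c ∈ S₃, ∀ d ∈ S₄, a + b ≠ c + d) :
    ∫ x, H₁ x * H₂ x * (starRingEnd ℂ) (H₃ x * H₄ x) = 0 := by
  have l₁ := orth_ker k₁ b₁ v₁
  have l₂ := orth_ker k₂ b₂ v₂
  have l₃ := orth_ker k₃ b₃ v₃
  have l₄ := orth_ker k₄ b₄ v₄
  have hf : Integrable fun y => (starRingEnd ℂ) (H₃ (-y) * H₄ (-y)) :=
    (Complex.conjCLE : ℂ →L[ℝ] ℂ).integrable_comp (k₃.mul k₄).int.comp_neg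
  have e := cv_eq (cv_ker l₁ l₂.nice).int hf 0
  have e1 : (fun ξ => cv (𝓕 H₁) (𝓕 H₂) ξ * 𝓕 (fun y => (starRingEnd ℂ) (H₃ (-y) * H₄ (-y))) ξ) =
      fun _ => 0 := funext fun ξ => by
    rw [orth_conj (fun x => H₃ x * H₄ x), orth_fourier k₃ k₄ l₃ l₄]
    by_cases h1 : cv (𝓕 H₁) (𝓕 H₂) ξ = 0
    · rw [h1, zero_mul]
    by_cases h2 : cv (𝓕 H₃) (𝓕 H₄) ξ = 0
    · rw [h2, map_zero, mul_zero]
    obtain ⟨a, ha, b, hb, e1⟩ := orth_supp v₁ v₂ h1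
    obtain ⟨c, hc, d, hd, e2⟩ := orth_supp v₃ v₄ h2
    exact absurd (e1.trans e2.symm) (h a ha b hb c hc d hd)
  rw [e1, Real.fourierInv_eq, cv] at e
  simp only [smul_zero, integral_zero, zero_sub, orth_inv k₁ k₂ l₁ l₂] at e
  rw [← integral_neg_eq_self]
  exact e

end Vale.Agent.P117
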