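import Vale.Agent.P117.CutA
import Vale.Agent.P117.Cyl
import Vale.Agent.P117.Cx

/-!
The multipliers on three-space. `chi (rho ξ / lam) = bt ((ξ 0 ^ 2 + ξ 1 ^ 2) / lam ^ 2) - bt (4 * ((ξ 0 ^ 2 + ξ 1 ^ 2) / lam ^ 2))` is smooth. `ann_split` telescopes
(`Finset.sum_range_sub'`), and `bt (rho ξ ^ 2) = 1` where `ann ≠ 0`. `mN` vanishes where `4 ^ N * (1 - ‖ξ‖²) ≤ 1`.
-/

open MeasureTheory Set Real Filter
open scoped FourierTransform RealInnerProductSpace ContDiff ENNReal Topology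

noncomputable section

namespace Vale.Agent.P117

variable {φ : ℝ → ℂ} {ε lam δ : ℝ}

theorem cutb_rho_sq (ξ : E3) : rho ξ ^ 2 = ξ 0 ^ 2 + ξ 1 ^ 2 := sq_sqrt (by positivity)

theorem cutb_q : ContDiff ℝ ∞ fun ξ : E3 => ξ 0 ^ 2 + ξ 1 ^ 2 := by fun_prop

theorem cutb_ofReal {g : E3 → ℝ} (hg : ContDiff ℝ ∞ g) : ContDiff ℝ ∞ fun ξ => (g ξ : ℂ) :=
  Complex.ofRealCLM.contDiff.comp hg

theorem pc_sm (h : Prof φ) (hε : 0 < ε) (lam : ℝ) : Sm (pc φ ε lam) := by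
  have hA : Sm (ann φ ε : E3 → ℂ) := ann_sm h hε
  have e : (fun ξ : E3 => chi (rho ξ / lam)) = fun ξ : E3 =>
      ((bt ((ξ 0 ^ 2 + ξ 1 ^ 2) / lam ^ 2) - bt (4 * ((ξ 0 ^ 2 + ξ 1 ^ 2) / lam ^ 2)) : ℝ) : ℂ) := by
    funext ξ
    rw [chi, div_pow, cutb_rho_sq]
  have hc : ContDiff ℝ ∞ fun ξ : E3 => chi (rho ξ / lam) := by
    rw [e]
    exact cutb_ofReal ((bt_smooth.comp (cutb_q.div_const _)).sub
      (bt_smooth.comp (contDiff_const.mul (cutb_q.div_const _))))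
  exact ⟨hA.smooth.mul hc, hA.cs.mul_right⟩
theorem pol_sm (h : Prof φ) (hε : 0 < ε) : Sm (pol φ ε) := by
  have hA : Sm (ann φ ε : E3 → ℂ) := ann_sm h hε
  have hc : ContDiff ℝ ∞ fun ξ : E3 => ((bt ((ξ 0 ^ 2 + ξ 1 ^ 2) / ε ^ 2) : ℝ) : ℂ) :=
    cutb_ofReal (bt_smooth.comp (cutb_q.div_const _))
  exact ⟨hA.smooth.mul hc, hA.cs.mul_right⟩
theorem ann_rot (φ : ℝ → ℂ) (ε θ : ℝ) (ξ : E3) : ann φ ε (rot θ ξ) = ann φ ε ξ := by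
  rw [ann, ann, norm_rot]
theorem pc_rot (φ : ℝ → ℂ) (ε lam θ : ℝ) (ξ : E3) : pc φ ε lam (rot θ ξ) = pc φ ε lam ξ := by
  rw [pc, pc, ann_rot, rho_rot]
theorem pc_eq (φ : ℝ → ℂ) (ε lam : ℝ) (ξ : E3) :
    pc φ ε lam ξ = ann φ ε (⟨rho ξ, ξ 2⟩ : ℂ) * chi (rho ξ / lam) := by
  rw [pc, ann, ann, norm_sq_cx, norm_sq_e3, cutb_rho_sq]
theorem ann_split (h : Prof φ) (n : ℕ) (ξ : E3) : ann φ (4 ^ n)⁻¹ ξ =
    ∑ i ∈ Finset.range (2 * n), pc φ (4 ^ n)⁻¹ (2 ^ i)⁻¹ ξ + pol φ (4 ^ n)⁻¹ ξ := by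
  simp only [pc, pol]
  rw [← Finset.mul_sum, ← mul_add]
  by_cases h0 : ann φ (4 ^ n)⁻¹ ξ = 0
  · rw [h0, zero_mul]
  have h1 := (ann_ne h (by positivity) h0).2
  set q := ξ 0 ^ 2 + ξ 1 ^ 2 with hq
  have hq1 : q ≤ 1 := by
    rw [norm_sq_e3] at h1
    nlinarith [sq_nonneg (ξ 2)]
  have e : ∀ i : ℕ, chi (rho ξ / (2 ^ i)⁻¹) =
      ((bt (4 ^ i * q) : ℝ) : ℂ) - ((bt (4 ^ (i + 1) * q) : ℝ) : ℂ) := fun i => by
    have e1 : (rho ξ / (2 ^ i)⁻¹) ^ 2 = 4 ^ i * q := by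
      rw [div_inv_eq_mul, mul_pow, cutb_rho_sq, ← pow_mul, mul_comm i 2, pow_mul, mul_comm]
      norm_num [hq]
    rw [chi, e1, ← mul_assoc, ← pow_succ']
    push_cast
    rfl
  simp only [e]
  rw [Finset.sum_range_sub' (fun i => ((bt (4 ^ i * q) : ℝ) : ℂ))]
  have e2 : q / ((4 : ℝ) ^ n)⁻¹ ^ 2 = 4 ^ (2 * n) * q := by
    rw [inv_pow, div_inv_eq_mul, ← pow_mul, mul_comm n 2, mul_comm]
  rw [e2, pow_zero, one_mul, bt_one hq1]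
  simp
theorem mN_sm (δ : ℝ) (N : ℕ) : Sm (mN δ N) := by
  have hv : ContDiff ℝ ∞ fun ξ : E3 => 1 - ‖ξ‖ ^ 2 := contDiff_const.sub (contDiff_norm_sq ℝ)
  have hz : ∀ ξ : E3, 4 ^ N * (1 - ‖ξ‖ ^ 2) ≤ 1 → mN δ N ξ = 0 := fun ξ h => by
    rw [mN, bt_one h]
    simp
  refine ⟨cutb_ofReal (contDiff_iff_contDiffAt.2 fun ξ => ?_), ?_⟩
  · rcases lt_or_ge 0 (1 - ‖ξ‖ ^ 2) with h | h
    · have h1 : ContDiffAt ℝ ∞ (fun ξ : E3 => (1 - ‖ξ‖ ^ 2) ^ δ) ξ :=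
        hv.contDiffAt.rpow_const_of_ne h.ne'
      have h2 : ContDiffAt ℝ ∞ (fun ξ : E3 => max (1 - ‖ξ‖ ^ 2) 0 ^ δ) ξ := by
        refine h1.congr_of_eventuallyEq ?_
        filter_upwards [hv.continuous.continuousAt.eventually (lt_mem_nhds h)] with y hy
        rw [max_eq_left hy.le]
      exact h2.mul (contDiff_const.sub (bt_smooth.comp (contDiff_const.mul hv))).contDiffAt
    · refine (contDiffAt_const (c := (0 : ℝ))).congr_of_eventuallyEq ?_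
      have h1 : (4 : ℝ) ^ N * (1 - ‖ξ‖ ^ 2) < 1 :=
        (mul_nonpos_of_nonneg_of_nonpos (by positivity) h).trans_lt one_pos
      have hc : Continuous fun ξ : E3 => (4 : ℝ) ^ N * (1 - ‖ξ‖ ^ 2) := by fun_prop
      filter_upwards [hc.continuousAt.eventually (gt_mem_nhds h1)] with y hy
      rw [bt_one hy.le]
      simp
  · refine HasCompactSupport.intro (isCompact_closedBall (0 : E3) 1) fun ξ hξ => hz ξ ?_
    rw [mem_closedBall_zero_iff, not_le] at hξ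
    have : 1 - ‖ξ‖ ^ 2 ≤ 0 := by nlinarith
    exact (mul_nonpos_of_nonneg_of_nonpos (by positivity) this).trans zero_le_one
theorem mN_succ (δ : ℝ) (N : ℕ) (ξ : E3) : mN δ (N + 1) ξ =
    mN δ N ξ + ((((4 : ℝ) ^ N) ^ (-δ) : ℝ) : ℂ) * ann (ph δ) (4 ^ N)⁻¹ ξ := by
  rw [mN, mN, ann, ph, ← Complex.ofReal_mul, ← Complex.ofReal_add]
  congr 1
  set v := 1 - ‖ξ‖ ^ 2
  have h4 : (0 : ℝ) < 4 ^ N := by positivity
  have e1 : v / (4 ^ N)⁻¹ = 4 ^ N * v := by rw [div_inv_eq_mul, mul_comm]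
  have e2 : max (4 ^ N * v) 0 = 4 ^ N * max v 0 := by rw [mul_max_of_nonneg _ _ h4.le, mul_zero]
  have e3 : ((4 : ℝ) ^ N) ^ (-δ) * ((4 : ℝ) ^ N) ^ δ = 1 := by
    rw [← rpow_add h4]
    simp
  rw [e1, e2, mul_rpow h4.le (le_max_right _ _), pow_succ', mul_assoc 4]
  linear_combination (-(max v 0 ^ δ * (bt (4 ^ N * v) - bt (4 * (4 ^ N * v))))) * e3
theorem mN_lim (hδ : 0 < δ) (ξ : E3) :
    Tendsto (fun N => mN δ N ξ) atTop (𝓝 ((max (1 - ‖ξ‖ ^ 2) 0 ^ δ : ℝ) : ℂ)) := by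
  refine tendsto_const_nhds.congr' ?_
  rcases lt_or_ge 0 (1 - ‖ξ‖ ^ 2) with h | h
  · have h1 : Tendsto (fun N : ℕ => (4 : ℝ) ^ N * (1 - ‖ξ‖ ^ 2)) atTop atTop :=
      (tendsto_pow_atTop_atTop_of_one_lt (by norm_num)).atTop_mul_const h
    filter_upwards [h1.eventually_ge_atTop 4] with N hN
    rw [mN, bt_zero hN]
    simp
  · refine Eventually.of_forall fun N => ?_
    simp only [mN, max_eq_right h, zero_rpow hδ.ne', zero_mul]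
theorem br_le (hδ : 0 < δ) (ξ : E3) :
    ‖((max (1 - ‖ξ‖ ^ 2) 0 ^ δ : ℝ) : ℂ)‖ ≤ (Metric.closedBall (0 : E3) 1).indicator 1 ξ := by
  rw [Complex.norm_real, Real.norm_of_nonneg (rpow_nonneg (le_max_right _ _) _)]
  by_cases hξ : ξ ∈ Metric.closedBall (0 : E3) 1
  · rw [indicator_of_mem hξ]
    exact rpow_le_one (le_max_right _ _) (max_le (by nlinarith [sq_nonneg ‖ξ‖]) zero_le_one) hδ.le
  · rw [indicator_of_notMem hξ]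
    rw [mem_closedBall_zero_iff, not_le] at hξ
    have : 1 - ‖ξ‖ ^ 2 ≤ 0 := by nlinarith
    rw [max_eq_right this, zero_rpow hδ.ne']
theorem mN_le (hδ : 0 < δ) (N : ℕ) (ξ : E3) :
    ‖mN δ N ξ‖ ≤ (Metric.closedBall (0 : E3) 1).indicator 1 ξ := by
  refine le_trans ?_ (br_le hδ ξ)
  rw [mN, Complex.ofReal_mul, norm_mul]
  refine mul_le_of_le_one_right (norm_nonneg _) ?_
  rw [Complex.norm_real, Real.norm_of_nonneg (sub_nonneg.2 (bt_le_one _))]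
  linarith [bt_nonneg (4 ^ N * (1 - ‖ξ‖ ^ 2))]

end Vale.Agent.P117
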