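import Vale.Agent.P117.Four

/-!
Cut-off functions. `Real.smoothTransition.zero_of_nonpos`, `.one_of_one_le`, `.contDiff`. For functions that vanish near a point use
`contDiff_iff_contDiffAt` and `ContDiffAt.congr_of_eventuallyEq`. `exists_ab`: `a u = u * chi u` for `0 < u`, zero otherwise (`chi u = 0` unless
`1/2 ≤ |u| ≤ 2`); `b u = (1 - bt (16 * u ^ 2)) * bt (u ^ 2 / 4)` for `0 < u`, zero otherwise.
-/

open MeasureTheory Set Real Filter
open scoped FourierTransform RealInnerProductSpace ContDiff ENNReal Topology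

noncomputable section

namespace Vale.Agent.P117

variable {φ : ℝ → ℂ}

theorem bt_one {u : ℝ} (h : u ≤ 1) : bt u = 1 := by
  rw [bt, smoothTransition.zero_of_nonpos (by linarith), sub_zero]
theorem bt_zero {u : ℝ} (h : 4 ≤ u) : bt u = 0 := by
  rw [bt, smoothTransition.one_of_one_le (by linarith), sub_self]
theorem bt_nonneg (u : ℝ) : 0 ≤ bt u := by
  exact sub_nonneg.2 (smoothTransition.le_one _)
theorem bt_le_one (u : ℝ) : bt u ≤ 1 := by
  exact sub_le_self _ (smoothTransition.nonneg _)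
theorem bt_smooth : ContDiff ℝ ∞ bt := by
  exact contDiff_const.sub (smoothTransition.contDiff.comp (by fun_prop))
theorem Prof.sm (h : Prof φ) : Sm φ := by
  exact ⟨h.smooth, HasCompactSupport.intro isCompact_Icc h.supp⟩
theorem Prof.bdd (h : Prof φ) : ∃ A, 0 < A ∧ (∀ u, ‖φ u‖ ≤ A) ∧ ∀ u, ‖deriv φ u‖ ≤ A := by
  obtain ⟨A, hA⟩ := h.smooth.continuous.bounded_above_of_compact_support h.sm.cs
  obtain ⟨B, hB⟩ := (h.smooth.continuous_deriv (by simp)).bounded_above_of_compact_support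
    h.sm.cs.deriv
  have hA0 := (norm_nonneg _).trans (hA 0)
  have hB0 := (norm_nonneg _).trans (hB 0)
  exact ⟨A + B + 1, by linarith, fun u => by linarith [hA u], fun u => by linarith [hB u]⟩
theorem cuta_bt {f : ℝ → ℝ} (hf : ContDiff ℝ ∞ f) : ContDiff ℝ ∞ fun u => bt (f u) :=
  bt_smooth.comp hf

theorem cuta_ofReal {f : ℝ → ℝ} (hf : ContDiff ℝ ∞ f) : ContDiff ℝ ∞ fun u => ((f u : ℝ) : ℂ) :=
  Complex.ofRealCLM.contDiff.comp hf

theorem exists_ab : ∃ a b : ℝ → ℂ, Prof a ∧ Prof b ∧ ∀ u : ℝ, 0 < u → u * chi u = a u * b u := by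
  have hb : Prof fun u => (((1 - bt (12 * u - 2)) * bt (3 * u / 2 - 2) : ℝ) : ℂ) := by
    refine ⟨cuta_ofReal ((contDiff_const.sub (cuta_bt (by fun_prop))).mul
      (cuta_bt (by fun_prop))), fun u hu => ?_⟩
    rw [mem_Icc, not_and_or, not_le, not_le] at hu
    rcases hu with hu | hu
    · rw [bt_one (u := 12 * u - 2) (by linarith)]
      simp
    · rw [bt_zero (u := 3 * u / 2 - 2) (by linarith)]
      simp
  have hc : ContDiff ℝ ∞ chi :=
    cuta_ofReal ((cuta_bt (by fun_prop)).sub (cuta_bt (by fun_prop)))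
  refine ⟨fun u => u * chi u * (((1 - bt (12 * u - 2)) * bt (3 * u / 2 - 2) : ℝ) : ℂ), _,
    ⟨((cuta_ofReal contDiff_id).mul hc).mul hb.smooth, fun u hu => ?_⟩, hb, fun u hu => ?_⟩
  · rw [hb.supp u hu, mul_zero]
  · rcases le_or_gt u (1 / 2) with h1 | h1
    · have : chi u = 0 := by
        rw [chi, bt_one (u := u ^ 2) (by nlinarith), bt_one (u := 4 * u ^ 2) (by nlinarith)]
        simp
      simp [this]
    rcases le_or_gt 2 u with h2 | h2
    · have : chi u = 0 := by
        rw [chi, bt_zero (u := u ^ 2) (by nlinarith), bt_zero (u := 4 * u ^ 2) (by nlinarith)]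
        simp
      simp [this]
    · simp only
      rw [bt_zero (u := 12 * u - 2) (by linarith), bt_one (u := 3 * u / 2 - 2) (by linarith)]
      simp
theorem ph_prof (δ : ℝ) : Prof (ph δ) := by
  have h0 : ∀ u : ℝ, u < 1 / 4 → ph δ u = 0 := by
    intro u hu
    rw [ph, bt_one (u := u) (by linarith), bt_one (u := 4 * u) (by linarith)]
    simp
  refine ⟨contDiff_iff_contDiffAt.2 fun u => ?_, fun u hu => ?_⟩
  · rcases lt_or_ge u (1 / 4) with hu | hu
    · refine (contDiffAt_const (c := (0 : ℂ))).congr_of_eventuallyEq ?_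
      filter_upwards [Iio_mem_nhds hu] with v hv
      exact h0 v hv
    · have hu0 : 0 < u := by linarith
      have h1 : ContDiffAt ℝ ∞ (fun v : ℝ => v ^ δ * (bt v - bt (4 * v))) u :=
        (contDiffAt_id.rpow_const_of_ne hu0.ne').mul
          (bt_smooth.sub (cuta_bt (by fun_prop))).contDiffAt
      refine (Complex.ofRealCLM.contDiff.contDiffAt.comp u h1).congr_of_eventuallyEq ?_
      filter_upwards [Ioi_mem_nhds hu0] with v hv
      rw [ph, max_eq_left (le_of_lt hv)]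
      rfl
  · rw [mem_Icc, not_and_or, not_le, not_le] at hu
    rcases hu with hu | hu
    · exact h0 u hu
    · rw [ph, bt_zero (u := u) hu.le, bt_zero (u := 4 * u) (by linarith)]
      simp

variable {V : Type} [NormedAddCommGroup V] [InnerProductSpace ℝ V] [FiniteDimensional ℝ V]
  [MeasurableSpace V] [BorelSpace V]

theorem ann_ne (h : Prof φ) {ε : ℝ} (hε : 0 < ε) {ξ : V} (h0 : ann φ ε ξ ≠ 0) :
    1 - 4 * ε ≤ ‖ξ‖ ^ 2 ∧ ‖ξ‖ ^ 2 ≤ 1 := by
  have h1 : (1 - ‖ξ‖ ^ 2) / ε ∈ Icc (1 / 4 : ℝ) 4 := by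
    by_contra hc
    exact h0 (h.supp _ hc)
  obtain ⟨h2, h3⟩ := h1
  rw [le_div_iff₀ hε] at h2
  rw [div_le_iff₀ hε] at h3
  constructor <;> linarith
theorem ann_sm (h : Prof φ) {ε : ℝ} (hε : 0 < ε) : Sm (ann φ ε : V → ℂ) := by
  refine ⟨h.smooth.comp ((contDiff_const.sub (contDiff_norm_sq ℝ)).div_const ε),
    HasCompactSupport.intro (isCompact_closedBall (0 : V) 1) fun ξ hξ => ?_⟩
  by_contra h0
  have h1 := (ann_ne h hε h0).2
  rw [mem_closedBall_zero_iff, not_le] at hξ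
  nlinarith

end Vale.Agent.P117
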