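import Vale.Agent.P117.CylB
import Vale.Agent.P117.Cx
import Vale.Agent.P117.CutA

/-!
The filtered projection. `rad_eq`: `integral_polar` for the slice (bounded, measurable, bounded support), `rot_pt` and equivariance.
`rad_dec`: measurable by `StronglyMeasurable.integral_prod_right`; zero for `R < |x.im|`; `dc_sub_le`, `dc 3 (lam t) ≤ C dc 2 t`.
`fourier_rad`: Fubini; `∫ t, e(-t ρ) * lam * 𝓕 b (lam (y - t)) = e(-y ρ) * 𝓕⁻ (𝓕 b) (ρ / lam) = e(-y ρ) * b (ρ / lam)`, then `measurePreserving_pt`.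
-/

open MeasureTheory Set Real Filter
open scoped FourierTransform RealInnerProductSpace ContDiff ENNReal Topology

noncomputable section

namespace Vale.Agent.P117

variable {k : ℤ} {f : E3 → ℂ} {κ : ℝ → ℂ} {D lam : ℝ}

theorem rad_norm (a b z : ℝ) : ‖(a, b)‖ ≤ ‖pt a b z‖ ∧ |z| ≤ ‖pt a b z‖ :=
  ⟨max_le (PiLp.norm_apply_le (pt a b z) 0) (PiLp.norm_apply_le (pt a b z) 1),
    PiLp.norm_apply_le (pt a b z) 2⟩

theorem rad_meas (hf : Cls k f) (z : ℝ) : Measurable fun y : ℝ × ℝ => f (pt y.1 y.2 z) :=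
  hf.meas.comp (continuous_pt.comp (continuous_id.prodMk continuous_const)).measurable

theorem rad_ind (R K : ℝ) :
    Integrable ((Metric.closedBall (0 : ℝ × ℝ) R).indicator fun _ => K) :=
  (integrableOn_const measure_closedBall_lt_top.ne).integrable_indicator measurableSet_closedBall

theorem rad_slice (hf : Cls k f) (z : ℝ) : Integrable fun y : ℝ × ℝ => f (pt y.1 y.2 z) := by
  obtain ⟨C, hC⟩ := hf.bdd
  obtain ⟨R, hR⟩ := hf.supp
  refine (rad_ind R C).mono' (rad_meas hf z).aestronglyMeasurable (.of_forall fun y => ?_)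
  by_cases h : y ∈ Metric.closedBall (0 : ℝ × ℝ) R
  · rw [indicator_of_mem h]
    exact hC _
  · rw [indicator_of_notMem h, hR _ ((not_le.1 fun e => h (mem_closedBall_zero_iff.2 e)).trans_le
      (rad_norm _ _ z).1), norm_zero]

theorem rad_int (hf : Cls k f) {c : ℝ × ℝ → ℂ} (hc : Continuous c) {C : ℝ} (hC : ∀ y, ‖c y‖ ≤ C)
    (z : ℝ) : Integrable fun y : ℝ × ℝ => c y * f (pt y.1 y.2 z) :=
  (rad_slice hf z).bdd_mul hc.aestronglyMeasurable (.of_forall hC)

theorem rad_bd (hκ : Prim κ D) (lam : ℝ) : ∃ C, ∀ u, ‖(lam : ℂ) * κ u‖ ≤ C :=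
  ⟨‖(lam : ℂ)‖ * |D|, fun u => by
    rw [norm_mul]
    refine mul_le_mul_of_nonneg_left ((hκ.bd u).trans ?_) (norm_nonneg _)
    exact (mul_le_mul (le_abs_self D) (dc_le_one _ _) (dc_pos _ _).le (abs_nonneg _)).trans_eq
      (mul_one _)⟩

theorem rad_eq (hκ : Prim κ D) (hf : Cls k f) (lam : ℝ) (x : ℂ) : rad κ k lam f x =
    ∫ y : ℝ × ℝ, lam * κ (lam * (y.1 - x.re)) * f (pt y.1 y.2 x.im) := by
  obtain ⟨C, hC⟩ := rad_bd hκ lam
  rw [integral_polar (rad_int hf (by have := hκ.cont; fun_prop) (fun y => hC _) x.im), rad]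
  refine setIntegral_congr_fun measurableSet_Ioi fun r _ => ?_
  simp only [Bk]
  rw [← intervalIntegral.integral_const_mul, ← intervalIntegral.integral_mul_const,
    ← intervalIntegral.integral_mul_const]
  refine intervalIntegral.integral_congr fun θ _ => ?_
  rw [← rot_pt, hf.eqv, mul_sub, mul_assoc lam r]
  ring


theorem rad_dc (hl : 0 < lam) (t : ℝ) : dc 2 (lam * t) ≤ (1 + lam⁻¹) ^ 2 * dc 2 t := by
  rw [dc, dc, ← div_eq_mul_inv, inv_eq_one_div ((1 + |lam * t|) ^ 2),
    div_le_div_iff₀ (by positivity) (by positivity), one_mul, ← mul_pow, abs_mul, abs_of_pos hl]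
  have h1 : lam⁻¹ * (lam * |t|) = |t| := by field_simp
  have h2 : 0 ≤ lam * |t| := by positivity
  have h3 : 0 ≤ lam⁻¹ := by positivity
  gcongr
  nlinarith

theorem rad_dec (hκ : Prim κ D) (hf : Cls k f) (hl : 0 < lam) : Dec (rad κ k lam f) := by
  have hc := hκ.cont
  obtain ⟨C, hC⟩ := hf.bdd
  obtain ⟨R, hR⟩ := hf.supp
  have hC0 : 0 ≤ C := (norm_nonneg _).trans (hC 0)
  refine ⟨?_, (volume : Measure (ℝ × ℝ)).real (Metric.closedBall 0 R) *
    (lam * (|D| * ((1 + lam * |R|) ^ 3 * (1 + lam⁻¹) ^ 2)) * (C * (1 + |R|) ^ 2)), fun x => ?_⟩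
  · rw [funext (rad_eq hκ hf lam)]
    refine (StronglyMeasurable.integral_prod_right' (f := fun w : ℂ × ℝ × ℝ =>
      lam * κ (lam * (w.2.1 - w.1.re)) * f (pt w.2.1 w.2.2 w.1.im))
      (Measurable.stronglyMeasurable ?_)).measurable
    exact (Continuous.measurable (by fun_prop)).mul (hf.meas.comp (continuous_pt.comp
      (continuous_snd.prodMk (Complex.continuous_im.comp continuous_fst))).measurable)
  · rw [rad_eq hκ hf, mul_assoc]
    refine (norm_integral_le_of_norm_le (rad_ind R _) (.of_forall fun y => ?_)).trans_eq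
      (integral_indicator_const _ measurableSet_closedBall)
    have p1 := dc_pos 2 x.re
    have p2 := dc_pos 2 x.im
    by_cases h : R < ‖pt y.1 y.2 x.im‖
    · rw [hR _ h, mul_zero, norm_zero]
      exact indicator_nonneg (fun _ _ => by positivity) _
    obtain ⟨h1, h2⟩ := rad_norm y.1 y.2 x.im
    replace h := not_lt.1 h
    rw [indicator_of_mem (mem_closedBall_zero_iff.2 (h1.trans h)), norm_mul, norm_mul,
      Complex.norm_real, Real.norm_of_nonneg hl.le]
    have h3 : |y.1| ≤ |R| := ((le_max_left _ _).trans (h1.trans h)).trans (le_abs_self R)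
    have h4 : dc 3 (lam * (y.1 - x.re)) ≤ (1 + lam * |R|) ^ 3 * ((1 + lam⁻¹) ^ 2 * dc 2 x.re) := by
      rw [← dc_neg, ← mul_neg, neg_sub, mul_sub]
      refine (dc_sub_le _ _ _).trans ?_
      rw [abs_mul, abs_of_pos hl]
      have := (dc_anti (by norm_num : 2 ≤ 3) _).trans (rad_dc hl x.re)
      have := dc_pos 3 (lam * x.re)
      gcongr
    have h5 := (hκ.bd (lam * (y.1 - x.re))).trans
      (mul_le_mul (le_abs_self D) h4 (dc_pos _ _).le (abs_nonneg _))
    have h6 : 1 ≤ (1 + |R|) ^ 2 * dc 2 x.im := by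
      have := dc_mono 2 (s := x.im) (t := R) ((h2.trans h).trans (le_abs_self R))
      refine le_trans (le_of_eq ?_) (mul_le_mul_of_nonneg_left this (by positivity))
      rw [dc, mul_inv_cancel₀ (by positivity)]
    have h7 := (hC (pt y.1 y.2 x.im)).trans (le_mul_of_one_le_right hC0 h6)
    refine (mul_le_mul (mul_le_mul_of_nonneg_left h5 hl.le) h7 (norm_nonneg _)
      (by positivity)).trans_eq ?_
    ring


theorem rad_K {b : ℝ → ℂ} (hb : Prof b) (hl : 0 < lam) (ρ : ℝ) :
    𝓕 (fun u : ℝ => (lam : ℂ) * 𝓕 b (-lam * u)) ρ = b (ρ / lam) := by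
  have h := Measure.integral_comp_mul_left
    (fun v : ℝ => Complex.exp (↑(2 * π * ⟪v, ρ / lam⟫) * Complex.I) • 𝓕 b v) (-lam)
  rw [← fourierInv_eq', hb.sm.inv_fourier, abs_inv, abs_neg, abs_of_pos hl] at h
  have h0 : (lam : ℂ) ≠ 0 := Complex.ofReal_ne_zero.2 hl.ne'
  rw [fourier_real_eq_integral_exp_smul, ← mul_inv_cancel_left₀ h0 (b _), ← Complex.ofReal_inv,
    ← Complex.real_smul (x := lam⁻¹), ← h, ← integral_const_mul]
  refine integral_congr_ae (.of_forall fun u => ?_)
  have e : 2 * π * ⟪-lam * u, ρ / lam⟫ = -2 * π * u * ρ := by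
    simp only [RCLike.inner_apply, conj_trivial]
    field_simp
  simp only [e, smul_eq_mul]
  ring

theorem fourier_rad {b : ℝ → ℂ} (hb : Prof b) (hκ : Prim (𝓕 b) D) (hf : Cls k f) (hl : 0 < lam)
    (ξ : ℂ) : 𝓕 (rad (𝓕 b) k lam f) ξ = b (ξ.re / lam) * 𝓕 f (pt ξ.re 0 ξ.im) := by
  have e1 : ∀ t : ℝ, ‖Complex.exp ((t : ℂ) * Complex.I)‖ ≤ 1 :=
    fun t => (Complex.norm_exp_ofReal_mul_I t).le
  have hK : Integrable fun u : ℝ => (lam : ℂ) * 𝓕 b (-lam * u) :=
    (hb.sm.ker_fourier.int.comp_mul_left' (neg_ne_zero.2 hl.ne')).const_mul _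
  obtain ⟨C, hC⟩ := rad_bd hκ lam
  have h1 : ∀ z, (fun t => rad (𝓕 b) k lam f ⟨t, z⟩) =
      cv (fun u : ℝ => (lam : ℂ) * 𝓕 b (-lam * u)) fun s => ∫ s', f (pt s s' z) := fun z => by
    funext t
    rw [rad_eq hκ hf, cv]
    refine (integral_prod _ (rad_int hf (by have := hκ.cont; fun_prop) (fun y => hC _) z)).trans
      (integral_congr_ae (.of_forall fun s => ?_))
    simp only
    rw [integral_const_mul, neg_mul, ← mul_neg, neg_sub]
  have h2 : 𝓕 f (pt ξ.re 0 ξ.im) = ∫ z : ℝ, Complex.exp (↑(-2 * π * z * ξ.im) * Complex.I) *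
      𝓕 (fun s => ∫ s', f (pt s s' z)) ξ.re := by
    rw [fourier_eq', ← measurePreserving_pt.integral_comp measurableEmbedding_pt]
    refine (integral_prod_symm _ ((measurePreserving_pt.integrable_comp_emb
      measurableEmbedding_pt).2 (hf.nice.int.bdd_mul (Continuous.aestronglyMeasurable
        (by fun_prop)) (.of_forall fun x => e1 (-2 * π * ⟪x, pt ξ.re 0 ξ.im⟫))))).trans
      (integral_congr_ae (.of_forall fun z => ?_))
    have := continuous_pt.comp (continuous_id.prodMk (continuous_const (y := z)))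
    refine (integral_prod _ (rad_int hf ?_ (fun y => e1 _) z)).trans ?_
    · exact Complex.continuous_exp.comp ((Complex.continuous_ofReal.comp
        (continuous_const.mul (this.inner continuous_const))).mul continuous_const)
    simp only
    rw [fourier_real_eq_integral_exp_smul, ← integral_const_mul]
    refine integral_congr_ae (.of_forall fun s => ?_)
    simp only
    rw [smul_eq_mul, ← mul_assoc, ← integral_const_mul, ← Complex.exp_add]
    refine integral_congr_ae (.of_forall fun s' => ?_)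
    simp only [inner_e3, pt]
    congr 2
    simp
    ring
  rw [h2, fourier_eq', ← integral_const_mul]
  refine (integral_cx ((rad_dec hκ hf hl).nice.int.bdd_mul (Continuous.aestronglyMeasurable
    (by fun_prop)) (.of_forall fun x => e1 (-2 * π * ⟪x, ξ⟫)))).trans
    (integral_congr_ae (.of_forall fun z => ?_))
  simp only
  rw [mul_left_comm, ← rad_K hb hl, ← fourier_cv hK (rad_slice hf z).integral_prod_left, ← h1,
    fourier_real_eq_integral_exp_smul, ← integral_const_mul]
  refine integral_congr_ae (.of_forall fun t => ?_)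
  simp only [inner_cx]
  rw [smul_eq_mul, ← mul_assoc, ← Complex.exp_add]
  congr 2
  push_cast
  ring

end Vale.Agent.P117
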