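import Vale.Agent.P117.Stmt

/-! The angular derivative used in the second statement for P117. -/

noncomputable section

namespace Vale.Agent.P117

/-- The angular derivative `x₀ ∂₁ f - x₁ ∂₀ f` about the third coordinate axis. -/
def ang (f : E3 → ℂ) (x : E3) : ℂ := fderiv ℝ f x !₂[-x 1, x 0, 0]

end Vale.Agent.P117
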