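import Vale.Agent.P117.AngA

/-! The angular derivative and the angular Fourier series of a Schwartz function. -/

open MeasureTheory Set Real Filter
open scoped FourierTransform RealInnerProductSpace ContDiff ENNReal Topology SchwartzMap

noncomputable section

namespace Vale.Agent.P117

/-- the generator of the rotations -/
def gen : E3 →L[ℝ] E3 :=
  (EuclideanSpace.proj (0 : Fin 3) : E3 →L[ℝ] ℝ).smulRight (EuclideanSpace.single 1 1) -
    (EuclideanSpace.proj (1 : Fin 3) : E3 →L[ℝ] ℝ).smulRight (EuclideanSpace.single 0 1)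

theorem gen_apply (x : E3) : gen x = !₂[-x 1, x 0, 0] := by
  ext i
  fin_cases i <;> simp [gen]

theorem ang_eq (f : E3 → ℂ) (x : E3) : ang f x = fderiv ℝ f x (gen x) := by
  rw [gen_apply]; rfl

theorem angb_rot (θ : ℝ) (x : E3) :
    rot θ x = cos θ • pt (x 0) (x 1) 0 + sin θ • gen x + pt 0 0 (x 2) := by
  ext i
  fin_cases i <;> simp [rot, pt, gen_apply] <;> ring

theorem angb_deriv (θ : ℝ) (x : E3) : HasDerivAt (fun θ => rot θ x) (gen (rot θ x)) θ := by
  have h := (((hasDerivAt_cos θ).smul_const (pt (x 0) (x 1) 0)).add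
    ((hasDerivAt_sin θ).smul_const (gen x))).add_const (pt 0 0 (x 2))
  have e : gen (rot θ x) = -sin θ • pt (x 0) (x 1) 0 + cos θ • gen x := by
    ext i
    fin_cases i <;> simp [rot, pt, gen_apply] <;> ring
  rw [e]
  exact h.congr_of_eventuallyEq (Eventually.of_forall fun t => angb_rot t x)

theorem hasDerivAt_rot {f : E3 → ℂ} (hf : Differentiable ℝ f) (θ : ℝ) (x : E3) :
    HasDerivAt (fun θ => f (rot θ x)) (ang f (rot θ x)) θ := by
  rw [ang_eq]
  exact (hf (rot θ x)).hasFDerivAt.comp_hasDerivAt θ (angb_deriv θ x)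

theorem ang_schwartz (f : 𝓢(E3, ℂ)) : ∃ g : 𝓢(E3, ℂ), ⇑g = ang f := by
  refine ⟨SchwartzMap.bilinLeftCLM (ContinuousLinearMap.id ℝ (E3 →L[ℝ] ℂ))
    gen.hasTemperateGrowth (SchwartzMap.fderivCLM ℝ E3 ℂ f), ?_⟩
  funext x
  rw [ang_eq]
  rfl

theorem ang_iter_schwartz (f : 𝓢(E3, ℂ)) (n : ℕ) : ∃ g : 𝓢(E3, ℂ), ⇑g = ang^[n] f := by
  induction n with
  | zero => exact ⟨f, rfl⟩
  | succ n ih =>
    obtain ⟨g, hg⟩ := ih
    obtain ⟨g', hg'⟩ := ang_schwartz g
    exact ⟨g', by rw [hg', hg, Function.iterate_succ_apply']⟩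

theorem schwartz_nice (f : 𝓢(E3, ℂ)) : Nice (f : E3 → ℂ) :=
  ⟨f.continuous.measurable, f.integrable, _, fun x => f.norm_le_seminorm ℝ x⟩

theorem Pk_ang (f : 𝓢(E3, ℂ)) (k : ℤ) (x : E3) :
    Pk k (ang f) x = k * Complex.I * Pk k f x := by
  obtain ⟨g, hg⟩ := ang_schwartz f
  have hc : Continuous fun θ : ℝ => ang f (rot θ x) := by
    rw [← hg]; exact g.continuous.comp (anga_cont x)
  have hc0 : Continuous fun θ : ℝ => f (rot θ x) := f.continuous.comp (anga_cont x)
  have hu : ∀ θ : ℝ, HasDerivAt (fun θ : ℝ => Complex.exp (-(k * θ * Complex.I)))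
      (Complex.exp (-(k * θ * Complex.I)) * -(k * Complex.I)) θ := by
    intro θ
    have h1 : HasDerivAt (fun θ : ℝ => -((k : ℂ) * θ * Complex.I)) (-(k * Complex.I)) θ := by
      have := (((hasDerivAt_id θ).ofReal_comp.const_mul (k : ℂ)).mul_const Complex.I).fun_neg
      simpa using this
    exact h1.cexp
  have h := intervalIntegral.integral_mul_deriv_eq_deriv_mul (a := 0) (b := 2 * π)
    (fun θ _ => hu θ) (fun θ _ => hasDerivAt_rot f.differentiable θ x)
    (by apply Continuous.intervalIntegrable; fun_prop) (hc.intervalIntegrable _ _)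
  have e1 : Complex.exp (-(k * ((2 * π : ℝ) : ℂ) * Complex.I)) = 1 := by
    have : -((k : ℂ) * ((2 * π : ℝ) : ℂ) * Complex.I) = ((-k : ℤ) : ℂ) * (2 * π * Complex.I) := by
      push_cast; ring
    rw [this, Complex.exp_int_mul_two_pi_mul_I]
  have e2 : rot (2 * π) x = rot 0 x := by simpa using rot_two_pi 0 x
  unfold Pk
  rw [h, e1, e2, mul_left_comm ((k : ℂ) * Complex.I),
    ← intervalIntegral.integral_const_mul ((k : ℂ) * Complex.I)]
  congr 1
  simp only [Complex.ofReal_zero, mul_zero, zero_mul, neg_zero, Complex.exp_zero, sub_self,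
    zero_sub]
  rw [← intervalIntegral.integral_neg]
  refine intervalIntegral.integral_congr fun θ _ => ?_
  ring

theorem Pk_ang_iter (f : 𝓢(E3, ℂ)) (k : ℤ) (n : ℕ) (x : E3) :
    Pk k (ang^[n] f) x = (k * Complex.I) ^ n * Pk k f x := by
  induction n with
  | zero => simp
  | succ n ih =>
    obtain ⟨g, hg⟩ := ang_iter_schwartz f n
    rw [Function.iterate_succ_apply', ← hg, Pk_ang, hg, ih]
    ring

theorem Pk_eq_iter (f : 𝓢(E3, ℂ)) {k : ℤ} (hk : k ≠ 0) (n : ℕ) :
    Pk k f = ((k * Complex.I) ^ n)⁻¹ • Pk k (ang^[n] f) := by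
  funext x
  have : ((k : ℂ) * Complex.I) ^ n ≠ 0 :=
    pow_ne_zero _ (mul_ne_zero (Int.cast_ne_zero.2 hk) Complex.I_ne_zero)
  rw [Pi.smul_apply, Pk_ang_iter, smul_eq_mul, ← mul_assoc, inv_mul_cancel₀ this, one_mul]

theorem angb_norm (k : ℤ) (n : ℕ) : ‖(((k : ℂ) * Complex.I) ^ n)⁻¹‖ = (|(k : ℝ)| ^ n)⁻¹ := by
  simp [Complex.norm_intCast]

theorem angb_summable {a : ℤ → ℝ} {B : ℝ} (h0 : ∀ k, 0 ≤ a k)
    (h : ∀ k : ℤ, k ≠ 0 → a k ≤ (|(k : ℝ)| ^ 2)⁻¹ * B) : Summable a := by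
  have h1 : Summable fun k : ℤ => 1 / (k : ℝ) ^ 2 * B :=
    (Real.summable_one_div_int_pow.2 one_lt_two).mul_right B
  refine Summable.of_norm_bounded_eventually h1 ?_
  filter_upwards [eventually_cofinite_ne 0] with k hk
  rw [Real.norm_of_nonneg (h0 k), one_div, ← sq_abs]
  exact h k hk

theorem hasSum_Pk (f : 𝓢(E3, ℂ)) (x : E3) : HasSum (fun k : ℤ => Pk k f x) (f x) := by
  have : Fact (0 < 2 * π) := ⟨two_pi_pos⟩
  have hc0 : Continuous fun θ : ℝ => f (rot θ x) := f.continuous.comp (anga_cont x)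
  have e2 : rot 0 x = rot (2 * π) x := by simpa using (rot_two_pi 0 x).symm
  let F : C(AddCircle (2 * π), ℂ) := ⟨AddCircle.liftIco (2 * π) 0 fun θ : ℝ => f (rot θ x),
    AddCircle.liftIco_zero_continuous (by rw [e2]) hc0.continuousOn⟩
  have hF : ∀ k, fourierCoeff F k = Pk k f x := by
    intro k
    change fourierCoeff (AddCircle.liftIco (2 * π) 0 fun θ : ℝ => f (rot θ x)) k = _
    rw [fourierCoeff_liftIco_eq, fourierCoeffOn_eq_integral, Pk, Complex.real_smul]
    simp only [zero_add, sub_zero]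
    congr 1
    refine intervalIntegral.integral_congr fun θ _ => ?_
    simp only [fourier_coe_apply, smul_eq_mul]
    congr 2
    have : (π : ℂ) ≠ 0 := by exact_mod_cast pi_ne_zero
    push_cast
    field_simp
    ring
  obtain ⟨g, hg⟩ := ang_iter_schwartz f 2
  obtain ⟨B, hB⟩ := (schwartz_nice g).bdd
  have hs : Summable (fourierCoeff F) := by
    refine Summable.of_norm (angb_summable (B := B) (fun _ => norm_nonneg _) fun k hk => ?_)
    rw [hF, Pk_eq_iter f hk 2, Pi.smul_apply, norm_smul, angb_norm, ← hg]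
    gcongr
    exact Pk_norm_le ((norm_nonneg _).trans (hB 0)) x (ae_of_all _ fun θ => hB _) k
  have h := has_pointwise_sum_fourier_series_of_summable hs 0
  have e : F 0 = f x := by
    change AddCircle.liftIco (2 * π) 0 (fun θ : ℝ => f (rot θ x)) ((0 : ℝ) : AddCircle (2 * π)) = _
    rw [AddCircle.liftIco_zero_coe_apply ⟨le_rfl, two_pi_pos⟩, rot_zero]
  simpa only [hF, fourier_eval_zero, smul_eq_mul, mul_one, e] using h

theorem summable_Pk_L1 (f : 𝓢(E3, ℂ)) : Summable fun k : ℤ => ∫ x, ‖Pk k f x‖ := by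
  obtain ⟨g, hg⟩ := ang_iter_schwartz f 2
  refine angb_summable (B := ∫ x, ‖g x‖) (fun _ => integral_nonneg fun _ => norm_nonneg _)
    fun k hk => ?_
  rw [Pk_eq_iter f hk 2, ← hg]
  simp only [Pi.smul_apply, norm_smul, angb_norm]
  rw [integral_const_mul]
  exact mul_le_mul_of_nonneg_left (Pk_L1 (schwartz_nice g) k) (by positivity)

end Vale.Agent.P117
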