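import Vale.Agent.P117.Cx
import Vale.Agent.P117.CutA

/-!
Slices of planar multipliers. `inv_slice` is Fubini (`integral_cx`). `ann_pf`: for fixed `ζ` the function `u ρ = φ ((1 - ρ² - ζ²) / ε)` is smooth with compact
support; `Real.fourier_deriv` gives `2 π |τ| ‖𝓕⁻ u τ‖ ≤ ∫ ‖u'‖`, and `‖u' ρ‖ ≤ A * 2 |ρ| / ε` on the set `c - 4 ε ≤ ρ² ≤ c` (`c = 1 - ζ²`), zero elsewhere;
`∫ 2 |ρ|` over that set is at most `8 ε` (two intervals `[√(c - 4ε), √c]`, where the square root of a negative number is zero).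
-/

open MeasureTheory Set Real Filter
open scoped FourierTransform RealInnerProductSpace ContDiff ENNReal Topology

noncomputable section

namespace Vale.Agent.P117

variable {M : ℂ → ℂ}

theorem slice_inner (a b : ℝ) : ⟪a, b⟫ = a * b := by simp [mul_comm]


theorem slice_deriv {φ : ℝ → ℂ} (hφ : Prof φ) {u : ℝ} (hu : u ∉ Icc (1 / 4 : ℝ) 4) :
    deriv φ u = 0 := by
  have : φ =ᶠ[𝓝 u] fun _ => 0 :=
    eventually_of_mem (isClosed_Icc.isOpen_compl.mem_nhds hu) fun v hv => hφ.supp v hv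
  rw [this.deriv_eq, deriv_const]

theorem slice_two {a b C : ℝ} (hab : a ≤ b) {g : ℝ → ℂ} (hg : Measurable g) (hC : 0 ≤ C)
    (h : ∀ ρ, g ρ ≠ 0 → a ≤ |ρ| ∧ |ρ| ≤ b ∧ ‖g ρ‖ ≤ C) :
    Integrable g ∧ ∫ ρ, ‖g ρ‖ ≤ C * (2 * (b - a)) := by
  have i1 : ∀ p q : ℝ, Integrable ((Icc p q).indicator fun _ => C) := fun p q =>
    (integrable_indicator_iff measurableSet_Icc).2 (integrableOn_const measure_Icc_lt_top.ne)
  have hle : ∀ ρ, ‖g ρ‖ ≤
      (Icc a b).indicator (fun _ => C) ρ + (Icc (-b) (-a)).indicator (fun _ => C) ρ := fun ρ => by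
    have n1 : 0 ≤ (Icc a b).indicator (fun _ => C) ρ := indicator_nonneg (fun _ _ => hC) _
    have n2 : 0 ≤ (Icc (-b) (-a)).indicator (fun _ => C) ρ := indicator_nonneg (fun _ _ => hC) _
    by_cases h0 : g ρ = 0
    · rw [h0, norm_zero]; positivity
    obtain ⟨h1, h2, h3⟩ := h ρ h0
    rcases abs_cases ρ with e | e <;> rw [e.1] at h1 h2
    · rw [indicator_of_mem (show ρ ∈ Icc a b from ⟨h1, h2⟩)]; linarith
    · rw [indicator_of_mem (show ρ ∈ Icc (-b) (-a) from ⟨by linarith, by linarith⟩)]; linarith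
  have i2 := (i1 a b).add (i1 (-b) (-a))
  have i3 : Integrable g := i2.mono' hg.aestronglyMeasurable (Eventually.of_forall hle)
  refine ⟨i3, (integral_mono i3.norm i2 hle).trans (le_of_eq ?_)⟩
  simp only [Pi.add_apply]
  rw [integral_add (i1 _ _) (i1 _ _), integral_indicator_const _ measurableSet_Icc,
    integral_indicator_const _ measurableSet_Icc, volume_real_Icc_of_le hab,
    volume_real_Icc_of_le (neg_le_neg hab), smul_eq_mul, smul_eq_mul]
  ring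


theorem pf_integrable (hM : Integrable M) (τ : ℝ) : Integrable (pf M τ) := by
  have h := (integrable_mk.2 (four_int hM ⟨τ, 0⟩)).integral_prod_right
  refine h.congr (Eventually.of_forall fun ζ => ?_)
  simp only [pf, fourierInv_eq, inner_cx, slice_inner, mul_zero, add_zero]
theorem inv_slice (hM : Integrable M) (τ s : ℝ) : 𝓕⁻ M ⟨τ, s⟩ = 𝓕⁻ (pf M τ) s := by
  rw [fourierInv_eq, fourierInv_eq, integral_cx (four_int hM _)]
  refine integral_congr_ae (Eventually.of_forall fun z => ?_)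
  simp only [pf, fourierInv_eq, inner_cx, slice_inner, AddChar.map_add_eq_mul, Circle.smul_def,
    Circle.coe_mul, smul_eq_mul]
  rw [← integral_const_mul]
  refine integral_congr_ae (Eventually.of_forall fun t => ?_)
  ring
theorem ann_pf {φ : ℝ → ℂ} (hφ : Prof φ) : ∃ A : ℝ, 0 < A ∧ ∀ ε : ℝ, 0 < ε →
    (∀ ξ : ℂ, ‖ann φ ε ξ‖ ≤ A) ∧ ∀ τ ζ, |τ| * ‖pf (ann φ ε) τ ζ‖ ≤ A := by
  obtain ⟨A, hA, h1, h2⟩ := hφ.bdd
  refine ⟨16 * A, by positivity, fun ε hε => ⟨fun ξ => (h1 _).trans (by linarith), fun τ ζ => ?_⟩⟩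
  set c := 1 - ζ ^ 2 with hc
  have e : (fun ρ : ℝ => ann φ ε (⟨ρ, ζ⟩ : ℂ)) = fun ρ => φ ((c - ρ ^ 2) / ε) := by
    funext ρ
    rw [ann, norm_sq_cx, hc]
    congr 2
    ring
  have hd : ∀ ρ : ℝ, HasDerivAt (fun ρ : ℝ => φ ((c - ρ ^ 2) / ε))
      ((-(2 * ρ) / ε) • deriv φ ((c - ρ ^ 2) / ε)) ρ := fun ρ => by
    have h3 : HasDerivAt (fun ρ : ℝ => (c - ρ ^ 2) / ε) (-(2 * ρ) / ε) ρ := by
      simpa using ((hasDerivAt_pow 2 ρ).const_sub c).div_const ε
    exact (hφ.smooth.differentiable (by simp) _).hasDerivAt.scomp ρ h3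
  have hab : √(c - 4 * ε) ≤ √c := sqrt_le_sqrt (by linarith)
  have hsq : √c ^ 2 - √(c - 4 * ε) ^ 2 ≤ 4 * ε := by
    rw [sq_sqrt', sq_sqrt']
    have := le_max_left (c - 4 * ε) 0
    have := le_max_right (c - 4 * ε) 0
    rcases max_cases c 0 with h | h <;> linarith [h.1, h.2]
  have hb0 := sqrt_nonneg c
  have ha0 := sqrt_nonneg (c - 4 * ε)
  have hC : 0 ≤ 2 * √c / ε * A := by positivity
  obtain ⟨i1, i2⟩ := slice_two (C := 2 * √c / ε * A) hab
    (g := deriv fun ρ : ℝ => φ ((c - ρ ^ 2) / ε)) (measurable_deriv _) hC (fun ρ h0 => by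
      rw [(hd ρ).deriv] at h0 ⊢
      have h4 : (c - ρ ^ 2) / ε ∈ Icc (1 / 4 : ℝ) 4 := by
        by_contra h4
        exact h0 (by rw [slice_deriv hφ h4, smul_zero])
      have h5 := (le_div_iff₀ hε).1 h4.1
      have h6 := (div_le_iff₀ hε).1 h4.2
      have h7 : |ρ| ≤ √c := abs_le_sqrt (by linarith)
      refine ⟨sqrt_le_iff.2 ⟨abs_nonneg _, by rw [sq_abs]; linarith⟩, h7, ?_⟩
      rw [norm_smul, Real.norm_eq_abs, abs_div, abs_neg, abs_mul, abs_two, abs_of_pos hε]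
      gcongr
      exact h2 _)
  have i0 : Integrable fun ρ : ℝ => φ ((c - ρ ^ 2) / ε) := by
    refine (continuous_iff_continuousAt.2 fun ρ => (hd ρ).continuousAt).integrable_of_hasCompactSupport
      (HasCompactSupport.intro (isCompact_Icc (a := -√c) (b := √c)) fun ρ hρ => hφ.supp _ fun h4 => ?_)
    have h5 := (le_div_iff₀ hε).1 h4.1
    exact hρ (abs_le.1 (abs_le_sqrt (by linarith)))
  have h8 := norm_fourier_le (deriv fun ρ : ℝ => φ ((c - ρ ^ 2) / ε)) (-τ)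
  rw [fourier_deriv i0 (fun ρ => (hd ρ).differentiableAt) i1] at h8
  rw [pf, e, fourierInv_eq_fourier_neg]
  simp only [norm_smul, norm_mul, Complex.norm_I, Complex.norm_real, Real.norm_eq_abs, abs_neg,
    Complex.norm_two, abs_of_pos pi_pos, mul_one] at h8
  have h9 : 2 * √c / ε * A * (2 * (√c - √(c - 4 * ε))) ≤ 16 * A := by
    rw [div_mul_eq_mul_div, div_mul_eq_mul_div, div_le_iff₀ hε]
    have : √c * (√c - √(c - 4 * ε)) ≤ 4 * ε := by nlinarith
    nlinarith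
  have h10 : 0 ≤ |τ| * ‖𝓕 (fun ρ : ℝ => φ ((c - ρ ^ 2) / ε)) (-τ)‖ := by positivity
  nlinarith [pi_gt_three]

end Vale.Agent.P117
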