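import Vale.Agent.P117.CylB
import Vale.Agent.P117.Cx
import Vale.Agent.P117.CutA

/-!
The filtered back projection formula. `inv_mul_re`: Fubini on `ℝ × ℂ` and `∫ σ, lam * 𝓕⁻ a (lam σ) * e(-σ ρ) = a (ρ / lam)`.
`fbp`: `cv_eq`, `integral_cyl`; at the point `pt (ρ cos θ) (ρ sin θ) ζ = rot θ (pt ρ 0 ζ)` use `Eqv.fourier`, `rho_pt`, `ρ * chi (ρ / lam) = lam * a (ρ / lam) * b (ρ / lam)`;
for `ρ ≤ 0` the factor `a (ρ / lam)` vanishes, so the inner integral is `exp (i k θ) * lam * 𝓕⁻ (a (ξ.re / lam) * (M * 𝓕 G)) ⟨r cos θ, z⟩`. Then `inv_mul_re`, `cv_eq`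
and swap `θ` and `t` (`cv (𝓕⁻ M) G` is continuous and bounded, `𝓕⁻ a` is `Ker`; `intervalIntegral_integral_swap` or `integral_integral_swap`).
-/

open MeasureTheory Set Real Filter
open scoped FourierTransform RealInnerProductSpace ContDiff ENNReal Topology

noncomputable section

namespace Vale.Agent.P117

theorem fbp_aff {E : Type} [NormedAddCommGroup E] [NormedSpace ℝ E] (F : ℝ → E) {lam : ℝ}
    (hl : 0 < lam) (c : ℝ) : ∫ t, F (c - lam * t) = lam⁻¹ • ∫ s, F s := by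
  have h := Measure.integral_comp_mul_left (fun y => F (c - y)) lam
  rw [h, integral_sub_left_eq_self F volume c, abs_of_pos (inv_pos.mpr hl)]

theorem fbp_aff_int {E : Type} [NormedAddCommGroup E] {F : ℝ → E} (hF : Integrable F) {lam : ℝ}
    (hl : 0 < lam) (c : ℝ) : Integrable fun t => F (c - lam * t) :=
  Integrable.comp_mul_left' (g := fun y => F (c - y)) (hF.comp_sub_left c) hl.ne'

theorem fbp_key {a : ℝ → ℂ} (ha : Prof a) {lam : ℝ} (hl : 0 < lam) (τ ρ : ℝ) :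
    ∫ t : ℝ, lam * 𝓕⁻ a (lam * τ - lam * t) * Complex.exp (((2 * π * (ρ * t) : ℝ) : ℂ) * Complex.I) =
      a (ρ / lam) * Complex.exp (((2 * π * (ρ * τ) : ℝ) : ℂ) * Complex.I) := by
  have hl' : (lam : ℂ) ≠ 0 := by exact_mod_cast hl.ne'
  have h1 : ∀ t : ℝ, lam * 𝓕⁻ a (lam * τ - lam * t) *
      Complex.exp (((2 * π * (ρ * t) : ℝ) : ℂ) * Complex.I) =
      (fun s : ℝ => (lam * Complex.exp (((2 * π * (ρ * τ) : ℝ) : ℂ) * Complex.I)) *
        (Complex.exp (((-2 * π * s * (ρ / lam) : ℝ) : ℂ) * Complex.I) • 𝓕⁻ a s))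
        (lam * τ - lam * t) := by
    intro t
    have e : (2 * π * (ρ * t) : ℝ) = 2 * π * (ρ * τ) + -2 * π * (lam * τ - lam * t) * (ρ / lam) := by
      field_simp
      ring
    rw [e, Complex.ofReal_add, add_mul, Complex.exp_add]
    simp only [smul_eq_mul]
    ring
  have h2 := fbp_aff (fun s : ℝ => (lam * Complex.exp (((2 * π * (ρ * τ) : ℝ) : ℂ) * Complex.I)) *
        (Complex.exp (((-2 * π * s * (ρ / lam) : ℝ) : ℂ) * Complex.I) • 𝓕⁻ a s)) hl (lam * τ)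
  rw [(integral_congr_ae (Eventually.of_forall h1)).trans h2, integral_const_mul,
    ← Real.fourier_real_eq_integral_exp_smul, ha.sm.fourier_inv, Complex.real_smul,
    Complex.ofReal_inv]
  field_simp

theorem fbp_norm_exp (x : ℝ) : ‖Complex.exp ((x : ℂ) * Complex.I)‖ ≤ 1 :=
  (Complex.norm_exp_ofReal_mul_I x).le

theorem inv_mul_re {a : ℝ → ℂ} (ha : Prof a) {U : ℂ → ℂ} (hU : Integrable U) {lam : ℝ}
    (hl : 0 < lam) (τ z : ℝ) : 𝓕⁻ (fun ξ : ℂ => a (ξ.re / lam) * U ξ) ⟨τ, z⟩ =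
      ∫ t : ℝ, lam * 𝓕⁻ a (lam * τ - lam * t) * 𝓕⁻ U ⟨t, z⟩ := by
  have hK := ha.sm.ker_inv
  have hI : Integrable (Function.uncurry fun (t : ℝ) (ξ : ℂ) =>
      (lam * 𝓕⁻ a (lam * τ - lam * t) * U ξ) *
        Complex.exp (((2 * π * (ξ.re * t + ξ.im * z) : ℝ) : ℂ) * Complex.I))
      ((volume : Measure ℝ).prod (volume : Measure ℂ)) := by
    have h1 : Integrable fun t : ℝ => (lam : ℂ) * 𝓕⁻ a (lam * τ - lam * t) :=
      (fbp_aff_int hK.int hl _).const_mul _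
    refine Integrable.mul_bdd (c := 1) (h1.mul_prod hU) ?_ (Eventually.of_forall fun w => ?_)
    · exact Continuous.aestronglyMeasurable (by fun_prop)
    · exact fbp_norm_exp _
  have h2 : ∀ t : ℝ, lam * 𝓕⁻ a (lam * τ - lam * t) * 𝓕⁻ U ⟨t, z⟩ =
      ∫ ξ : ℂ, (lam * 𝓕⁻ a (lam * τ - lam * t) * U ξ) *
        Complex.exp (((2 * π * (ξ.re * t + ξ.im * z) : ℝ) : ℂ) * Complex.I) := by
    intro t
    rw [Real.fourierInv_eq' U, ← integral_const_mul]
    refine integral_congr_ae (Eventually.of_forall fun ξ => ?_)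
    simp only [inner_cx, smul_eq_mul]
    ring
  rw [integral_congr_ae (Eventually.of_forall h2), integral_integral_swap hI, Real.fourierInv_eq']
  refine integral_congr_ae (Eventually.of_forall fun ξ => ?_)
  have h3 : ∀ t : ℝ, (lam * 𝓕⁻ a (lam * τ - lam * t) * U ξ) *
      Complex.exp (((2 * π * (ξ.re * t + ξ.im * z) : ℝ) : ℂ) * Complex.I) =
      (U ξ * Complex.exp (((2 * π * (ξ.im * z) : ℝ) : ℂ) * Complex.I)) *
        (lam * 𝓕⁻ a (lam * τ - lam * t) *
          Complex.exp (((2 * π * (ξ.re * t) : ℝ) : ℂ) * Complex.I)) := by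
    intro t
    rw [mul_add, Complex.ofReal_add, add_mul, Complex.exp_add]
    ring
  simp only [inner_cx, smul_eq_mul]
  rw [integral_congr_ae (Eventually.of_forall h3), integral_const_mul, fbp_key ha hl, mul_add,
    Complex.ofReal_add, add_mul, Complex.exp_add]
  ring

theorem fbp_swap_int {K W : ℝ → ℂ} (hK : Ker K) (hW : Continuous W) {C : ℝ} (hC : ∀ t, ‖W t‖ ≤ C)
    {lam : ℝ} (hl : 0 < lam) (c : ℝ) (k : ℤ) :
    Integrable (Function.uncurry fun (θ t : ℝ) =>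
      K (c * cos θ - lam * t) * (Complex.exp (k * θ * Complex.I) * W t))
      ((volume.restrict (Set.uIoc (-π) π)).prod volume) := by
  have hc := hK.cont
  have h0 : Integrable (fun w : ℝ × ℝ => K (c * cos w.1 - lam * w.2))
      ((volume.restrict (Set.uIoc (-π) π)).prod volume) := by
    rw [integrable_prod_iff (Continuous.aestronglyMeasurable (by fun_prop))]
    refine ⟨Eventually.of_forall fun θ => fbp_aff_int hK.int hl (c * cos θ), ?_⟩
    have e : (fun θ : ℝ => ∫ t : ℝ, ‖K (c * cos θ - lam * t)‖) = fun _ => lam⁻¹ • ∫ s, ‖K s‖ := by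
      funext θ
      exact fbp_aff (fun s => ‖K s‖) hl _
    rw [e]
    have : IsFiniteMeasure (volume.restrict (Set.uIoc (-π) π)) := by
      refine ⟨?_⟩
      rw [Measure.restrict_apply_univ, Set.uIoc]
      exact measure_Ioc_lt_top
    exact integrable_const _
  refine Integrable.mul_bdd (c := C) h0 ?_ (Eventually.of_forall fun w => ?_)
  · exact Continuous.aestronglyMeasurable (by fun_prop)
  · have e : ‖Complex.exp (k * w.1 * Complex.I)‖ = 1 := by
      have := Complex.norm_exp_ofReal_mul_I (k * w.1)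
      rwa [Complex.ofReal_mul, Complex.ofReal_intCast] at this
    rw [norm_mul, e, one_mul]
    exact hC _

theorem fbp {M : ℂ → ℂ} (hM : Sm M) {a b : ℝ → ℂ} (ha : Prof a)
    (hab : ∀ u : ℝ, 0 < u → u * chi u = a u * b u) {lam : ℝ} (hl : 0 < lam) {m : E3 → ℂ}
    (hm : Integrable m) (hmM : ∀ ξ, m ξ = M ⟨rho ξ, ξ 2⟩ * chi (rho ξ / lam)) {k : ℤ} {f : E3 → ℂ}
    (hf : Integrable f) (he : Eqv k f) {G : ℂ → ℂ} (hG : Nice G)
    (hGf : ∀ ξ : ℂ, 𝓕 G ξ = b (ξ.re / lam) * 𝓕 f (pt ξ.re 0 ξ.im)) (r z : ℝ) :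
    cv (𝓕⁻ m) f (pt r 0 z) =
      (lam : ℂ) ^ 2 * ∫ t, Bk (𝓕⁻ a) k (lam * r) (lam * t) * cv (𝓕⁻ M) G ⟨t, z⟩ := by
  have hU : Integrable fun ξ => M ξ * 𝓕 G ξ := integrable_mul_fourier hM.ker.int hG.int
  have hW := cv_ker hM.ker_inv hG
  obtain ⟨C, hC⟩ := hW.bdd
  have hI : Integrable fun ξ : E3 =>
      Complex.exp (((2 * π * ⟪ξ, pt r 0 z⟫ : ℝ) : ℂ) * Complex.I) • (m ξ * 𝓕 f ξ) := by
    refine Integrable.bdd_mul (c := 1) (integrable_mul_fourier hm hf) ?_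
      (Eventually.of_forall fun w => fbp_norm_exp _)
    exact Continuous.aestronglyMeasurable (by fun_prop)
  have hl' : (lam : ℂ) ≠ 0 := by exact_mod_cast hl.ne'
  have hin : ∀ θ : ℝ, ∫ ξ in {ξ : ℂ | 0 < ξ.re}, (ξ.re : ℂ) *
      (Complex.exp (((2 * π * ⟪pt (ξ.re * cos θ) (ξ.re * sin θ) ξ.im, pt r 0 z⟫ : ℝ) : ℂ) *
        Complex.I) • (m (pt (ξ.re * cos θ) (ξ.re * sin θ) ξ.im) *
          𝓕 f (pt (ξ.re * cos θ) (ξ.re * sin θ) ξ.im))) =
      (lam : ℂ) ^ 2 * ∫ t : ℝ, 𝓕⁻ a (lam * r * cos θ - lam * t) *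
        (Complex.exp (k * θ * Complex.I) * cv (𝓕⁻ M) G ⟨t, z⟩) := by
    intro θ
    have e1 : ∫ ξ in {ξ : ℂ | 0 < ξ.re}, (ξ.re : ℂ) *
        (Complex.exp (((2 * π * ⟪pt (ξ.re * cos θ) (ξ.re * sin θ) ξ.im, pt r 0 z⟫ : ℝ) : ℂ) *
          Complex.I) • (m (pt (ξ.re * cos θ) (ξ.re * sin θ) ξ.im) *
            𝓕 f (pt (ξ.re * cos θ) (ξ.re * sin θ) ξ.im))) =
        ∫ ξ in {ξ : ℂ | 0 < ξ.re}, (Complex.exp (k * θ * Complex.I) * lam) *
          (Complex.exp (((2 * π * ⟪ξ, (⟨r * cos θ, z⟩ : ℂ)⟫ : ℝ) : ℂ) * Complex.I) •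
            (a (ξ.re / lam) * (M ξ * 𝓕 G ξ))) := by
      refine setIntegral_congr_fun (measurableSet_lt measurable_const Complex.measurable_re)
        fun ξ hξ => ?_
      have hξ' : 0 < ξ.re := hξ
      have e2 : ⟪pt (ξ.re * cos θ) (ξ.re * sin θ) ξ.im, pt r 0 z⟫ = ⟪ξ, (⟨r * cos θ, z⟩ : ℂ)⟫ := by
        rw [inner_e3, inner_cx]
        simp only [pt_zero, pt_one, pt_two]
        ring
      have e3 : 𝓕 f (pt (ξ.re * cos θ) (ξ.re * sin θ) ξ.im) =
          Complex.exp (k * θ * Complex.I) * 𝓕 f (pt ξ.re 0 ξ.im) := by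
        rw [← rot_pt]
        exact he.fourier θ _
      have e4 := hab (ξ.re / lam) (div_pos hξ' hl)
      have e5 : (ξ.re : ℂ) = lam * ((ξ.re / lam : ℝ) : ℂ) := by
        rw [Complex.ofReal_div]
        field_simp
      have e6 : (ξ.re : ℂ) * chi (ξ.re / lam) = lam * (a (ξ.re / lam) * b (ξ.re / lam)) := by
        rw [← e4, ← mul_assoc, ← e5]
      simp only [smul_eq_mul]
      rw [e2, e3, hmM, rho_pt hξ'.le, pt_two, hGf, Complex.eta]
      linear_combination (Complex.exp (((2 * π * ⟪ξ, (⟨r * cos θ, z⟩ : ℂ)⟫ : ℝ) : ℂ) * Complex.I) *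
        M ξ * Complex.exp (k * θ * Complex.I) * 𝓕 f (pt ξ.re 0 ξ.im)) * e6
    rw [e1, setIntegral_eq_integral_of_forall_compl_eq_zero, integral_const_mul,
      ← Real.fourierInv_eq', inv_mul_re ha hU hl, ← integral_const_mul, ← integral_const_mul]
    · refine integral_congr_ae (Eventually.of_forall fun t => ?_)
      simp only []
      rw [cv_eq hM.ker.int hG.int, mul_assoc lam r]
      ring
    · intro ξ hξ
      have hξ' : ξ.re ≤ 0 := not_lt.mp hξ
      have : a (ξ.re / lam) = 0 := by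
        refine ha.supp _ fun h => ?_
        have h1 := h.1
        have h2 : ξ.re / lam ≤ 0 := div_nonpos_of_nonpos_of_nonneg hξ' hl.le
        linarith
      rw [this]
      simp
  have hWc : Continuous fun t : ℝ => cv (𝓕⁻ M) G ⟨t, z⟩ :=
    hW.cont.comp (continuous_mk.comp (continuous_id.prodMk continuous_const))
  rw [cv_eq hm hf, Real.fourierInv_eq', integral_cyl hI]
  simp only [hin]
  rw [intervalIntegral.integral_const_mul, intervalIntegral_integral_swap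
    (fbp_swap_int ha.sm.ker_inv hWc (fun t => hC _) hl (lam * r) k)]
  congr 1
  refine integral_congr_ae (Eventually.of_forall fun t => ?_)
  simp only [Bk]
  rw [← intervalIntegral.integral_mul_const]
  refine intervalIntegral.integral_congr fun θ _ => ?_
  ring

end Vale.Agent.P117
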