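import Vale.Agent.P117.KerA

/-!
The kernel of the filtered back projection. With `w θ = 1 + r sin² θ` one integration by parts over
the whole circle (against `exp (i k θ) sin θ / w θ`) bounds it by `D (2 + |k|) ∫ dc 3 (r cos θ - t) / w θ`,
and that integral is bounded pointwise by the two integrands of `circ0` and `kerb_arc`.
-/

open MeasureTheory Set Real Filter
open scoped FourierTransform RealInnerProductSpace ContDiff ENNReal Topology

noncomputable section

namespace Vale.Agent.P117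

theorem kerb_arc (r t : ℝ) :
    ∫ θ in (-π)..π, r * |sin θ| / (1 + (r * cos θ - t) ^ 2) ≤ 2 * π := by
  have hpos : ∀ θ : ℝ, 0 < 1 + (r * cos θ - t) ^ 2 := fun θ => by positivity
  have hc : Continuous fun θ : ℝ => r * |sin θ| / (1 + (r * cos θ - t) ^ 2) :=
    Continuous.div (by fun_prop) (by fun_prop) fun θ => (hpos θ).ne'
  have hc' : Continuous fun θ : ℝ => 1 / (1 + (r * cos θ - t) ^ 2) * (r * -sin θ) :=
    Continuous.mul (Continuous.div (by fun_prop) (by fun_prop) fun θ => (hpos θ).ne')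
      (by fun_prop)
  have hd : ∀ θ : ℝ, HasDerivAt (fun θ : ℝ => arctan (r * cos θ - t))
      (1 / (1 + (r * cos θ - t) ^ 2) * (r * -sin θ)) θ := fun θ =>
    (((hasDerivAt_cos θ).const_mul r).sub_const t).arctan
  have key : ∀ a b : ℝ, ∫ θ in a..b, 1 / (1 + (r * cos θ - t) ^ 2) * (r * -sin θ) =
      arctan (r * cos b - t) - arctan (r * cos a - t) := fun a b =>
    intervalIntegral.integral_eq_sub_of_hasDerivAt (fun θ _ => hd θ) (hc'.intervalIntegrable _ _)
  rw [← intervalIntegral.integral_add_adjacent_intervals (b := 0) (hc.intervalIntegrable _ _)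
    (hc.intervalIntegrable _ _)]
  have h1 : ∫ θ in (-π)..0, r * |sin θ| / (1 + (r * cos θ - t) ^ 2) =
      ∫ θ in (-π)..0, 1 / (1 + (r * cos θ - t) ^ 2) * (r * -sin θ) := by
    refine intervalIntegral.integral_congr fun θ hθ => ?_
    rw [uIcc_of_le (by linarith [pi_pos])] at hθ
    have : sin θ ≤ 0 := sin_nonpos_of_nonpos_of_neg_pi_le hθ.2 hθ.1
    simp only [abs_of_nonpos this]
    ring
  have h2 : ∫ θ in (0 : ℝ)..π, r * |sin θ| / (1 + (r * cos θ - t) ^ 2) =
      ∫ θ in (0 : ℝ)..π, -(1 / (1 + (r * cos θ - t) ^ 2) * (r * -sin θ)) := by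
    refine intervalIntegral.integral_congr fun θ hθ => ?_
    rw [uIcc_of_le pi_pos.le] at hθ
    have : 0 ≤ sin θ := sin_nonneg_of_nonneg_of_le_pi hθ.1 hθ.2
    simp only [abs_of_nonneg this]
    ring
  rw [h1, h2, intervalIntegral.integral_neg, key, key]
  linarith [arctan_lt_pi_div_two (r * cos 0 - t), neg_pi_div_two_lt_arctan (r * cos (-π) - t),
    neg_pi_div_two_lt_arctan (r * cos π - t)]

theorem kerb_w {r : ℝ} (hr : 0 ≤ r) (θ : ℝ) : 0 < 1 + r * sin θ ^ 2 := by positivity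

theorem kerb_cw {r : ℝ} (hr : 0 ≤ r) (t : ℝ) :
    Continuous fun θ : ℝ => dc 3 (r * cos θ - t) / (1 + r * sin θ ^ 2) :=
  Continuous.div ((continuous_dc 3).comp (by fun_prop)) (by fun_prop) fun θ => (kerb_w hr θ).ne'

theorem kerb_cos (θ : ℝ) : 1 - |cos θ| ≤ sin θ ^ 2 := by
  have h1 : |cos θ| ≤ 1 := abs_cos_le_one θ
  have h0 : 0 ≤ |cos θ| := abs_nonneg _
  have h2 : sin θ ^ 2 = 1 - |cos θ| ^ 2 := by rw [sq_abs, sin_sq]
  nlinarith

theorem kerb_pt {r t a b : ℝ} (h : |t| + 2 < r) (ha : 0 < a) (hb : 1 ≤ b) (ha2 : a ^ 2 = 1 + r)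
    (hb2 : b ^ 2 = 1 + (r - |t|)) (θ : ℝ) :
    dc 3 (r * cos θ - t) / (1 + r * sin θ ^ 2) ≤
      8 / b ^ 3 * (1 + r * (1 - |cos θ|))⁻¹ +
        6 / (a * b ^ 3) * (r * |sin θ| / (1 + (r * cos θ - t) ^ 2)) := by
  have ht : 0 ≤ |t| := abs_nonneg t
  have hr : 0 ≤ r := by linarith
  have hb0 : 0 < b := by linarith
  have hc1 : 0 ≤ 1 - |cos θ| := by linarith [abs_cos_le_one θ]
  have hq : r * (1 - |cos θ|) ≤ r * sin θ ^ 2 := mul_le_mul_of_nonneg_left (kerb_cos θ) hr
  have hq0 : 0 ≤ r * (1 - |cos θ|) := mul_nonneg hr hc1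
  have hw := kerb_w hr θ
  set u := r * cos θ - t with hu
  have hu0 : 0 ≤ |u| := abs_nonneg u
  have t1 : 0 ≤ 8 / b ^ 3 * (1 + r * (1 - |cos θ|))⁻¹ := by positivity
  have t2 : 0 ≤ 6 / (a * b ^ 3) * (r * |sin θ| / (1 + u ^ 2)) := by positivity
  rcases le_total (r * (1 - |cos θ|)) ((r - |t|) / 2) with h1 | h1
  · have e1 : |r * cos θ| - |t| ≤ |u| := abs_sub_abs_le_abs_sub _ _
    rw [abs_mul, abs_of_nonneg hr] at e1
    have e2 : b / 2 ≤ 1 + |u| := by nlinarith
    have e3 : dc 3 u ≤ 8 / b ^ 3 := by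
      have : (b / 2) ^ 3 ≤ (1 + |u|) ^ 3 := pow_le_pow_left₀ (by positivity) e2 3
      calc dc 3 u ≤ ((b / 2) ^ 3)⁻¹ := inv_anti₀ (by positivity) this
        _ = 8 / b ^ 3 := by field_simp; norm_num
    have e4 : (1 + r * sin θ ^ 2)⁻¹ ≤ (1 + r * (1 - |cos θ|))⁻¹ :=
      inv_anti₀ (by positivity) (by linarith)
    have e5 : dc 3 u / (1 + r * sin θ ^ 2) ≤ 8 / b ^ 3 * (1 + r * (1 - |cos θ|))⁻¹ := by
      rw [div_eq_mul_inv]
      exact mul_le_mul e3 e4 (by positivity) (by positivity)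
    linarith
  · have e1 : (r - |t|) / 2 ≤ r * sin θ ^ 2 := h1.trans hq
    have e2 : b ^ 2 / 2 ≤ 1 + r * sin θ ^ 2 := by linarith
    have e3 : a * b ≤ 3 * (r * |sin θ|) := by
      refine (abs_le_of_sq_le_sq' ?_ (by positivity)).2
      have f1 : (3 * (r * |sin θ|)) ^ 2 = 9 * r * (r * sin θ ^ 2) := by
        rw [mul_pow, mul_pow, sq_abs]; ring
      rw [f1, mul_pow, ha2, hb2]
      have f2 : 9 * r * ((r - |t|) / 2) ≤ 9 * r * (r * sin θ ^ 2) :=
        mul_le_mul_of_nonneg_left e1 (by positivity)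
      have f3 : (1 + r) * (1 + (r - |t|)) ≤ (3 / 2 * r) * (3 / 2 * (r - |t|)) :=
        mul_le_mul (by linarith) (by linarith) (by linarith) (by positivity)
      have f4 : 0 ≤ r * (r - |t|) := mul_nonneg hr (by linarith)
      nlinarith
    have e4 : dc 3 u ≤ (1 + u ^ 2)⁻¹ := by
      refine inv_anti₀ (by positivity) ?_
      rw [← sq_abs u]
      nlinarith [pow_nonneg hu0 3, pow_nonneg hu0 2]
    have e5 : (1 + r * sin θ ^ 2)⁻¹ ≤ 6 / (a * b ^ 3) * (r * |sin θ|) := by
      calc (1 + r * sin θ ^ 2)⁻¹ ≤ (b ^ 2 / 2)⁻¹ := inv_anti₀ (by positivity) e2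
        _ = 2 / (a * b ^ 3) * (a * b) := by field_simp
        _ ≤ 2 / (a * b ^ 3) * (3 * (r * |sin θ|)) :=
          mul_le_mul_of_nonneg_left e3 (by positivity)
        _ = _ := by ring
    have e6 : dc 3 u / (1 + r * sin θ ^ 2) ≤
        (1 + u ^ 2)⁻¹ * (6 / (a * b ^ 3) * (r * |sin θ|)) := by
      rw [div_eq_mul_inv]
      exact mul_le_mul e4 e5 (by positivity) (by positivity)
    have e7 : (1 + u ^ 2)⁻¹ * (6 / (a * b ^ 3) * (r * |sin θ|)) =
        6 / (a * b ^ 3) * (r * |sin θ| / (1 + u ^ 2)) := by ring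
    linarith

theorem kerb_int : ∃ C : ℝ, 0 < C ∧ ∀ r t : ℝ, 0 ≤ r →
    ∫ θ in (-π)..π, dc 3 (r * cos θ - t) / (1 + r * sin θ ^ 2) ≤ C * kb r t := by
  obtain ⟨C0, hC0, h0⟩ := circ0
  obtain ⟨C1, hC1, h1⟩ := circ1
  refine ⟨C1 + (8 * C0 + 12 * π), by positivity, fun r t hr => ?_⟩
  have hkb : 0 ≤ kb r t := by unfold kb; positivity
  have hpi : -π ≤ π := by linarith [pi_pos]
  rcases le_or_gt r (|t| + 2) with h | h
  · have hcd : Continuous fun θ : ℝ => dc 3 (r * cos θ - t) :=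
      (continuous_dc 3).comp (by fun_prop)
    calc ∫ θ in (-π)..π, dc 3 (r * cos θ - t) / (1 + r * sin θ ^ 2)
        ≤ ∫ θ in (-π)..π, dc 3 (r * cos θ - t) := by
          refine intervalIntegral.integral_mono_on hpi ((kerb_cw hr t).intervalIntegrable _ _)
            (hcd.intervalIntegrable _ _) fun θ _ => ?_
          exact div_le_self (dc_pos _ _).le (le_add_of_nonneg_right (by positivity))
      _ ≤ C1 * kb r t := h1 r t hr h
      _ ≤ _ := mul_le_mul_of_nonneg_right (le_add_of_nonneg_right (by positivity)) hkb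
  · have ht : 0 ≤ |t| := abs_nonneg t
    have hd : 0 ≤ r - |t| := by linarith
    set a := √(1 + r) with hadef
    set b := √(1 + (r - |t|)) with hbdef
    have ha : 0 < a := sqrt_pos.2 (by linarith)
    have hb : 1 ≤ b := by rw [hbdef]; exact one_le_sqrt.2 (by linarith)
    have hb0 : 0 < b := by linarith
    have ha2 : a ^ 2 = 1 + r := sq_sqrt (by linarith)
    have hb2 : b ^ 2 = 1 + (r - |t|) := sq_sqrt (by linarith)
    have ea : (1 + r) ^ (-(1 / 2) : ℝ) = a⁻¹ := by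
      rw [rpow_neg (by linarith), hadef, sqrt_eq_rpow]
    have eb : (1 + abs (r - |t|)) ^ (-(3 / 2) : ℝ) = (b ^ 3)⁻¹ := by
      rw [abs_of_nonneg hd, rpow_neg (by linarith), hbdef, sqrt_eq_rpow, ← rpow_natCast,
        ← rpow_mul (by linarith)]
      norm_num
    have hcA : Continuous fun θ : ℝ => (1 + r * (1 - |cos θ|))⁻¹ := by
      refine Continuous.inv₀ (by fun_prop) fun θ => ?_
      have : 0 ≤ 1 - |cos θ| := by linarith [abs_cos_le_one θ]
      positivity
    have hcB : Continuous fun θ : ℝ => r * |sin θ| / (1 + (r * cos θ - t) ^ 2) :=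
      Continuous.div (by fun_prop) (by fun_prop) fun θ => by positivity
    calc ∫ θ in (-π)..π, dc 3 (r * cos θ - t) / (1 + r * sin θ ^ 2)
        ≤ ∫ θ in (-π)..π, (8 / b ^ 3 * (1 + r * (1 - |cos θ|))⁻¹ +
            6 / (a * b ^ 3) * (r * |sin θ| / (1 + (r * cos θ - t) ^ 2))) :=
          intervalIntegral.integral_mono_on hpi ((kerb_cw hr t).intervalIntegrable _ _)
            (((hcA.const_mul _).add (hcB.const_mul _)).intervalIntegrable _ _)
            fun θ _ => kerb_pt h ha hb ha2 hb2 θ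
      _ = 8 / b ^ 3 * (∫ θ in (-π)..π, (1 + r * (1 - |cos θ|))⁻¹) +
            6 / (a * b ^ 3) * ∫ θ in (-π)..π, r * |sin θ| / (1 + (r * cos θ - t) ^ 2) := by
          rw [intervalIntegral.integral_add ((hcA.const_mul _).intervalIntegrable _ _)
            ((hcB.const_mul _).intervalIntegrable _ _), intervalIntegral.integral_const_mul,
            intervalIntegral.integral_const_mul]
      _ ≤ 8 / b ^ 3 * (C0 * (1 + r) ^ (-(1 / 2) : ℝ)) + 6 / (a * b ^ 3) * (2 * π) :=
          add_le_add (mul_le_mul_of_nonneg_left (h0 r hr) (by positivity))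
            (mul_le_mul_of_nonneg_left (kerb_arc r t) (by positivity))
      _ = (8 * C0 + 12 * π) * kb r t := by
          unfold kb
          rw [ea, eb]
          field_simp
          ring
      _ ≤ _ := mul_le_mul_of_nonneg_right (le_add_of_nonneg_left hC1.le) hkb

theorem Bk_le : ∃ C : ℝ, 0 < C ∧ ∀ (κ : ℝ → ℂ) (D : ℝ), Prim κ D → ∀ (k : ℤ) (r t : ℝ), 0 ≤ r →
    ‖Bk κ k r t‖ ≤ C * D * (1 + |(k : ℝ)|) * kb r t := by
  obtain ⟨C, hC, hI⟩ := kerb_int
  refine ⟨2 * C, by positivity, fun κ D hκ k r t hr => ?_⟩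
  obtain ⟨κ₁, hκ1, hb1⟩ := hκ.prim
  have hD : 0 ≤ D := by
    have := (norm_nonneg _).trans (hκ.bd 0)
    exact nonneg_of_mul_nonneg_left this (dc_pos 3 0)
  have hkb : 0 ≤ kb r t := by unfold kb; positivity
  have hpi : -π ≤ π := by linarith [pi_pos]
  have hc1 : Continuous κ₁ := continuous_iff_continuousAt.2 fun u => (hκ1 u).continuousAt
  have hc0 := hκ.cont
  set e : ℝ → ℂ := fun θ => Complex.exp (k * θ * Complex.I) with he
  set s : ℝ → ℝ := fun θ => sin θ / (1 + r * sin θ ^ 2) with hs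
  set s' : ℝ → ℝ := fun θ => cos θ * (1 - r * sin θ ^ 2) / (1 + r * sin θ ^ 2) ^ 2 with hs'
  set v : ℝ → ℝ := fun θ => (1 + r * sin θ ^ 2)⁻¹ with hv
  have hce : Continuous e := by rw [he]; fun_prop
  have hcs : Continuous s :=
    Continuous.div (by fun_prop) (by fun_prop) fun θ => (kerb_w hr θ).ne'
  have hcs' : Continuous s' :=
    Continuous.div (by fun_prop) (by fun_prop) fun θ => (pow_pos (kerb_w hr θ) 2).ne'
  have hcv : Continuous v := Continuous.inv₀ (by fun_prop) fun θ => (kerb_w hr θ).ne'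
  have hne : ∀ θ, ‖e θ‖ = 1 := fun θ => by
    have : (k : ℂ) * θ * Complex.I = ((k * θ : ℝ) : ℂ) * Complex.I := by push_cast; ring
    simp only [he]
    rw [this, Complex.norm_exp_ofReal_mul_I]
  have hde : ∀ θ : ℝ, HasDerivAt e (e θ * (k * Complex.I)) θ := fun θ => by
    have h1 : HasDerivAt (fun θ : ℝ => (k : ℂ) * θ * Complex.I) (k * 1 * Complex.I) θ :=
      ((Complex.ofRealCLM.hasDerivAt (x := θ)).const_mul (k : ℂ)).mul_const Complex.I
    simpa using h1.cexp
  have hds : ∀ θ : ℝ, HasDerivAt s (s' θ) θ := fun θ => by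
    have h1 : HasDerivAt (fun θ : ℝ => 1 + r * sin θ ^ 2) (r * (2 * sin θ * cos θ)) θ := by
      have := (((hasDerivAt_sin θ).fun_pow 2).const_mul r).const_add 1
      simpa using this
    have h2 := (hasDerivAt_sin θ).fun_div h1 (kerb_w hr θ).ne'
    refine h2.congr_deriv ?_
    simp only [hs']
    ring
  set F : ℝ → ℂ := fun θ => κ (r * cos θ - t) * e θ * (v θ : ℂ) +
    κ₁ (r * cos θ - t) * e θ * (k * Complex.I * (s θ : ℂ) + (s' θ : ℂ)) with hF
  have hcF : Continuous F := by rw [hF]; fun_prop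
  have hcG : Continuous fun θ : ℝ => κ (r * cos θ - t) * e θ := by fun_prop
  have hH : ∀ θ : ℝ, HasDerivAt (fun θ : ℝ => κ₁ (r * cos θ - t) * e θ * (s θ : ℂ))
      (F θ - κ (r * cos θ - t) * e θ) θ := fun θ => by
    have h1 : HasDerivAt (fun θ : ℝ => r * cos θ - t) (r * -sin θ) θ :=
      ((hasDerivAt_cos θ).const_mul r).sub_const t
    have h2 := (hκ1 (r * cos θ - t)).scomp θ h1
    have h3 := (h2.fun_mul (hde θ)).fun_mul (hds θ).ofReal_comp
    refine h3.congr_deriv ?_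
    have h4 : r * -sin θ * s θ = v θ - 1 := by
      have := (kerb_w hr θ).ne'
      simp only [hs, hv]
      field_simp
      ring
    have h5 : ((r * -sin θ : ℝ) : ℂ) * (s θ : ℂ) = (v θ : ℂ) - 1 := by exact_mod_cast h4
    simp only [hF, Function.comp, Complex.real_smul]
    linear_combination (κ (r * cos θ - t) * e θ) * h5
  have hz : ∫ θ in (-π)..π, (F θ - κ (r * cos θ - t) * e θ) = 0 := by
    rw [intervalIntegral.integral_eq_sub_of_hasDerivAt (fun θ _ => hH θ)
      ((hcF.sub hcG).intervalIntegrable _ _)]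
    simp [hs]
  rw [intervalIntegral.integral_sub (hcF.intervalIntegrable _ _) (hcG.intervalIntegrable _ _),
    sub_eq_zero] at hz
  have hB : Bk κ k r t = ∫ θ in (-π)..π, F θ := hz.symm
  have hpt : ∀ θ : ℝ, ‖F θ‖ ≤
      D * (2 + |(k : ℝ)|) * (dc 3 (r * cos θ - t) / (1 + r * sin θ ^ 2)) := fun θ => by
    have hw := kerb_w hr θ
    have hv0 : 0 < v θ := inv_pos.2 hw
    have b1 : |s θ| ≤ v θ := by
      simp only [hs, hv]
      rw [abs_div, abs_of_pos hw, div_eq_mul_inv]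
      exact mul_le_of_le_one_left (by positivity) (abs_sin_le_one θ)
    have b2 : |s' θ| ≤ v θ := by
      simp only [hs', hv]
      rw [abs_div, abs_mul, abs_of_pos (pow_pos hw 2), div_le_iff₀ (pow_pos hw 2)]
      have q0 : 0 ≤ r * sin θ ^ 2 := by positivity
      have q1 : |1 - r * sin θ ^ 2| ≤ 1 + r * sin θ ^ 2 := abs_le.2 ⟨by linarith, by linarith⟩
      calc |cos θ| * |1 - r * sin θ ^ 2| ≤ 1 * (1 + r * sin θ ^ 2) :=
            mul_le_mul (abs_cos_le_one θ) q1 (abs_nonneg _) zero_le_one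
        _ = _ := by field_simp
    have b3 : ‖(k : ℂ) * Complex.I * (s θ : ℂ) + (s' θ : ℂ)‖ ≤ (1 + |(k : ℝ)|) * v θ := by
      refine (norm_add_le _ _).trans ?_
      rw [norm_mul, norm_mul, Complex.norm_I, Complex.norm_intCast, Complex.norm_real,
        Complex.norm_real, Real.norm_eq_abs, Real.norm_eq_abs]
      nlinarith [mul_le_mul_of_nonneg_left b1 (abs_nonneg (k : ℝ))]
    have hdc := (dc_pos 3 (r * cos θ - t)).le
    refine (norm_add_le _ _).trans ?_
    rw [norm_mul, norm_mul, norm_mul, norm_mul, hne, Complex.norm_real, Real.norm_eq_abs,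
      abs_of_pos hv0, mul_one, mul_one]
    calc ‖κ (r * cos θ - t)‖ * v θ +
          ‖κ₁ (r * cos θ - t)‖ * ‖(k : ℂ) * Complex.I * (s θ : ℂ) + (s' θ : ℂ)‖
        ≤ D * dc 3 (r * cos θ - t) * v θ + D * dc 3 (r * cos θ - t) * ((1 + |(k : ℝ)|) * v θ) :=
          add_le_add (mul_le_mul_of_nonneg_right (hκ.bd _) hv0.le)
            (mul_le_mul (hb1 _) b3 (norm_nonneg _) (by positivity))
      _ = _ := by simp only [hv]; ring
  rw [hB]
  calc ‖∫ θ in (-π)..π, F θ‖
      ≤ ∫ θ in (-π)..π, D * (2 + |(k : ℝ)|) * (dc 3 (r * cos θ - t) / (1 + r * sin θ ^ 2)) :=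
        intervalIntegral.norm_integral_le_of_norm_le hpi (Eventually.of_forall fun θ _ => hpt θ)
          (((kerb_cw hr t).const_mul _).intervalIntegrable _ _)
    _ = D * (2 + |(k : ℝ)|) * ∫ θ in (-π)..π, dc 3 (r * cos θ - t) / (1 + r * sin θ ^ 2) :=
        intervalIntegral.integral_const_mul _ _
    _ ≤ D * (2 * (1 + |(k : ℝ)|)) * (C * kb r t) :=
        mul_le_mul (mul_le_mul_of_nonneg_left (by linarith [abs_nonneg (k : ℝ)]) hD) (hI r t hr)
          (intervalIntegral.integral_nonneg hpi fun θ _ =>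
            div_nonneg (dc_pos _ _).le (kerb_w hr θ).le) (by positivity)
    _ = _ := by ring

theorem continuous_Bk {κ : ℝ → ℂ} (h : Continuous κ) (k : ℤ) :
    Continuous (Function.uncurry (Bk κ k)) := by
  have : Continuous (Function.uncurry fun (q : ℝ × ℝ) (θ : ℝ) =>
      κ (q.1 * cos θ - q.2) * Complex.exp (k * θ * Complex.I)) := by
    unfold Function.uncurry
    fun_prop
  exact intervalIntegral.continuous_parametric_intervalIntegral_of_continuous' this (-π) π

end Vale.Agent.P117
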