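import Vale.Agent.P117.CutA
import Vale.Agent.P117.Decay
import Vale.Agent.P117.Cx

/-!
Profiles have inverse Fourier transforms with decaying primitives: `κ₁ = 𝓕⁻ (c u / (2 π i u))`, where `c u / (2 π i u)` is again a profile;
`Real.hasDerivAt_fourier` (or `Real.deriv_fourier`), `Real.fourierInv_eq_fourier_neg`, `Sm.decay`.
-/

open MeasureTheory Set Real Filter
open scoped FourierTransform RealInnerProductSpace ContDiff ENNReal Topology

noncomputable section

namespace Vale.Agent.P117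

theorem primx_div {c : ℝ → ℂ} (h : Prof c) :
    Prof fun u : ℝ => c u / (-2 * π * Complex.I * u) := by
  refine ⟨contDiff_iff_contDiffAt.2 fun u => ?_, fun u hu => by rw [h.supp u hu, zero_div]⟩
  by_cases hu : u = 0
  · refine (contDiffAt_const (c := (0 : ℂ))).congr_of_eventuallyEq ?_
    filter_upwards [gt_mem_nhds (show u < 1 / 4 by rw [hu]; norm_num)] with v hv
    rw [h.supp v fun h' => hv.not_ge h'.1, zero_div]
  · simp only [div_eq_mul_inv]
    refine h.smooth.contDiffAt.mul (ContDiffAt.inv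
      (contDiffAt_const.mul Complex.ofRealCLM.contDiff.contDiffAt) ?_)
    simp [hu, pi_ne_zero]

theorem primx_bd {m : ℝ → ℂ} (h : Sm m) : ∃ C, 0 ≤ C ∧ ∀ u, ‖𝓕 m u‖ ≤ C * dc 3 u := by
  obtain ⟨C, h0, hC⟩ := h.decay 3
  refine ⟨C, h0, fun u => ?_⟩
  have := hC (-u)
  rwa [fourierInv_eq_fourier_neg, neg_neg, norm_neg] at this

theorem primx_fourier {c : ℝ → ℂ} (h : Prof c) : ∃ D, 0 < D ∧ Prim (𝓕 c) D := by
  have h1 := (primx_div h).sm
  obtain ⟨C, c0, hC⟩ := primx_bd h.sm
  obtain ⟨C', c1, hC'⟩ := primx_bd h1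
  have e : (fun x : ℝ => (-2 * π * Complex.I * x) • (c x / (-2 * π * Complex.I * x))) = c := by
    funext x
    by_cases hx : x = 0
    · rw [h.supp x fun h' => by linarith [h'.1], zero_div, smul_zero]
    · exact mul_div_cancel₀ _ (by simp [hx, pi_ne_zero])
  refine ⟨C + C' + 1, by positivity, h.sm.ker_fourier.cont, fun u => (hC u).trans
    (mul_le_mul_of_nonneg_right (by linarith) (dc_pos _ _).le), _, fun u => ?_,
    fun u => (hC' u).trans (mul_le_mul_of_nonneg_right (by linarith) (dc_pos _ _).le)⟩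
  have h2 := Real.hasDerivAt_fourier h1.ker.int
    ((h1.mul Complex.ofRealCLM.contDiff).ker.int.congr (Eventually.of_forall fun x => by
      simp only [Complex.ofRealCLM_apply, Complex.real_smul, mul_comm])) u
  rwa [e] at h2

theorem Prof.prim_inv {c : ℝ → ℂ} (h : Prof c) : ∃ D, 0 < D ∧ Prim (𝓕⁻ c) D := by
  obtain ⟨D, h0, h1, h2, κ, h3, h4⟩ := primx_fourier h
  rw [show 𝓕⁻ c = fun u => 𝓕 c (-u) from funext (fourierInv_eq_fourier_neg c)]
  refine ⟨D, h0, h1.comp continuous_neg, fun u => dc_neg 3 u ▸ h2 (-u), fun u => -κ (-u),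
    fun u => ?_, fun u => by rw [norm_neg, ← dc_neg]; exact h4 _⟩
  simpa [Function.comp_def] using ((h3 (-u)).scomp u (hasDerivAt_neg u)).fun_neg
theorem Prof.prim_fourier {c : ℝ → ℂ} (h : Prof c) : ∃ D, 0 < D ∧ Prim (𝓕 c) D := primx_fourier h

end Vale.Agent.P117
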