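import Vale.Agent.P117.Cx
import Vale.Agent.P117.Schur

/-!
Schur tests for the projection and the back projection. Put `s = 1/2 - 1/p ∈ [0, 1/4]`, `R = 1 + lam r`, `T = 1 + lam |t|`, `Δ = 1 + lam * abs (r - |t|)`;
`R ≤ T Δ`, `T ≤ R Δ`, `lam r ≤ R`. First: `T ^ (-s) * kb * r ^ (1 - 1/p) ≤ lam ^ (1/p - 1) * Δ ^ (-5/4)` and `h r = ‖F r‖ₑ * ofReal (r ^ (1/p))`.
Second: `r ^ (1/p) * kb * T ^ s ≤ lam ^ (-1/p) * Δ ^ (-5/4)`. `Δ ^ (-5/4) ≤ (1 + lam |r - t|) ^ (-5/4) + (1 + lam |r + t|) ^ (-5/4)`, each with integral `≤ 8 / lam`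
(`lintegral_rpow_aff`). Use `enorm_integral_le_lintegral_enorm` and `schur` with the measures `volume` and `volume.restrict (Ioi 0)`.
-/

open MeasureTheory Set Real Filter
open scoped FourierTransform RealInnerProductSpace ContDiff ENNReal Topology

noncomputable section

namespace Vale.Agent.P117

/-- the majorant of the kernels -/
def ssK (lam x y : ℝ) : ℝ≥0∞ := ENNReal.ofReal ((1 + lam * |y - x|) ^ (-(1 + 1 / 4 : ℝ))) +
  ENNReal.ofReal ((1 + lam * |y - -x|) ^ (-(1 + 1 / 4 : ℝ)))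

theorem ssK_comm (lam x y : ℝ) : ssK lam x y = ssK lam y x := by
  rw [ssK, ssK, abs_sub_comm, sub_neg_eq_add, sub_neg_eq_add, add_comm y x]

theorem ssK_int {lam : ℝ} (hl : 0 < lam) (x : ℝ) :
    ∫⁻ y, ssK lam x y ≤ ENNReal.ofReal (16 / lam) := by
  unfold ssK
  rw [lintegral_add_left (by fun_prop)]
  refine (add_le_add (lintegral_rpow_aff (by norm_num) hl one_pos _)
    (lintegral_rpow_aff (by norm_num) hl one_pos _)).trans (le_of_eq ?_)
  rw [← ENNReal.ofReal_add (by positivity) (by positivity), one_rpow]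
  congr 1
  field_simp
  norm_num

theorem ss_gen {p lam c : ℝ} (hp : 1 ≤ p) (hl : 0 < lam) (hc : 0 ≤ c) {μ ν : Measure ℝ}
    [SFinite μ] [SFinite ν] (hμ : μ ≤ volume) (hν : ν ≤ volume) {h : ℝ → ℝ≥0∞}
    (hh : Measurable h) :
    ∫⁻ x, (∫⁻ y, ENNReal.ofReal c * (ssK lam x y * h y) ∂ν) ^ p ∂μ ≤
      ENNReal.ofReal ((16 * c / lam) ^ p) * ∫⁻ y, h y ^ p ∂ν := by
  have hp0 : 0 ≤ p := by linarith
  have h1 := schur (μ := μ) (ν := ν) hp (k := ssK lam) (by unfold ssK Function.uncurry; fun_prop)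
    (fun x => (lintegral_mono' hν le_rfl).trans (ssK_int hl x))
    (fun y => (lintegral_mono' hμ fun x => (ssK_comm _ _ _).le).trans (ssK_int hl y)) hh
  have h2 := ENNReal.rpow_add_of_nonneg (x := ENNReal.ofReal (16 / lam)) (p - 1) 1 (by linarith)
    zero_le_one
  rw [sub_add_cancel, ENNReal.rpow_one] at h2
  rw [← h2] at h1
  simp only [lintegral_const_mul' _ _ ENNReal.ofReal_ne_top, ENNReal.mul_rpow_of_nonneg _ _ hp0]
  rw [lintegral_const_mul' _ _ (ENNReal.rpow_ne_top_of_nonneg hp0 ENNReal.ofReal_ne_top)]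
  refine (mul_le_mul_right h1 _).trans (le_of_eq ?_)
  rw [← mul_assoc, ← ENNReal.mul_rpow_of_nonneg _ _ hp0, ← ENNReal.ofReal_mul hc,
    ENNReal.ofReal_rpow_of_nonneg (by positivity) hp0]
  congr 3
  ring

theorem ss_K {lam r : ℝ} (hl : 0 < lam) (t : ℝ) :
    ENNReal.ofReal ((1 + abs (lam * r - |lam * t|)) ^ (-(1 + 1 / 4 : ℝ))) ≤ ssK lam r t := by
  rw [abs_mul, abs_of_pos hl, ← mul_sub, abs_mul, abs_of_pos hl]
  rcases le_total 0 t with h | h
  · rw [abs_of_nonneg h, abs_sub_comm]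
    exact le_self_add
  · rw [abs_of_nonpos h, sub_neg_eq_add, ssK, sub_neg_eq_add, add_comm t r]
    exact le_add_self

theorem ss_pt {u v a b e : ℝ} (hu : 0 ≤ u) (hv : 0 ≤ v) (hb : 0 ≤ b) (he : e = 1 / 2 - b)
    (h1 : -(1 / 4) ≤ e) (h2 : e ≤ 1 / 4) (ha : a = u ^ b) :
    (1 + v) ^ e * ((1 + u) ^ (-(1 / 2) : ℝ) * (1 + |u - v|) ^ (-(3 / 2) : ℝ)) * a ≤
      (1 + |u - v|) ^ (-(1 + 1 / 4 : ℝ)) := by
  have a0 := abs_nonneg (u - v)
  have a1 := le_abs_self (u - v)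
  have a2 := neg_abs_le (u - v)
  have p1 : 0 < 1 + u := by positivity
  have p2 : 0 < 1 + v := by positivity
  have p3 : 0 < 1 + |u - v| := by positivity
  have b1 : log (1 + u) ≤ log (1 + v) + log (1 + |u - v|) := by
    rw [← log_mul p2.ne' p3.ne']
    exact log_le_log p1 (by nlinarith)
  have b2 : log (1 + v) ≤ log (1 + u) + log (1 + |u - v|) := by
    rw [← log_mul p1.ne' p3.ne']
    exact log_le_log p2 (by nlinarith)
  have b3 : 0 ≤ log (1 + |u - v|) := log_nonneg (by linarith)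
  refine (mul_le_mul_of_nonneg_left (ha.le.trans (rpow_le_rpow hu
    (le_add_of_nonneg_left zero_le_one) hb)) (by positivity)).trans ?_
  simp only [rpow_def_of_pos p1, rpow_def_of_pos p2, rpow_def_of_pos p3, ← exp_add, exp_le_exp]
  obtain rfl : b = 1 / 2 - e := by linarith
  rcases le_total 0 e with h | h
  · nlinarith [mul_nonneg h (sub_nonneg.2 b2), mul_nonneg (sub_nonneg.2 h2) b3]
  · nlinarith [mul_nonneg (neg_nonneg.2 h) (sub_nonneg.2 b1), mul_nonneg (sub_nonneg.2 h1) b3]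

theorem ss_inv {p : ℝ} (h2 : 2 ≤ p) (h4 : p ≤ 4) : 1 / 4 ≤ 1 / p ∧ 1 / p ≤ 1 / 2 :=
  ⟨one_div_le_one_div_of_le (by linarith) h4, one_div_le_one_div_of_le two_pos h2⟩

theorem ss_in {p : ℝ} (h2 : 2 ≤ p) (h4 : p ≤ 4) {B : ℝ → ℝ → ℂ} {D lam : ℝ} (hD : 0 ≤ D)
    (hl : 0 < lam) (hB : ∀ r t, 0 ≤ r → ‖B r t‖ ≤ D * kb r t) {F : ℝ → ℂ} (hF : Measurable F) :
    ∫⁻ t, ‖(wt lam (1 / 2 - 1 / p) t : ℂ) * ∫ r in Ioi (0 : ℝ),
        lam * B (lam * r) (lam * t) * F r * r‖ₑ ^ p ≤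
      ENNReal.ofReal ((16 * D) ^ p * lam ^ (1 - p)) *
        ∫⁻ r in Ioi (0 : ℝ), ‖F r‖ₑ ^ p * ENNReal.ofReal r := by
  obtain ⟨q1, q2⟩ := ss_inv h2 h4
  have hp0 : 0 < p := by linarith
  have h1 := ss_gen (p := p) (c := D * lam ^ (1 / p)) (by linarith) hl (by positivity)
    (μ := volume) (ν := volume.restrict (Ioi 0)) le_rfl Measure.restrict_le_self
    (h := fun r => ‖F r‖ₑ * ENNReal.ofReal r ^ (1 / p)) (by fun_prop)
  have e1 : (16 * (D * lam ^ (1 / p)) / lam) ^ p = (16 * D) ^ p * lam ^ (1 - p) := by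
    rw [← mul_assoc, mul_div_assoc, mul_rpow (by positivity) (by positivity),
      ← rpow_sub_one hl.ne', ← rpow_mul hl.le, sub_mul, one_div_mul_cancel hp0.ne', one_mul]
  simp only [e1, ENNReal.mul_rpow_of_nonneg _ _ hp0.le, ← ENNReal.rpow_mul,
    one_div_mul_cancel hp0.ne', ENNReal.rpow_one] at h1
  refine le_trans (lintegral_mono fun t => ENNReal.rpow_le_rpow ?_ hp0.le) h1
  rw [← integral_const_mul]
  refine (enorm_integral_le_lintegral_enorm _).trans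
    (setLIntegral_mono' measurableSet_Ioi fun r hr => ?_)
  have r0 : 0 < r := hr
  refine le_trans ?_ (mul_le_mul_right (mul_le_mul_left ((ss_K hl t).trans_eq
    (ssK_comm _ _ _)) _) _)
  rw [← ofReal_norm, ← ofReal_norm, ENNReal.ofReal_rpow_of_pos r0,
    ← ENNReal.ofReal_mul (norm_nonneg _), ← ENNReal.ofReal_mul (by positivity),
    ← ENNReal.ofReal_mul (by positivity)]
  refine ENNReal.ofReal_le_ofReal ?_
  have w0 : 0 < wt lam (1 / 2 - 1 / p) t := by unfold wt; positivity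
  have b1 := hB (lam * r) (lam * t) (by positivity)
  have b2 := ss_pt (u := lam * r) (v := |lam * t|) (b := 1 - 1 / p) (e := -(1 / 2 - 1 / p))
    (by positivity) (abs_nonneg _) (by linarith) (by ring) (by linarith) (by linarith) rfl
  have b3 : (1 + |lam * t|) ^ (-(1 / 2 - 1 / p)) = wt lam (1 / 2 - 1 / p) t := by
    rw [wt, abs_mul, abs_of_pos hl]
  have b4 : lam * r = (lam * r) ^ (1 - 1 / p) * (lam ^ (1 / p) * r ^ (1 / p)) := by
    rw [← mul_rpow hl.le r0.le, ← rpow_add (by positivity), sub_add_cancel, rpow_one]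
  rw [b3] at b2
  simp only [norm_mul, Complex.norm_real, Real.norm_of_nonneg w0.le, Real.norm_of_nonneg hl.le,
    Real.norm_of_nonneg r0.le]
  calc _ = wt lam (1 / 2 - 1 / p) t * ‖B (lam * r) (lam * t)‖ * (lam * r) * ‖F r‖ := by ring
    _ ≤ wt lam (1 / 2 - 1 / p) t * (D * kb (lam * r) (lam * t)) * (lam * r) * ‖F r‖ := by gcongr
    _ = wt lam (1 / 2 - 1 / p) t * kb (lam * r) (lam * t) * (lam * r) ^ (1 - 1 / p) *
        (D * lam ^ (1 / p) * (‖F r‖ * r ^ (1 / p))) := by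
      conv_lhs => rw [show ∀ x : ℝ, x * (lam * r) = x * ((lam * r) ^ (1 - 1 / p) *
        (lam ^ (1 / p) * r ^ (1 / p))) from fun x => congrArg _ b4]
      ring
    _ ≤ _ := (mul_le_mul_of_nonneg_right b2 (by positivity)).trans_eq (by ring)

theorem ss_out {p : ℝ} (h2 : 2 ≤ p) (h4 : p ≤ 4) {B : ℝ → ℝ → ℂ} {D lam : ℝ} (hD : 0 ≤ D)
    (hl : 0 < lam) (hB : ∀ r t, 0 ≤ r → ‖B r t‖ ≤ D * kb r t) {G : ℝ → ℂ} (hG : Measurable G) :
    ∫⁻ r in Ioi (0 : ℝ), ‖(lam : ℂ) ^ 2 * ∫ t, B (lam * r) (lam * t) * G t‖ₑ ^ p * ENNReal.ofReal r ≤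
      ENNReal.ofReal ((16 * D) ^ p * lam ^ (p - 1)) *
        ∫⁻ t, ‖(wt lam (1 / 2 - 1 / p) t : ℂ) * G t‖ₑ ^ p := by
  obtain ⟨q1, q2⟩ := ss_inv h2 h4
  have hp0 : 0 < p := by linarith
  have h1 := ss_gen (p := p) (c := D * (lam ^ 2 / lam ^ (1 / p))) (by linarith) hl (by positivity)
    (μ := volume.restrict (Ioi 0)) (ν := volume) Measure.restrict_le_self le_rfl
    (h := fun t => ‖(wt lam (1 / 2 - 1 / p) t : ℂ) * G t‖ₑ) (by unfold wt; fun_prop)
  have e1 : (16 * (D * (lam ^ 2 / lam ^ (1 / p))) / lam) ^ p = (16 * D) ^ p * lam ^ (p - 1) := by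
    rw [← mul_assoc, mul_div_assoc, mul_rpow (by positivity) (by positivity), div_right_comm,
      sq, mul_div_cancel_right₀ _ hl.ne', div_rpow hl.le (by positivity), ← rpow_mul hl.le,
      one_div_mul_cancel hp0.ne', rpow_one, rpow_sub_one hl.ne']
  rw [e1] at h1
  refine le_trans (setLIntegral_mono' measurableSet_Ioi fun r hr => ?_) h1
  have r0 : 0 < r := hr
  have e2 : ENNReal.ofReal r = ‖((r ^ (1 / p) : ℝ) : ℂ)‖ₑ ^ p := by
    rw [← ofReal_norm, Complex.norm_real, Real.norm_of_nonneg (by positivity),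
      ENNReal.ofReal_rpow_of_pos (by positivity), ← rpow_mul r0.le, one_div_mul_cancel hp0.ne',
      rpow_one]
  rw [e2, ← ENNReal.mul_rpow_of_nonneg _ _ hp0.le, ← enorm_mul, ← integral_const_mul,
    ← integral_mul_const]
  refine ENNReal.rpow_le_rpow ((enorm_integral_le_lintegral_enorm _).trans
    (lintegral_mono fun t => ?_)) hp0.le
  refine le_trans ?_ (mul_le_mul_right (mul_le_mul_left (ss_K hl t) _) _)
  rw [← ofReal_norm, ← ofReal_norm, ← ENNReal.ofReal_mul (by positivity),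
    ← ENNReal.ofReal_mul (by positivity)]
  refine ENNReal.ofReal_le_ofReal ?_
  have w0 : 0 < wt lam (1 / 2 - 1 / p) t := by unfold wt; positivity
  have b1 := hB (lam * r) (lam * t) (by positivity)
  have b2 := ss_pt (u := lam * r) (v := |lam * t|) (b := 1 / p) (e := 1 / 2 - 1 / p)
    (by positivity) (abs_nonneg _) (by linarith) rfl (by linarith) (by linarith) rfl
  have b3 : (1 + |lam * t|) ^ (1 / 2 - 1 / p) * wt lam (1 / 2 - 1 / p) t = 1 := by
    rw [wt, abs_mul, abs_of_pos hl, ← rpow_add (by positivity), add_neg_cancel, rpow_zero]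
  have b4 : r ^ (1 / p) = (lam * r) ^ (1 / p) / lam ^ (1 / p) := by
    rw [mul_rpow hl.le r0.le, mul_div_cancel_left₀ _ (by positivity)]
  simp only [norm_mul, norm_pow, Complex.norm_real, Real.norm_of_nonneg w0.le,
    Real.norm_of_nonneg hl.le, Real.norm_of_nonneg (rpow_nonneg r0.le _)]
  calc _ ≤ lam ^ 2 * (D * kb (lam * r) (lam * t) * ‖G t‖) * r ^ (1 / p) := by gcongr
    _ = (1 + |lam * t|) ^ (1 / 2 - 1 / p) * kb (lam * r) (lam * t) * (lam * r) ^ (1 / p) *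
        (D * (lam ^ 2 / lam ^ (1 / p)) * (wt lam (1 / 2 - 1 / p) t * ‖G t‖)) := by
      rw [b4]
      linear_combination (-(lam ^ 2 * (D * kb (lam * r) (lam * t) * ‖G t‖) *
        ((lam * r) ^ (1 / p) / lam ^ (1 / p)))) * b3
    _ ≤ _ := (mul_le_mul_of_nonneg_right b2 (by positivity)).trans_eq (by ring)

end Vale.Agent.P117
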