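import Vale.Agent.P117.Schur

/-!
Almost orthogonality. With `u (a, b) = H a * H b`, `‖∑ H‖ ^ 4 = ‖∑ u‖ ^ 2 = ∑∑ u P * conj (u Q)`; integrate (everything is
integrable and bounded), drop the pairs that are not `Near`, use `‖u P‖ ‖u Q‖ ≤ (‖u P‖² + ‖u Q‖²) / 2`, the symmetry of `Near` and
the count `2 * 15 * 15` of the pairs `(c, d)` with `Near a b c d`.
-/

open MeasureTheory Set Real Filter
open scoped FourierTransform RealInnerProductSpace ContDiff ENNReal Topology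

noncomputable section

namespace Vale.Agent.P117

variable {V : Type} [NormedAddCommGroup V] [InnerProductSpace ℝ V] [FiniteDimensional ℝ V]
  [MeasurableSpace V] [BorelSpace V]

theorem Near.symm {a b c d : ℤ} (h : Near a b c d) : Near c d a b := by
  unfold Near at h ⊢
  rw [abs_sub_comm c a, abs_sub_comm d b, abs_sub_comm c b, abs_sub_comm d a]
  tauto

theorem ao_sq {f : V → ℂ} (hf : Ker f) : Integrable fun x => ‖f x‖ ^ 2 := by
  simpa only [norm_mul, sq] using (hf.mul hf).int.norm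

theorem ao_conj {f g : V → ℂ} (hf : Ker f) (hg : Ker g) :
    Integrable fun x => f x * (starRingEnd ℂ) (g x) := by
  obtain ⟨C, hC⟩ := hg.bdd
  exact hf.int.mul_bdd (Complex.continuous_conj.comp hg.cont).aestronglyMeasurable
    (Eventually.of_forall fun x => (Complex.norm_conj _).trans_le (hC x))

theorem ao_lint {f : V → ℂ} (hf : Ker f) :
    ∫⁻ x, ‖f x‖ₑ ^ 2 = ENNReal.ofReal (∫ x, ‖f x‖ ^ 2) := by
  rw [ofReal_integral_eq_lintegral_ofReal (ao_sq hf) (Eventually.of_forall fun x => sq_nonneg _)]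
  refine lintegral_congr fun x => ?_
  rw [ENNReal.ofReal_pow (norm_nonneg _), ofReal_norm]

theorem ao_pair {f g : V → ℂ} (hf : Ker f) (hg : Ker g) :
    (∫ x, f x * (starRingEnd ℂ) (g x)).re ≤ ((∫ x, ‖f x‖ ^ 2) + ∫ x, ‖g x‖ ^ 2) / 2 := by
  rw [← integral_add (ao_sq hf) (ao_sq hg), ← integral_div]
  refine (Complex.re_le_norm _).trans (norm_integral_le_of_norm_le
    (((ao_sq hf).add (ao_sq hg)).div_const 2) (Eventually.of_forall fun x => ?_))
  rw [norm_mul, Complex.norm_conj]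
  nlinarith [sq_nonneg (‖f x‖ - ‖g x‖)]

open Classical in
theorem ao_abs {ι : Type} (t : Finset ι) {u : ι → V → ℂ} (hu : ∀ P ∈ t, Ker (u P))
    {N : ι → ι → Prop} (hN : ∀ P Q, N P Q → N Q P) {M : ℕ}
    (hM : ∀ P, (t.filter (N P)).card ≤ M)
    (h : ∀ P ∈ t, ∀ Q ∈ t, ¬N P Q → ∫ x, u P x * (starRingEnd ℂ) (u Q x) = 0) :
    ∫ x, ‖∑ P ∈ t, u P x‖ ^ 2 ≤ M * ∑ P ∈ t, ∫ x, ‖u P x‖ ^ 2 := by
  have h1 : ((∫ x, ‖∑ P ∈ t, u P x‖ ^ 2 : ℝ) : ℂ) =
      ∑ P ∈ t, ∑ Q ∈ t, ∫ x, u P x * (starRingEnd ℂ) (u Q x) := by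
    rw [← integral_complex_ofReal, Finset.sum_congr rfl fun P hP =>
      (integral_finsetSum t fun Q hQ => ao_conj (hu P hP) (hu Q hQ)).symm,
      ← integral_finsetSum t fun P hP =>
        integrable_finsetSum t fun Q hQ => ao_conj (hu P hP) (hu Q hQ)]
    refine integral_congr_ae (Eventually.of_forall fun x => ?_)
    simp only
    rw [← Finset.sum_mul_sum, ← map_sum, Complex.mul_conj, Complex.normSq_eq_norm_sq]
  have h2 := congrArg Complex.re h1
  rw [Complex.ofReal_re, Complex.re_sum] at h2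
  set I : ι → ℝ := fun P => ∫ x, ‖u P x‖ ^ 2 with hI
  have h0 : ∀ P, 0 ≤ I P := fun P => integral_nonneg fun x => sq_nonneg _
  have h3 : ∑ P ∈ t, ∑ Q ∈ t, (if N P Q then I P else 0) ≤ M * ∑ P ∈ t, I P := by
    rw [Finset.mul_sum]
    refine Finset.sum_le_sum fun P _ => ?_
    rw [← Finset.sum_filter, Finset.sum_const, nsmul_eq_mul]
    exact mul_le_mul_of_nonneg_right (Nat.cast_le.2 (hM P)) (h0 P)
  have h4 : ∑ P ∈ t, ∑ Q ∈ t, (if N P Q then I Q else 0) =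
      ∑ P ∈ t, ∑ Q ∈ t, (if N P Q then I P else 0) := by
    rw [Finset.sum_comm]
    exact Finset.sum_congr rfl fun P _ => Finset.sum_congr rfl fun Q _ =>
      if_congr ⟨hN Q P, hN P Q⟩ rfl rfl
  have h5 : ∑ P ∈ t, (∑ Q ∈ t, ∫ x, u P x * (starRingEnd ℂ) (u Q x)).re ≤
      ∑ P ∈ t, ∑ Q ∈ t, ((if N P Q then I P else 0) + (if N P Q then I Q else 0)) / 2 := by
    refine Finset.sum_le_sum fun P hP => ?_
    rw [Complex.re_sum]
    refine Finset.sum_le_sum fun Q hQ => ?_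
    split_ifs with hPQ
    · exact ao_pair (hu P hP) (hu Q hQ)
    · rw [h P hP Q hQ hPQ]
      simp
  simp only [← Finset.sum_div, Finset.sum_add_distrib] at h5
  linarith

open Classical in
theorem ao_card (t : Finset (ℤ × ℤ)) (P : ℤ × ℤ) :
    (t.filter fun Q => Near P.1 P.2 Q.1 Q.2).card ≤ 450 := by
  have h1 : (t.filter fun Q => Near P.1 P.2 Q.1 Q.2) ⊆
      Finset.Icc (P.1 - 7) (P.1 + 7) ×ˢ Finset.Icc (P.2 - 7) (P.2 + 7) ∪
        Finset.Icc (P.2 - 7) (P.2 + 7) ×ˢ Finset.Icc (P.1 - 7) (P.1 + 7) := by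
    intro Q hQ
    have h2 := (Finset.mem_filter.1 hQ).2
    simp only [Near, abs_le] at h2
    simp only [Finset.mem_union, Finset.mem_product, Finset.mem_Icc]
    omega
  refine (Finset.card_le_card h1).trans ((Finset.card_union_le _ _).trans ?_)
  have h2 : ∀ a : ℤ, (Finset.Icc (a - 7) (a + 7)).card = 15 := fun a => by
    rw [Int.card_Icc]
    omega
  rw [Finset.card_product, Finset.card_product, h2, h2]

theorem almost_orth (s : Finset ℤ) {H : ℤ → V → ℂ} (hH : ∀ a ∈ s, Ker (H a))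
    (h : ∀ a ∈ s, ∀ b ∈ s, ∀ c ∈ s, ∀ d ∈ s, ¬Near a b c d →
      ∫ x, H a x * H b x * (starRingEnd ℂ) (H c x * H d x) = 0) :
    Np volume 4 (fun x => ∑ a ∈ s, H a x) ≤
      450 * ∑ a ∈ s, ∑ b ∈ s, ∫⁻ x, ‖H a x‖ₑ ^ 2 * ‖H b x‖ₑ ^ 2 := by
  have hu : ∀ P ∈ s ×ˢ s, Ker fun x => H P.1 x * H P.2 x := fun P hP =>
    (hH _ (Finset.mem_product.1 hP).1).mul (hH _ (Finset.mem_product.1 hP).2)
  have h1 := ao_abs (s ×ˢ s) hu (N := fun P Q => Near P.1 P.2 Q.1 Q.2) (fun _ _ => Near.symm)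
    (ao_card _) fun P hP Q hQ => h _ (Finset.mem_product.1 hP).1 _ (Finset.mem_product.1 hP).2 _
      (Finset.mem_product.1 hQ).1 _ (Finset.mem_product.1 hQ).2
  have h2 : Np volume 4 (fun x => ∑ a ∈ s, H a x) =
      ∫⁻ x, ‖∑ P ∈ s ×ˢ s, H P.1 x * H P.2 x‖ₑ ^ 2 := by
    rw [Np_four]
    refine lintegral_congr fun x => ?_
    rw [Finset.sum_product' s s fun a b => H a x * H b x, ← Finset.sum_mul_sum, enorm_mul]
    ring
  rw [h2, ao_lint (Ker.sum _ hu)]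
  refine (ENNReal.ofReal_le_ofReal h1).trans_eq ?_
  rw [ENNReal.ofReal_mul (Nat.cast_nonneg _), ENNReal.ofReal_natCast,
    ENNReal.ofReal_sum_of_nonneg fun P _ => integral_nonneg fun x => sq_nonneg _,
    ← Finset.sum_product' s s fun a b => ∫⁻ x, ‖H a x‖ₑ ^ 2 * ‖H b x‖ₑ ^ 2]
  congr 1
  refine Finset.sum_congr rfl fun P hP => ?_
  rw [← ao_lint (hu P hP)]
  refine lintegral_congr fun x => ?_
  rw [enorm_mul, mul_pow]

end Vale.Agent.P117
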