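import Vale.Agent.P117.BdA

/-!
Duality. `h = cv K f` is continuous, bounded, equivariant. For `N : ℕ` let `g = indicator (closedBall 0 N) (conj h * ‖h‖ ^ (p - 2))` (a function of class `-k`, `‖g‖ = ‖h‖ ^ (p - 1)` on the ball).
`J = ∫_{ball} ‖h‖ ^ p = ∫ h * g = ∫ f * cv K g` (Fubini, `K` even) `≤ (Np p f) ^ (1/p) * (Np q (cv K g)) ^ (1/q) ≤ (Np p f) ^ (1/p) * A * J ^ (1/q)`
(`ENNReal.lintegral_mul_le_Lp_mul_Lq`), and `J` is finite. Then `Np_fatou` for `indicator (closedBall 0 N) h`.
-/

open MeasureTheory Set Real Filter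
open scoped FourierTransform RealInnerProductSpace ContDiff ENNReal Topology

noncomputable section

namespace Vale.Agent.P117

/-- the dual function -/
def dual_g (p : ℝ) (z : ℂ) : ℂ := (starRingEnd ℂ) z * ((‖z‖ ^ (p - 2) : ℝ) : ℂ)

theorem dual_mul {p : ℝ} (hp : 1 < p) (z : ℂ) : z * dual_g p z = ((‖z‖ ^ p : ℝ) : ℂ) := by
  by_cases h : z = 0
  · simp [h, zero_rpow (by linarith : p ≠ 0)]
  · rw [dual_g, ← mul_assoc, Complex.mul_conj', ← Complex.ofReal_pow, ← Complex.ofReal_mul,
      ← rpow_two, ← rpow_add (norm_pos_iff.2 h), add_sub_cancel]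

theorem dual_norm {p : ℝ} (hp : 1 < p) (z : ℂ) : ‖dual_g p z‖ = ‖z‖ ^ (p - 1) := by
  by_cases h : z = 0
  · simp [h, dual_g, zero_rpow (by linarith : p - 1 ≠ 0)]
  · have h0 := norm_pos_iff.2 h
    rw [dual_g, norm_mul, Complex.norm_conj, Complex.norm_real,
      Real.norm_of_nonneg (rpow_nonneg h0.le _), show p - 1 = 1 + (p - 2) by ring, rpow_add h0,
      rpow_one]

theorem dual_meas (p : ℝ) : Measurable (dual_g p) :=
  Complex.continuous_conj.measurable.mul
    (Complex.measurable_ofReal.comp (measurable_norm.pow_const _))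

theorem dual_cls {p : ℝ} (hp : 1 < p) {k : ℤ} {h : E3 → ℂ} (hh : Cls k h) :
    Cls (-k) fun x => dual_g p (h x) := by
  obtain ⟨C, hC⟩ := hh.bdd
  obtain ⟨R, hR⟩ := hh.supp
  refine ⟨(dual_meas p).comp hh.meas, ⟨C ^ (p - 1), fun x => ?_⟩, ⟨R, fun x hx => ?_⟩,
    fun θ x => ?_⟩
  · rw [dual_norm hp]
    exact rpow_le_rpow (norm_nonneg _) (hC x) (by linarith)
  · rw [hR x hx, dual_g, map_zero, zero_mul]
  · simp only [dual_g, hh.eqv.norm θ x]
    rw [hh.eqv θ x, map_mul, ← Complex.exp_conj, mul_assoc]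
    simp

theorem dual_cut {k : ℤ} {K f : E3 → ℂ} (hK : Ker K) (hr : ∀ θ x, K (rot θ x) = K x)
    (hf : Cls k f) (R : ℝ) : Cls k ((Metric.closedBall 0 R).indicator (cv K f)) := by
  have h1 := cv_ker hK hf.nice
  obtain ⟨C, hC⟩ := h1.bdd
  refine ⟨h1.cont.measurable.indicator measurableSet_closedBall,
    ⟨C, fun x => (norm_indicator_le_norm_self _ _).trans (hC x)⟩,
    ⟨R, fun x hx => indicator_of_notMem (by simpa using hx) _⟩, fun θ x => ?_⟩
  by_cases hx : x ∈ Metric.closedBall (0 : E3) R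
  · rw [indicator_of_mem hx, indicator_of_mem (by simpa [norm_rot] using hx)]
    exact hf.eqv.cv hr θ x
  · rw [indicator_of_notMem hx, indicator_of_notMem (by simpa [norm_rot] using hx), mul_zero]

theorem dual_swap {K f g : E3 → ℂ} (hK : Ker K) (he : ∀ x, K (-x) = K x) (hf : Integrable f)
    (hg : Integrable g) : ∫ x, cv K f x * g x = ∫ y, f y * cv K g y := by
  obtain ⟨C, hC⟩ := hK.bdd
  have h1 : Integrable (Function.uncurry fun x y : E3 => K (x - y) * (g x * f y))
      (volume.prod volume) :=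
    (hg.mul_prod hf).bdd_mul (c := C)
      (hK.cont.comp (continuous_fst.sub continuous_snd)).aestronglyMeasurable
      (Eventually.of_forall fun w => hC _)
  have e1 : ∀ x, cv K f x * g x = ∫ y, K (x - y) * (g x * f y) := fun x => by
    rw [cv, ← integral_mul_const]
    exact integral_congr_ae (Eventually.of_forall fun y => by ring)
  have e2 : ∀ y, f y * cv K g y = ∫ x, K (x - y) * (g x * f y) := fun y => by
    rw [cv, ← integral_const_mul]
    refine integral_congr_ae (Eventually.of_forall fun x => ?_)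
    simp only
    rw [← he (y - x), neg_sub]
    ring
  simp only [e1, e2]
  exact integral_integral_swap h1

theorem dual_div {p q : ℝ} (hpq : p.HolderConjugate q) {J F a : ℝ≥0∞} (hJ : J ≠ ⊤)
    (h : J ≤ F ^ (1 / p) * (a ^ q * J) ^ (1 / q)) : J ≤ a ^ p * F := by
  by_cases h0 : J = 0
  · rw [h0]
    exact bot_le
  have hp := hpq.pos
  have hq := hpq.symm.pos
  have e : J = J ^ (1 / p) * J ^ (1 / q) := by
    rw [← ENNReal.rpow_add_of_nonneg _ _ (by positivity) (by positivity), one_div, one_div,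
      hpq.inv_add_inv_eq_one, ENNReal.rpow_one]
  rw [ENNReal.mul_rpow_of_nonneg _ _ (by positivity), ← ENNReal.rpow_mul,
    mul_one_div_cancel hq.ne', ENNReal.rpow_one, ← mul_assoc] at h
  have h1 := (ENNReal.mul_le_mul_iff_left (ENNReal.rpow_pos (pos_iff_ne_zero.2 h0) hJ).ne'
    (ENNReal.rpow_ne_top_of_nonneg (by positivity) hJ)).1 (e.symm.trans_le h)
  have h2 := ENNReal.rpow_le_rpow h1 hp.le
  rwa [ENNReal.mul_rpow_of_nonneg _ _ hp.le, ← ENNReal.rpow_mul, ← ENNReal.rpow_mul,
    one_div_mul_cancel hp.ne', ENNReal.rpow_one, ENNReal.rpow_one, mul_comm] at h2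

theorem Bd.dual {p q A : ℝ} (hpq : p.HolderConjugate q) {k : ℤ} {K : E3 → ℂ} (hK : Ker K)
    (he : ∀ x, K (-x) = K x) (hr : ∀ θ x, K (rot θ x) = K x) (h : Bd q (-k) A K) : Bd p k A K := by
  intro f hf
  have hp := hpq.lt
  have hp0 := hpq.pos
  have hq0 := hpq.symm.pos
  refine Np_fatou hp0.le (F := fun n : ℕ => (Metric.closedBall 0 n).indicator (cv K f))
    (fun n => (dual_cut hK hr hf n).meas) (fun x => ?_) (Eventually.of_forall fun n => ?_)
  · refine tendsto_const_nhds.congr' ?_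
    filter_upwards [eventually_ge_atTop ⌈‖x‖⌉₊] with n hn
    exact (indicator_of_mem (mem_closedBall_zero_iff.2 (Nat.ceil_le.1 hn)) _).symm
  have c1 := dual_cut hK hr hf n
  generalize hu : (Metric.closedBall (0 : E3) n).indicator (cv K f) = u at c1
  have c2 := dual_cls hp c1
  have e1 : ∀ x, cv K f x * dual_g p (u x) = ((‖u x‖ ^ p : ℝ) : ℂ) := fun x => by
    rw [← dual_mul hp, ← hu]
    by_cases hx : x ∈ Metric.closedBall (0 : E3) n
    · rw [indicator_of_mem hx]
    · rw [indicator_of_notMem hx, dual_g, map_zero, zero_mul, mul_zero, mul_zero]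
  have i1 : Integrable fun x => ‖u x‖ ^ p := by
    obtain ⟨C, hC⟩ := (cv_ker hK hf.nice).bdd
    have := (c2.nice.int.bdd_mul (c := C) (cv_ker hK hf.nice).cont.aestronglyMeasurable
      (Eventually.of_forall hC)).re
    simpa only [e1, RCLike.re_to_complex, Complex.ofReal_re] using this
  have e2 : Np volume p u = ENNReal.ofReal (∫ x, ‖u x‖ ^ p) := by
    rw [ofReal_integral_eq_lintegral_ofReal i1
      (Eventually.of_forall fun x => rpow_nonneg (norm_nonneg _) _)]
    simp only [Np, marc_enorm _ hp0.le]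
  have e3 : Np volume q (fun x => dual_g p (u x)) = Np volume p u := by
    simp only [Np, marc_enorm _ hp0.le, marc_enorm _ hq0.le, dual_norm hp,
      ← rpow_mul (norm_nonneg _), hpq.sub_one_mul_conj]
  have e4 := dual_swap hK he hf.nice.int c2.nice.int
  simp only [e1, integral_complex_ofReal] at e4
  refine dual_div hpq (by rw [e2]; exact ENNReal.ofReal_ne_top) ?_
  have h1 := ENNReal.lintegral_mul_le_Lp_mul_Lq volume hpq hf.meas.enorm.aemeasurable
    (cv_ker hK c2.nice).cont.measurable.enorm.aemeasurable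
  have h2 := h _ c2
  rw [e3] at h2
  calc Np volume p u = ‖∫ y, f y * cv K (fun x => dual_g p (u x)) y‖ₑ := by
        rw [e2, ← e4, ← ofReal_norm, Complex.norm_real, Real.norm_of_nonneg
          (integral_nonneg fun x => rpow_nonneg (norm_nonneg _) _)]
    _ ≤ _ := enorm_integral_le_lintegral_enorm _
    _ ≤ Np volume p f ^ (1 / p) * Np volume q (cv K fun x => dual_g p (u x)) ^ (1 / q) := by
        simp only [enorm_mul]
        exact h1
    _ ≤ _ := mul_le_mul_right (ENNReal.rpow_le_rpow h2 (by positivity)) _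

end Vale.Agent.P117
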