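import Vale.Agent.P117.L1
import Vale.Agent.P117.CutB

/-!
The two `L¹` bounds. Both multipliers are `g ∘ F` with `F ξ = ((1 - ‖ξ‖²) / ε, (ξ 0 ^ 2 + ξ 1 ^ 2) / ε²)` (only the first component for `ann`) and `g (u, v) = φ u * bt v` smooth;
`norm_iteratedFDeriv_comp_le` with `n = 2`, the derivatives of `g` bounded on a compact set that contains `F S`, and `‖D F‖ ≤ c / ε`, `‖D² F‖ ≤ (c / ε)²` on `S`.
Supports: `S = {1 - 4 ε ≤ ‖ξ‖² ≤ 1}` has volume `≤ c ε` (`Measure.addHaar_ball`, `measure_diff`; or contained in `closedBall 0 1 \ ball 0 (1 - 4 ε)`), take `W = c / ε`;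
`S ∩ {ξ 0 ^ 2 + ξ 1 ^ 2 ≤ 4 ε²}` lies in two balls of radius `10 ε` around `pt 0 0 1` and `pt 0 0 (-1)`.
-/

open MeasureTheory Set Real Filter
open scoped FourierTransform RealInnerProductSpace ContDiff ENNReal Topology

noncomputable section

namespace Vale.Agent.P117

variable {φ : ℝ → ℂ}

theorem l1b_bdd {E F : Type} [NormedAddCommGroup E] [NormedSpace ℝ E] [ProperSpace E]
    [NormedAddCommGroup F] [NormedSpace ℝ F] {q : E → F} (hq : ContDiff ℝ ∞ q) (R : ℝ) :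
    ∃ c : ℝ, 1 ≤ c ∧ ∀ i, i ≤ 2 → ∀ ξ, ‖ξ‖ ≤ R → ‖iteratedFDeriv ℝ i q ξ‖ ≤ c := by
  have h1 : ∀ i : ℕ, ∃ c : ℝ, ∀ ξ ∈ Metric.closedBall (0 : E) R, ‖iteratedFDeriv ℝ i q ξ‖ ≤ c :=
    fun i => (isCompact_closedBall 0 R).exists_bound_of_continuousOn
      (hq.continuous_iteratedFDeriv (by exact_mod_cast le_top)).continuousOn
  choose c hc using h1
  refine ⟨max 1 (max (c 0) (max (c 1) (c 2))), le_max_left _ _, fun i hi ξ hξ => ?_⟩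
  refine (hc i ξ (mem_closedBall_zero_iff.2 hξ)).trans (le_max_of_le_right ?_)
  interval_cases i
  · exact le_max_left _ _
  · exact le_max_of_le_right (le_max_left _ _)
  · exact le_max_of_le_right (le_max_right _ _)

theorem l1b_comp {F : Type} [NormedAddCommGroup F] [NormedSpace ℝ F] [ProperSpace F]
    {g : F → ℂ} (hg : ContDiff ℝ ∞ g) {q : E3 → F} (hq : ContDiff ℝ ∞ q) :
    ∃ A : ℝ, 0 < A ∧ ∀ ε : ℝ, 0 < ε → ε ≤ 1 → ∀ ξ, ‖ξ‖ ≤ 1 → ‖ε⁻¹ • q ξ‖ ≤ 4 →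
      ‖iteratedFDeriv ℝ 2 (fun ξ => g (ε⁻¹ • q ξ)) ξ‖ ≤ A / ε ^ 2 := by
  obtain ⟨B, hB1, hB⟩ := l1b_bdd hg 4
  obtain ⟨c, hc1, hc⟩ := l1b_bdd hq 1
  refine ⟨2 * B * c ^ 2, by positivity, fun ε hε hε1 ξ hξ h4 => ?_⟩
  have h1 : 1 ≤ c / ε := (one_le_div hε).2 (hε1.trans hc1)
  have h2 := norm_iteratedFDeriv_comp_le (n := 2) (f := fun ξ => ε⁻¹ • q ξ) hg (hq.const_smul ε⁻¹)
    (WithTop.coe_le_coe.2 (le_top (a := ((2 : ℕ) : ℕ∞)))) ξ (C := B) (D := c / ε) (fun i hi => hB i hi _ h4) fun i h1i hi => by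
      rw [iteratedFDeriv_const_smul_apply' (hq.contDiffAt.of_le (by exact_mod_cast le_top)),
        norm_smul, norm_inv, Real.norm_of_nonneg hε.le, ← div_eq_inv_mul]
      exact (div_le_div_of_nonneg_right (hc i hi ξ hξ) hε.le).trans
        (le_self_pow₀ h1 (by omega))
  refine le_trans h2 (le_of_eq ?_)
  rw [div_pow]
  norm_num [Nat.factorial]
  ring

theorem l1b_closed (ε : ℝ) : IsClosed {ξ : E3 | 1 - 4 * ε ≤ ‖ξ‖ ^ 2 ∧ ‖ξ‖ ^ 2 ≤ 1} :=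
  (isClosed_le continuous_const (continuous_norm.pow 2)).inter
    (isClosed_le (continuous_norm.pow 2) continuous_const)

theorem l1b_vol1 {ε : ℝ} (hε : 0 < ε) (hε1 : ε ≤ 1 / 400) :
    volume {ξ : E3 | 1 - 4 * ε ≤ ‖ξ‖ ^ 2 ∧ ‖ξ‖ ^ 2 ≤ 1} ≤ ENNReal.ofReal ((8 / ε) ^ 2 * ε ^ 3) := by
  have hr : 0 ≤ 1 - 4 * ε := by linarith
  have hsub : {ξ : E3 | 1 - 4 * ε ≤ ‖ξ‖ ^ 2 ∧ ‖ξ‖ ^ 2 ≤ 1} ⊆
      Metric.closedBall 0 1 \ Metric.ball 0 (1 - 4 * ε) := by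
    rintro ξ ⟨h1, h2⟩
    have h3 : ‖ξ‖ ≤ 1 := by nlinarith [norm_nonneg ξ]
    refine ⟨mem_closedBall_zero_iff.2 h3, fun h4 => ?_⟩
    have h5 := mem_ball_zero_iff.1 h4
    nlinarith [norm_nonneg ξ]
  refine (measure_mono hsub).trans ?_
  rw [measure_sdiff ((Metric.ball_subset_ball (by linarith)).trans Metric.ball_subset_closedBall)
    Metric.isOpen_ball.measurableSet.nullMeasurableSet measure_ball_lt_top.ne,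
    EuclideanSpace.volume_ball_fin_three, EuclideanSpace.volume_closedBall_fin_three,
    ← ENNReal.ofReal_pow hr, ← ENNReal.ofReal_pow zero_le_one,
    ← ENNReal.ofReal_mul (by positivity), ← ENNReal.ofReal_mul (by positivity),
    ← ENNReal.ofReal_sub _ (by positivity)]
  refine ENNReal.ofReal_le_ofReal ?_
  have h1 : (8 / ε) ^ 2 * ε ^ 3 = 64 * ε := by
    field_simp
    ring
  have h2 : 1 ^ 3 - (1 - 4 * ε) ^ 3 ≤ 12 * ε := by nlinarith [mul_nonneg (sq_nonneg ε) hr]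
  rw [h1, ← sub_mul]
  calc (1 ^ 3 - (1 - 4 * ε) ^ 3) * (π * 4 / 3) ≤ 12 * ε * (4 * 4 / 3) := by
        refine (mul_le_mul_of_nonneg_right h2 (by positivity)).trans
          (mul_le_mul_of_nonneg_left ?_ (by positivity))
        linarith [pi_le_four]
    _ = 64 * ε := by ring

theorem l1b_near {ε : ℝ} (hε : 0 < ε) (hε1 : ε ≤ 1 / 400) {ξ : E3} {s : ℝ} (hs : s ^ 2 = 1)
    (h1 : 1 - 4 * ε ≤ ‖ξ‖ ^ 2) (h2 : ‖ξ‖ ^ 2 ≤ 1) (h3 : ξ 0 ^ 2 + ξ 1 ^ 2 ≤ 4 * ε ^ 2)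
    (h4 : 0 ≤ s * ξ 2) : ξ ∈ Metric.closedBall (pt 0 0 s) (6 * ε) := by
  rw [norm_sq_e3] at h1 h2
  rw [mem_closedBall_iff_norm]
  refine (sq_le_sq₀ (norm_nonneg _) (by positivity)).1 ?_
  rw [norm_sq_e3]
  simp only [PiLp.sub_apply, pt_zero, pt_one, pt_two, sub_zero]
  obtain ⟨y, hy⟩ : ∃ y, y = s * ξ 2 := ⟨_, rfl⟩
  have e1 : y ^ 2 = ξ 2 ^ 2 := by rw [hy, mul_pow, hs, one_mul]
  have e2 : (ξ 2 - s) ^ 2 = (1 - y) ^ 2 := by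
    rw [sub_sq, sub_sq, e1, hs, hy]
    ring
  rw [← hy] at h4
  have e3 : y ≤ 1 := by nlinarith [sq_nonneg (ξ 0), sq_nonneg (ξ 1)]
  have e4 : 1 - y ≤ 5 * ε := by nlinarith [mul_nonneg h4 (sub_nonneg.2 e3)]
  have e5 : (1 - y) ^ 2 ≤ (5 * ε) ^ 2 := pow_le_pow_left₀ (sub_nonneg.2 e3) e4 2
  rw [e2]
  nlinarith [sq_nonneg ε]

theorem l1b_vol2 {ε : ℝ} (hε : 0 < ε) (hε1 : ε ≤ 1 / 400) :
    volume ({ξ : E3 | 1 - 4 * ε ≤ ‖ξ‖ ^ 2 ∧ ‖ξ‖ ^ 2 ≤ 1} ∩ {ξ | ξ 0 ^ 2 + ξ 1 ^ 2 ≤ 4 * ε ^ 2}) ≤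
      ENNReal.ofReal (48 ^ 2 * ε ^ 3) := by
  have hsub : {ξ : E3 | 1 - 4 * ε ≤ ‖ξ‖ ^ 2 ∧ ‖ξ‖ ^ 2 ≤ 1} ∩ {ξ | ξ 0 ^ 2 + ξ 1 ^ 2 ≤ 4 * ε ^ 2} ⊆
      Metric.closedBall (pt 0 0 1) (6 * ε) ∪ Metric.closedBall (pt 0 0 (-1)) (6 * ε) := by
    rintro ξ ⟨⟨h1, h2⟩, h3⟩
    rcases le_total 0 (ξ 2) with h | h
    · exact Or.inl (l1b_near hε hε1 (by norm_num) h1 h2 h3 (by linarith))
    · exact Or.inr (l1b_near hε hε1 (by norm_num) h1 h2 h3 (by linarith))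
  refine ((measure_mono hsub).trans (measure_union_le _ _)).trans ?_
  rw [EuclideanSpace.volume_closedBall_fin_three, EuclideanSpace.volume_closedBall_fin_three,
    ← ENNReal.ofReal_pow (by positivity), ← ENNReal.ofReal_mul (by positivity),
    ← ENNReal.ofReal_add (by positivity) (by positivity)]
  refine ENNReal.ofReal_le_ofReal ?_
  nlinarith [mul_nonneg (pow_pos hε 3).le (sub_nonneg.2 pi_le_four)]

theorem l1b_u {ε : ℝ} (hε : 0 < ε) {ξ : E3} (h1 : 1 - 4 * ε ≤ ‖ξ‖ ^ 2) (h2 : ‖ξ‖ ^ 2 ≤ 1) :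
    ‖ε⁻¹ • (1 - ‖ξ‖ ^ 2)‖ ≤ 4 := by
  rw [smul_eq_mul, Real.norm_of_nonneg (mul_nonneg (inv_nonneg.2 hε.le) (sub_nonneg.2 h2)),
    inv_mul_le_iff₀ hε]
  linarith

theorem l1b_v {ε a : ℝ} (hε : 0 < ε) (h : a ^ 2 ≤ 4 * ε ^ 2) : ‖ε⁻¹ • a‖ ≤ 4 := by
  rw [norm_smul, norm_inv, Real.norm_of_nonneg hε.le, inv_mul_le_iff₀ hε, Real.norm_eq_abs]
  refine abs_le_of_sq_le_sq' ?_ (by positivity) |> abs_le.2
  nlinarith [sq_nonneg ε]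

theorem l1_ann (hφ : Prof φ) : ∃ C : ℝ, 0 < C ∧ ∀ ε : ℝ, 0 < ε → ε ≤ 1 / 400 →
    ∫ x, ‖𝓕⁻ (ann φ ε : E3 → ℂ) x‖ ≤ C / ε := by
  obtain ⟨C, hC, hb⟩ := l1_bound
  obtain ⟨A, hA, hA1, -⟩ := hφ.bdd
  obtain ⟨B, hB, hB1⟩ := l1b_comp hφ.smooth (q := fun ξ : E3 => 1 - ‖ξ‖ ^ 2)
    (contDiff_const.sub (contDiff_norm_sq ℝ))
  refine ⟨C * (A + B) * 8, by positivity, fun ε hε hε1 => ?_⟩
  have e : (ann φ ε : E3 → ℂ) = fun ξ => φ (ε⁻¹ • (1 - ‖ξ‖ ^ 2)) := funext fun ξ => by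
    rw [ann, smul_eq_mul, div_eq_inv_mul]
  rw [mul_div_assoc]
  refine hb _ ε (A + B) (8 / ε) _ (ann_sm hφ hε) hε (by positivity) (by positivity) (l1b_closed ε)
    (fun ξ hξ => by_contra fun h => hξ (ann_ne hφ hε h)) (l1b_vol1 hε hε1)
    (fun ξ => (hA1 _).trans (by linarith)) fun ξ hξ => ?_
  rw [e]
  refine (hB1 ε hε (by linarith) ξ (by nlinarith [norm_nonneg ξ, hξ.2])
    (l1b_u hε hξ.1 hξ.2)).trans ?_
  exact div_le_div_of_nonneg_right (by linarith) (by positivity)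

theorem l1_pol (hφ : Prof φ) : ∃ C : ℝ, 0 < C ∧ ∀ ε : ℝ, 0 < ε → ε ≤ 1 / 400 →
    ∫ x, ‖𝓕⁻ (pol φ ε) x‖ ≤ C := by
  obtain ⟨C, hC, hb⟩ := l1_bound
  obtain ⟨A, hA, hA1, -⟩ := hφ.bdd
  have hg : ContDiff ℝ ∞ fun v : ℝ × ℝ × ℝ => φ v.1 * (bt (v.2.1 ^ 2 + v.2.2 ^ 2) : ℝ) :=
    (hφ.smooth.comp contDiff_fst).mul (Complex.ofRealCLM.contDiff.comp
      (bt_smooth.comp (by fun_prop)))
  obtain ⟨B, hB, hB1⟩ := l1b_comp hg (q := fun ξ : E3 => (1 - ‖ξ‖ ^ 2, ξ 0, ξ 1))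
    ((contDiff_const.sub (contDiff_norm_sq ℝ)).prodMk (by fun_prop))
  refine ⟨C * (A + B) * 48, by positivity, fun ε hε hε1 => ?_⟩
  have e : pol φ ε = fun ξ => (fun v : ℝ × ℝ × ℝ => φ v.1 * (bt (v.2.1 ^ 2 + v.2.2 ^ 2) : ℝ))
      (ε⁻¹ • (1 - ‖ξ‖ ^ 2, ξ 0, ξ 1)) := funext fun ξ => by
    have h1 : (ξ 0 ^ 2 + ξ 1 ^ 2) / ε ^ 2 = (ε⁻¹ * ξ 0) ^ 2 + (ε⁻¹ * ξ 1) ^ 2 := by field_simp
    rw [pol, ann, h1, div_eq_inv_mul]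
    rfl
  refine hb _ ε (A + B) 48 _ (pol_sm hφ hε) hε (by positivity) (by positivity)
    ((l1b_closed ε).inter (isClosed_le (by fun_prop) continuous_const))
    (fun ξ hξ => by_contra fun h => hξ ⟨ann_ne hφ hε (left_ne_zero_of_mul h), ?_⟩)
    (l1b_vol2 hε hε1) (fun ξ => ?_) fun ξ hξ => ?_
  · by_contra h1
    refine right_ne_zero_of_mul h ?_
    rw [bt_zero ((le_div_iff₀ (by positivity)).2 (not_le.1 h1).le), Complex.ofReal_zero]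
  · rw [pol, norm_mul, Complex.norm_real, Real.norm_of_nonneg (bt_nonneg _)]
    exact (mul_le_of_le_one_right (norm_nonneg _) (bt_le_one _)).trans
      ((hA1 _).trans (by linarith))
  · have h3 : ξ 0 ^ 2 + ξ 1 ^ 2 ≤ 4 * ε ^ 2 := hξ.2
    rw [e]
    refine (hB1 ε hε (by linarith) ξ (by nlinarith [norm_nonneg ξ, hξ.1.2]) ?_).trans
      (div_le_div_of_nonneg_right (by linarith) (by positivity))
    exact norm_prod_le_iff.2 ⟨l1b_u hε hξ.1.1 hξ.1.2, norm_prod_le_iff.2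
      ⟨l1b_v hε (by linarith [sq_nonneg (ξ 1)]), l1b_v hε (by linarith [sq_nonneg (ξ 0)])⟩⟩

end Vale.Agent.P117
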