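import Vale.Agent.P117.Piece
import Vale.Agent.P117.L1b
import Vale.Agent.P117.Dual

/-!
All exponents. `ann23`: `ann_split`, `inv_add`, `inv_sum`, `Bd.sum`, `piece` with `l = (2 ^ n)⁻¹ ≤ 1/20`, `l1_pol`, `Bd.of_L1`; `2 n ≤ C (4 ^ n) ^ (σ / 2)`.
`ann_ge`: for `3 ≤ p` choose `2 ≤ q < 3` with `1 - q / p < σ`, then `Bd.interp` with `l1_ann`. `ann_full`: `p = 1` by `l1_ann`; `1 < p < 2` by `Bd.dual` with the
conjugate exponent (`inv_even`, `inv_rot`, `ann_rot`).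
-/

open MeasureTheory Set Real Filter
open scoped FourierTransform RealInnerProductSpace ContDiff ENNReal Topology

noncomputable section

namespace Vale.Agent.P117

variable {φ : ℝ → ℂ} {p σ : ℝ}

theorem all_eps {n : ℕ} (hn : 5 ≤ n) : ((4 : ℝ) ^ n)⁻¹ ≤ 1 / 400 := by
  have h : (4 : ℝ) ^ 5 ≤ 4 ^ n := pow_le_pow_right₀ (by norm_num) hn
  rw [one_div]
  exact inv_anti₀ (by norm_num) (by linarith)

theorem all_k (k : ℤ) : 1 ≤ (1 + |(k : ℝ)|) ^ 2 :=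
  one_le_pow₀ (le_add_of_nonneg_right (abs_nonneg _))

theorem all_n (hσ : 0 < σ) (n : ℕ) : (n : ℝ) ≤ (σ * log 2)⁻¹ * ((2 : ℝ) ^ n) ^ σ := by
  have h := log_pos (one_lt_two (α := ℝ))
  rw [le_inv_mul_iff₀ (by positivity), rpow_def_of_pos (by positivity), log_pow]
  linarith [add_one_le_exp (n * log 2 * σ)]

theorem ann23 (hφ : Prof φ) (h2 : 2 ≤ p) (h3 : p < 3) (hσ : 0 < σ) : ∃ C : ℝ, 0 < C ∧
    ∀ n : ℕ, 5 ≤ n → ∀ k : ℤ,
      Bd p k (C * (1 + |(k : ℝ)|) ^ 2 * (4 ^ n) ^ σ) (𝓕⁻ (ann φ (4 ^ n)⁻¹ : E3 → ℂ)) := by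
  obtain ⟨C, hC, hp⟩ := piece h2 h3 hσ hφ
  obtain ⟨D, hD, hl⟩ := l1_pol hφ
  have hlog := log_pos (one_lt_two (α := ℝ))
  refine ⟨2 * (σ * log 2)⁻¹ * C + D, by positivity, fun n hn k => ?_⟩
  have hε : (0 : ℝ) < (4 ^ n)⁻¹ := by positivity
  have e0 : (4 : ℝ) ^ n = 2 ^ n * 2 ^ n := by
    rw [← mul_pow]
    norm_num
  have e1 : (((2 : ℝ) ^ n)⁻¹) ^ 2 = (4 ^ n)⁻¹ := by rw [e0, mul_inv, sq]
  have hl20 : ((2 : ℝ) ^ n)⁻¹ ≤ 1 / 20 := by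
    have h : (2 : ℝ) ^ 5 ≤ 2 ^ n := pow_le_pow_right₀ (by norm_num) hn
    rw [one_div]
    exact inv_anti₀ (by norm_num) (by linarith)
  have hs := fun i : ℕ => pc_sm hφ hε (2 ^ i)⁻¹
  have e2 : 𝓕⁻ (ann φ (4 ^ n)⁻¹ : E3 → ℂ) = fun x =>
      ∑ i ∈ Finset.range (2 * n), 𝓕⁻ (pc φ (4 ^ n)⁻¹ (2 ^ i)⁻¹) x + 𝓕⁻ (pol φ (4 ^ n)⁻¹) x := by
    funext x
    rw [funext (ann_split hφ n), inv_add (integrable_finsetSum _ fun i _ => (hs i).ker.int)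
      (pol_sm hφ hε).ker.int, inv_sum _ fun i _ => (hs i).ker.int]
  have b1 := Bd.sum (by linarith : 1 ≤ p) (2 * n) (fun i => (hs i).ker_inv) (by positivity)
    fun i _ => e1 ▸ hp (2 ^ n)⁻¹ (2 ^ i)⁻¹ (by positivity) hl20 (by positivity) k
  have b2 := Bd.of_L1 (by linarith : 1 ≤ p) (pol_sm hφ hε).ker_inv (hl _ hε (all_eps hn)) k
  rw [e2]
  refine (Bd.add (by linarith) (Ker.sum _ fun i _ => (hs i).ker_inv) (pol_sm hφ hε).ker_inv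
    (by positivity) hD.le b1 b2).mono (by linarith) ?_
  rw [rpow_neg (by positivity), inv_rpow (by positivity), inv_inv, e0,
    mul_rpow (by positivity) (by positivity)]
  have h4 := all_n hσ n
  have h5 : (1 : ℝ) ≤ ((2 : ℝ) ^ n) ^ σ := one_le_rpow (one_le_pow₀ one_le_two) hσ.le
  have h6 := all_k k
  generalize ((2 : ℝ) ^ n) ^ σ = x at h4 h5
  generalize (1 + |(k : ℝ)|) ^ 2 = K at h6
  have h7 : 1 ≤ K * (x * x) := one_le_mul_of_one_le_of_one_le h6 (by nlinarith)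
  have h8 := mul_le_mul_of_nonneg_right h4 (by positivity : 0 ≤ C * K * x)
  push_cast
  nlinarith [mul_le_mul_of_nonneg_left h7 hD.le]

theorem ann_ge (hφ : Prof φ) (h2 : 2 ≤ p) (hσ : max (1 - 3 / p) 0 < σ) : ∃ C : ℝ, 0 < C ∧
    ∀ n : ℕ, 5 ≤ n → ∀ k : ℤ,
      Bd p k (C * (1 + |(k : ℝ)|) ^ 2 * (4 ^ n) ^ σ) (𝓕⁻ (ann φ (4 ^ n)⁻¹ : E3 → ℂ)) := by
  obtain ⟨s1, s2⟩ := max_lt_iff.1 hσ
  rcases lt_or_ge p 3 with h3 | h3
  · exact ann23 hφ h2 h3 s2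
  have hp : 0 < p := by linarith
  obtain ⟨q, q2, q3, q4⟩ : ∃ q : ℝ, 2 ≤ q ∧ q < 3 ∧ 1 - q / p < σ := by
    have h : (1 - σ) * p < 3 := (lt_div_iff₀ hp).1 (by linarith)
    refine ⟨max 2 ((3 + (1 - σ) * p) / 2), le_max_left _ _, max_lt (by norm_num) (by linarith), ?_⟩
    have h' : 1 - σ < max 2 ((3 + (1 - σ) * p) / 2) / p :=
      (lt_div_iff₀ hp).2 (lt_max_of_lt_right (by linarith))
    linarith
  obtain ⟨C, hC, hb⟩ := ann23 hφ q2 q3 (sub_pos.2 q4)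
  obtain ⟨D, hD, hl⟩ := l1_ann hφ
  obtain ⟨E, hE, hi⟩ := Bd.interp (p := p) (q := q) (by linarith) (by linarith)
  refine ⟨E * C ^ (q / p) * D ^ (1 - q / p), by positivity, fun n hn k => ?_⟩
  have hε : (0 : ℝ) < (4 ^ n)⁻¹ := by positivity
  refine (hi k _ _ _ (by positivity) (by positivity) (ann_sm hφ hε).ker_inv (hb n hn k)
    (hl _ hε (all_eps hn))).mono hp.le ?_
  have h5 : (1 : ℝ) ≤ (4 : ℝ) ^ n := one_le_pow₀ (by norm_num)
  have h6 := all_k k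
  generalize (4 : ℝ) ^ n = x at h5
  generalize (1 + |(k : ℝ)|) ^ 2 = K at h6
  have t1 : q / p ≤ 1 := (div_le_one hp).2 (by linarith)
  have h7 : 1 ≤ K * x ^ (σ - (1 - q / p)) :=
    one_le_mul_of_one_le_of_one_le h6 (one_le_rpow h5 (sub_pos.2 q4).le)
  have h8 : (K * x ^ (σ - (1 - q / p))) ^ (q / p) ≤ K * x ^ (σ - (1 - q / p)) :=
    rpow_le_self_of_one_le h7 t1
  have e : x ^ σ = x ^ (σ - (1 - q / p)) * x ^ (1 - q / p) := by
    rw [← rpow_add (by linarith), sub_add_cancel]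
  rw [div_inv_eq_mul, mul_assoc C, mul_rpow hC.le (by linarith), mul_rpow hD.le (by linarith), e]
  calc E * (C ^ (q / p) * (K * x ^ (σ - (1 - q / p))) ^ (q / p)) *
        (D ^ (1 - q / p) * x ^ (1 - q / p))
      ≤ E * (C ^ (q / p) * (K * x ^ (σ - (1 - q / p)))) * (D ^ (1 - q / p) * x ^ (1 - q / p)) := by
        gcongr
    _ = _ := by ring

theorem ann_full (hφ : Prof φ) (h1 : 1 ≤ p) (hσ : max (3 * |1 / p - 1 / 2| - 1 / 2) 0 < σ) :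
    ∃ C : ℝ, 0 < C ∧ ∀ n : ℕ, 5 ≤ n → ∀ k : ℤ,
      Bd p k (C * (1 + |(k : ℝ)|) ^ 2 * (4 ^ n) ^ σ) (𝓕⁻ (ann φ (4 ^ n)⁻¹ : E3 → ℂ)) := by
  obtain ⟨s1, s2⟩ := max_lt_iff.1 hσ
  rcases h1.eq_or_lt with rfl | h1'
  · obtain ⟨D, hD, hl⟩ := l1_ann hφ
    refine ⟨D, hD, fun n hn k => ?_⟩
    have hε : (0 : ℝ) < (4 ^ n)⁻¹ := by positivity
    refine Bd.of_L1 le_rfl (ann_sm hφ hε).ker_inv ((hl _ hε (all_eps hn)).trans ?_) k
    rw [div_inv_eq_mul, mul_assoc]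
    refine mul_le_mul_of_nonneg_left ?_ hD.le
    have h : 1 ≤ σ := by
      rw [abs_of_pos (by norm_num)] at s1
      linarith
    exact (self_le_rpow_of_one_le (one_le_pow₀ (by norm_num)) h).trans
      (le_mul_of_one_le_left (by positivity) (all_k k))
  have hp : 0 < p := by linarith
  rcases le_or_gt 2 p with h2 | h2
  · refine ann_ge hφ h2 (max_lt ?_ s2)
    have h : 1 / p ≤ 1 / 2 := one_div_le_one_div_of_le two_pos h2
    rw [abs_of_nonpos (by linarith)] at s1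
    rw [← mul_one_div 3]
    linarith
  have hc := Real.HolderConjugate.conjExponent h1'
  generalize p.conjExponent = q at hc
  have e : q⁻¹ = 1 - p⁻¹ := hc.one_sub_inv.symm
  have h : 1 / 2 < 1 / p := one_div_lt_one_div_of_lt hp h2
  rw [abs_of_pos (by linarith)] at s1
  rw [one_div p] at h s1
  have hq : 2 ≤ q := by
    rw [← one_div_le_one_div hc.symm.pos two_pos, one_div q]
    linarith
  obtain ⟨C, hC, hb⟩ := ann_ge hφ hq (max_lt (by rw [div_eq_mul_inv]; linarith) s2)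
  refine ⟨C, hC, fun n hn k => Bd.dual hc (ann_sm hφ (by positivity)).ker_inv
    (inv_even fun ξ => by rw [ann, ann, norm_neg]) (inv_rot (ann_rot φ _)) ?_⟩
  simpa only [Int.cast_neg, abs_neg] using hb n hn (-k)

end Vale.Agent.P117
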