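import Vale.Agent.P117.Cyl
import Vale.Agent.P117.Schur
import Vale.Agent.P117.StmtB

/-! The projections to the equivariant functions. -/

open MeasureTheory Set Real Filter
open scoped FourierTransform RealInnerProductSpace ContDiff ENNReal Topology

noncomputable section

namespace Vale.Agent.P117

/-- the angular Fourier coefficient -/
def Pk (k : ℤ) (f : E3 → ℂ) (x : E3) : ℂ :=
  ((1 / (2 * π) : ℝ) : ℂ) * ∫ θ in (0 : ℝ)..2 * π, Complex.exp (-(k * θ * Complex.I)) * f (rot θ x)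

variable {k : ℤ} {f : E3 → ℂ}

theorem anga_norm_exp (k : ℤ) (θ : ℝ) : ‖Complex.exp (-(k * θ * Complex.I))‖ = 1 := by
  have : -((k : ℂ) * θ * Complex.I) = ((-(k * θ) : ℝ) : ℂ) * Complex.I := by push_cast; ring
  rw [this, Complex.norm_exp_ofReal_mul_I]

theorem Pk_eqv (k : ℤ) (f : E3 → ℂ) : Eqv k (Pk k f) := by
  intro α x
  have hper : Function.Periodic
      (fun θ : ℝ => Complex.exp (-(k * θ * Complex.I)) * f (rot θ x)) (2 * π) := by
    intro θ
    simp only [rot_two_pi]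
    congr 1
    have : -((k : ℂ) * ((θ + 2 * π : ℝ) : ℂ) * Complex.I) =
        -(k * θ * Complex.I) + ((-k : ℤ) : ℂ) * (2 * π * Complex.I) := by push_cast; ring
    rw [this, Complex.exp_add, Complex.exp_int_mul_two_pi_mul_I, mul_one]
  have h1 := hper.intervalIntegral_add_eq α 0
  have h2 := intervalIntegral.integral_comp_add_right (a := 0) (b := 2 * π)
    (fun θ : ℝ => Complex.exp (-(k * θ * Complex.I)) * f (rot θ x)) α
  rw [zero_add, add_comm (2 * π) α, h1, zero_add] at h2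
  unfold Pk
  rw [← h2, mul_left_comm (Complex.exp _), ← intervalIntegral.integral_const_mul (Complex.exp _)]
  congr 1
  refine intervalIntegral.integral_congr fun θ _ => ?_
  simp only [rot_add]
  rw [← mul_assoc, ← Complex.exp_add]
  congr 2
  push_cast; ring

theorem anga_cont (x : E3) : Continuous fun θ : ℝ => rot θ x :=
  continuous_rot.comp (f := fun θ : ℝ => (θ, x)) (continuous_id.prodMk continuous_const)

theorem anga_meas (hf : Measurable f) (k : ℤ) :
    Measurable fun w : E3 × ℝ => Complex.exp (-(k * w.2 * Complex.I)) * f (rot w.2 w.1) := by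
  have h1 : Measurable fun w : E3 × ℝ => f (rot w.2 w.1) :=
    hf.comp (continuous_rot.comp continuous_swap).measurable
  have h2 : Continuous fun w : E3 × ℝ => Complex.exp (-(k * w.2 * Complex.I)) := by fun_prop
  exact h2.measurable.mul h1

theorem Pk_meas (hf : Measurable f) (k : ℤ) : Measurable (Pk k f) := by
  have h := (anga_meas hf k).stronglyMeasurable.integral_prod_right'
    (ν := (volume : Measure ℝ).restrict (Ioc 0 (2 * π)))
  have e : Pk k f = fun x => ((1 / (2 * π) : ℝ) : ℂ) * ∫ θ in Ioc (0 : ℝ) (2 * π),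
      Complex.exp (-(k * θ * Complex.I)) * f (rot θ x) := by
    funext x
    rw [Pk, intervalIntegral.integral_of_le two_pi_pos.le]
  rw [e]
  exact h.measurable.const_mul _

theorem Pk_enorm_le (k : ℤ) (f : E3 → ℂ) (x : E3) : ‖Pk k f x‖ₑ ≤
    ∫⁻ θ in Ioc (0 : ℝ) (2 * π), ENNReal.ofReal (1 / (2 * π)) * ‖f (rot θ x)‖ₑ := by
  rw [Pk, intervalIntegral.integral_of_le two_pi_pos.le, enorm_mul,
    lintegral_const_mul' _ _ ENNReal.ofReal_ne_top]
  have e : ‖((1 / (2 * π) : ℝ) : ℂ)‖ₑ = ENNReal.ofReal (1 / (2 * π)) := by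
    rw [← ofReal_norm, Complex.norm_real, Real.norm_of_nonneg (by positivity)]
  rw [e]
  gcongr
  refine (enorm_integral_le_lintegral_enorm _).trans (le_of_eq ?_)
  refine lintegral_congr fun θ => ?_
  rw [enorm_mul, ← ofReal_norm, anga_norm_exp, ENNReal.ofReal_one, one_mul]

theorem anga_one : ∫⁻ _ in Ioc (0 : ℝ) (2 * π), ENNReal.ofReal (1 / (2 * π)) = 1 := by
  rw [setLIntegral_const, Real.volume_Ioc, ← ENNReal.ofReal_mul (by positivity), sub_zero,
    one_div_mul_cancel two_pi_pos.ne', ENNReal.ofReal_one]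

theorem Pk_norm_le {B : ℝ} (hB : 0 ≤ B) (x : E3)
    (hf : ∀ᵐ θ : ℝ, ‖f (rot θ x)‖ ≤ B) (k : ℤ) : ‖Pk k f x‖ ≤ B := by
  have h1 : ‖Pk k f x‖ₑ ≤ ENNReal.ofReal B := by
    refine (Pk_enorm_le k f x).trans ?_
    calc _ ≤ ∫⁻ _ in Ioc (0 : ℝ) (2 * π), ENNReal.ofReal (1 / (2 * π)) * ENNReal.ofReal B := by
          refine lintegral_mono_ae (ae_restrict_of_ae ?_)
          filter_upwards [hf] with θ hθ
          gcongr
          rw [← ofReal_norm]
          exact ENNReal.ofReal_le_ofReal hθ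
      _ = ENNReal.ofReal B := by
          rw [lintegral_mul_const' _ _ ENNReal.ofReal_ne_top, anga_one, one_mul]
  rw [← ofReal_norm] at h1
  exact (ENNReal.ofReal_le_ofReal_iff hB).1 h1

theorem Pk_Np {p : ℝ} (hp : 1 ≤ p) (hf : Measurable f) (k : ℤ) :
    Np volume p (Pk k f) ≤ Np volume p f := by
  have hp0 : 0 ≤ p := by linarith
  have hm : Measurable fun w : E3 × ℝ => ‖f (rot w.2 w.1)‖ₑ :=
    (hf.comp (continuous_rot.comp continuous_swap).measurable).enorm
  have key : ∀ x, ‖Pk k f x‖ₑ ^ p ≤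
      ∫⁻ θ in Ioc (0 : ℝ) (2 * π), ENNReal.ofReal (1 / (2 * π)) * ‖f (rot θ x)‖ₑ ^ p := by
    intro x
    have hx : Measurable fun θ : ℝ => ‖f (rot θ x)‖ₑ :=
      (hf.comp (anga_cont x).measurable).enorm
    have h := schur (μ := Measure.dirac ()) (ν := (volume : Measure ℝ).restrict (Ioc 0 (2 * π))) hp
      (k := fun _ _ => ENNReal.ofReal (1 / (2 * π))) measurable_const (A := 1)
      (B := ENNReal.ofReal (1 / (2 * π))) (fun _ => anga_one.le) (fun _ => by simp) hx
    rw [lintegral_dirac, ENNReal.one_rpow, one_mul] at h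
    rw [lintegral_const_mul' _ _ ENNReal.ofReal_ne_top]
    exact (ENNReal.rpow_le_rpow (Pk_enorm_le k f x) hp0).trans h
  calc Np volume p (Pk k f) ≤ ∫⁻ x, ∫⁻ θ in Ioc (0 : ℝ) (2 * π),
        ENNReal.ofReal (1 / (2 * π)) * ‖f (rot θ x)‖ₑ ^ p := lintegral_mono key
    _ = ∫⁻ θ in Ioc (0 : ℝ) (2 * π), ∫⁻ x,
        ENNReal.ofReal (1 / (2 * π)) * ‖f (rot θ x)‖ₑ ^ p :=
        lintegral_lintegral_swap ((hm.pow_const p).const_mul _).aemeasurable
    _ = ∫⁻ _ in Ioc (0 : ℝ) (2 * π), ENNReal.ofReal (1 / (2 * π)) * Np volume p f := by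
        refine lintegral_congr fun θ => ?_
        rw [lintegral_const_mul' _ _ ENNReal.ofReal_ne_top, Np,
          ← (measurePreserving_rot θ).lintegral_comp (hf.enorm.pow_const p)]
    _ = Np volume p f := by
        rw [lintegral_mul_const _ measurable_const, anga_one, one_mul]

theorem Pk_lint (hf : Measurable f) (k : ℤ) : ∫⁻ x, ‖Pk k f x‖ₑ ≤ ∫⁻ x, ‖f x‖ₑ := by
  simpa [Np] using Pk_Np le_rfl hf k

theorem Pk_nice (hf : Nice f) (k : ℤ) : Nice (Pk k f) := by
  obtain ⟨C, hC⟩ := hf.bdd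
  refine ⟨Pk_meas hf.meas k, ⟨(Pk_meas hf.meas k).aestronglyMeasurable, ?_⟩,
    C, fun x => Pk_norm_le ((norm_nonneg _).trans (hC 0)) x (ae_of_all _ fun θ => hC _) k⟩
  exact (Pk_lint hf.meas k).trans_lt hf.int.2

theorem Pk_L1 (hf : Nice f) (k : ℤ) : ∫ x, ‖Pk k f x‖ ≤ ∫ x, ‖f x‖ := by
  rw [integral_norm_eq_lintegral_enorm (Pk_nice hf k).int.1,
    integral_norm_eq_lintegral_enorm hf.int.1]
  exact ENNReal.toReal_mono hf.int.2.ne (Pk_lint hf.meas k)

theorem Pk_eLp {p : ℝ≥0∞} (hp : 1 ≤ p) (hf : Continuous f) (k : ℤ) :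
    eLpNorm (Pk k f) p ≤ eLpNorm f p := by
  by_cases ht : p = ⊤
  · subst ht
    rw [eLpNorm_exponent_top, eLpNorm_exponent_top]
    by_cases hi : eLpNormEssSup f volume = ⊤
    · rw [hi]; exact le_top
    have h1 : ∀ᵐ x, ‖f x‖ ≤ (eLpNormEssSup f volume).toReal := by
      filter_upwards [ae_le_eLpNormEssSup (f := f) (μ := volume)] with x hx
      have := ENNReal.toReal_mono hi hx
      rwa [toReal_enorm] at this
    have h2 : ∀ x, ‖f x‖ ≤ (eLpNormEssSup f volume).toReal := by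
      have hc : IsClosed {x | ‖f x‖ ≤ (eLpNormEssSup f volume).toReal} :=
        isClosed_le hf.norm continuous_const
      have hd := Measure.dense_of_ae h1
      intro x
      exact hc.closure_subset (hd x)
    refine (eLpNormEssSup_le_of_ae_bound (C := (eLpNormEssSup f volume).toReal)
      (ae_of_all _ fun x => Pk_norm_le ENNReal.toReal_nonneg x (ae_of_all _ fun θ => h2 _) k)).trans ?_
    rw [ENNReal.ofReal_toReal hi]
  · have h0 : p ≠ 0 := (zero_lt_one.trans_le hp).ne'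
    have hp' : 1 ≤ p.toReal := by
      simpa using ENNReal.toReal_mono ht hp
    rw [eLpNorm_eq_lintegral_rpow_enorm_toReal h0 ht, eLpNorm_eq_lintegral_rpow_enorm_toReal h0 ht]
    exact ENNReal.rpow_le_rpow (Pk_Np hp' hf.measurable k) (by positivity)

end Vale.Agent.P117
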