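import Vale.Agent.P117.SumN

/-!
The theorem for equivariant functions. `BR_lim`: `cv_eq`, dominated convergence (`mN_lim`, `mN_le`). `BR_sub`: the multiplier is bounded by the indicator of the unit ball and
`‖𝓕 f - 𝓕 g‖ ≤ ∫ ‖f - g‖`. `main_fin`: first for `Cls` by `Np_fatou`, then for `indicator (closedBall 0 N) f` and `Np_fatou` again. `main`: for `p = ∞` use `norm_cv_le`, `l1_mN`
(`eLpNorm_exponent_top`, `ae_le_eLpNormEssSup`, `eLpNormEssSup_le_of_ae_bound`), otherwise `eLpNorm_eq_lintegral_rpow_enorm_toReal`.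
-/

open MeasureTheory Set Real Filter
open scoped FourierTransform RealInnerProductSpace ContDiff ENNReal Topology

noncomputable section

namespace Vale.Agent.P117

variable {δ : ℝ} {f g : E3 → ℂ}

theorem main_ind : Integrable ((Metric.closedBall (0 : E3) 1).indicator (1 : E3 → ℝ)) :=
  (integrableOn_const measure_closedBall_lt_top.ne).integrable_indicator measurableSet_closedBall

theorem main_four (f : E3 → ℂ) (ξ : E3) : 𝓕 f ξ = 𝓕⁻ f (-ξ) := by
  rw [Real.fourierInv_eq_fourier_neg, neg_neg]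

theorem main_sub (hf : Integrable f) (hg : Integrable g) (x : E3) :
    ‖𝓕⁻ f x - 𝓕⁻ g x‖ ≤ ∫ y, ‖f y - g y‖ := by
  have h := inv_add (m := fun y => f y - g y) (hf.sub hg) hg x
  simp only [sub_add_cancel] at h
  rw [h, add_sub_cancel_right]
  exact norm_inv_le _ _

theorem BR_eq (δ : ℝ) (f : E3 → ℂ) (x : E3) :
    BR δ f x = 𝓕⁻ (fun ξ : E3 => ((max (1 - ‖ξ‖ ^ 2) 0 ^ δ : ℝ) : ℂ) * 𝓕 f ξ) x := by
  rw [Real.fourierInv_eq', BR]
  refine integral_congr_ae (ae_of_all _ fun ξ => ?_)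
  simp only [smul_eq_mul, real_inner_comm x ξ]
  exact mul_comm _ _

theorem br_integrable (hδ : 0 < δ) :
    Integrable fun ξ : E3 => ((max (1 - ‖ξ‖ ^ 2) 0 ^ δ : ℝ) : ℂ) :=
  main_ind.mono' (Complex.continuous_ofReal.comp (Continuous.rpow_const (by fun_prop)
    fun _ => Or.inr hδ.le)).aestronglyMeasurable (ae_of_all _ (br_le hδ))

theorem continuous_BR (hδ : 0 < δ) (hf : Integrable f) : Continuous (BR δ f) := by
  rw [show BR δ f = _ from funext (BR_eq δ f)]
  exact continuous_inv (integrable_mul_fourier (br_integrable hδ) hf)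

theorem BR_lim (hδ : 0 < δ) (hf : Integrable f) (x : E3) :
    Tendsto (fun N => cv (𝓕⁻ (mN δ N)) f x) atTop (𝓝 (BR δ f x)) := by
  have e : ∀ N, cv (𝓕⁻ (mN δ N)) f x = _ := fun N => cv_eq (mN_sm δ N).ker.int hf x
  simp only [e, BR_eq, Real.fourierInv_eq]
  refine tendsto_integral_of_dominated_convergence _
    (fun N => (four_int (integrable_mul_fourier (mN_sm δ N).ker.int hf) x).1)
    (main_ind.mul_const (∫ y, ‖f y‖)) (fun N => ae_of_all _ fun ξ => ?_)
    (ae_of_all _ fun ξ => ((mN_lim hδ ξ).mul_const _).const_smul _)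
  rw [Circle.norm_smul, norm_mul]
  exact mul_le_mul (mN_le hδ N ξ) (norm_fourier_le f ξ) (norm_nonneg _)
    ((norm_nonneg _).trans (mN_le hδ N ξ))

theorem BR_sum (hδ : 0 < δ) {ι : Type} (s : Finset ι) {F : ι → E3 → ℂ}
    (hF : ∀ i ∈ s, Integrable (F i)) (x : E3) :
    BR δ (fun y => ∑ i ∈ s, F i y) x = ∑ i ∈ s, BR δ (F i) x := by
  have e : ∀ ξ, 𝓕 (fun y => ∑ i ∈ s, F i y) ξ = ∑ i ∈ s, 𝓕 (F i) ξ := fun ξ => by
    simp only [main_four, inv_sum s hF]
  simp only [BR_eq, e, Finset.mul_sum]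
  exact inv_sum s (fun i hi => integrable_mul_fourier (br_integrable hδ) (hF i hi)) x

theorem BR_tendsto (hδ : 0 < δ) (hf : Integrable f) {F : ℕ → E3 → ℂ} (hF : ∀ n, Integrable (F n))
    (h : Tendsto (fun n => ∫ y, ‖F n y - f y‖) atTop (𝓝 0)) (x : E3) :
    Tendsto (fun n => BR δ (F n) x) atTop (𝓝 (BR δ f x)) := by
  have hb := br_integrable hδ
  have h1 := h.const_mul (∫ ξ : E3, ‖((max (1 - ‖ξ‖ ^ 2) 0 ^ δ : ℝ) : ℂ)‖)
  rw [mul_zero] at h1
  refine tendsto_iff_norm_sub_tendsto_zero.2 (squeeze_zero (fun _ => norm_nonneg _) (fun n => ?_) h1)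
  rw [BR_eq, BR_eq, ← integral_mul_const]
  refine (main_sub (integrable_mul_fourier hb (hF n)) (integrable_mul_fourier hb hf) x).trans
    (integral_mono_of_nonneg (ae_of_all _ fun _ => norm_nonneg _) (hb.norm.mul_const _)
      (ae_of_all _ fun ξ => ?_))
  simp only [← mul_sub, norm_mul, main_four]
  exact mul_le_mul_of_nonneg_left (main_sub (hF n) hf _) (norm_nonneg _)

theorem main_fin {p : ℝ} (h1 : 1 ≤ p) (hδ : max (3 * |1 / p - 1 / 2| - 1 / 2) 0 < δ) :
    ∃ C : ℝ, 0 < C ∧ ∀ (k : ℤ) (f : E3 → ℂ), Nice f → Eqv k f →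
      Np volume p (BR δ f) ≤ ENNReal.ofReal (C * (1 + |(k : ℝ)|) ^ 2) ^ p * Np volume p f := by
  obtain ⟨C, hC, H⟩ := bd_mN h1 hδ
  have h0 : 0 < δ := (le_max_right _ _).trans_lt hδ
  have hp : 0 ≤ p := by linarith
  refine ⟨C, hC, fun k f hf he => ?_⟩
  have hc : ∀ n : ℕ, Cls k ((Metric.closedBall (0 : E3) n).indicator f) := fun n => by
    obtain ⟨B, hB⟩ := hf.bdd
    refine ⟨hf.meas.indicator measurableSet_closedBall,
      ⟨B, fun x => (norm_indicator_le_norm_self _ _).trans (hB x)⟩,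
      ⟨n, fun x hx => indicator_of_notMem (by simpa using hx) _⟩, fun θ x => ?_⟩
    by_cases hx : ‖x‖ ≤ n <;> simp [indicator, norm_rot, hx, he θ x]
  have hl : Tendsto (fun n : ℕ => ∫ y, ‖(Metric.closedBall (0 : E3) n).indicator f y - f y‖) atTop
      (𝓝 0) := by
    have h2 := tendsto_integral_of_dominated_convergence (f := fun _ => (0 : ℝ)) _
      (fun n : ℕ => ((hc n).nice.int.sub hf.int).norm.1) hf.int.norm
      (fun n => ae_of_all _ fun y => by
        by_cases hy : ‖y‖ ≤ n <;> simp [indicator, hy])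
      (ae_of_all _ fun y => tendsto_const_nhds.congr' (by
        filter_upwards [tendsto_natCast_atTop_atTop.eventually_ge_atTop ‖y‖] with n hn
        simp [indicator, hn]))
    simpa using h2
  refine Np_fatou hp (fun n => (continuous_BR h0 (hc n).nice.int).measurable)
    (BR_tendsto h0 hf.int (fun n => (hc n).nice.int) hl) (Eventually.of_forall fun n => ?_)
  refine (Np_fatou hp (fun N => (cv_nice (mN_sm δ N).ker_inv.nice (hc n).nice).meas)
    (BR_lim h0 (hc n).nice.int) (eventually_atTop.2 ⟨5, fun N hN => H N hN k _ (hc n)⟩)).trans ?_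
  exact mul_le_mul_right (Np_mono hp fun x => norm_indicator_le_norm_self _ _) _

theorem main {p : ℝ≥0∞} (h1 : 1 ≤ p) (hδ : max (3 * |p⁻¹.toReal - 1 / 2| - 1 / 2) 0 < δ) :
    ∃ C : ℝ, 0 < C ∧ ∀ (k : ℤ) (f : E3 → ℂ), Nice f → Eqv k f →
      eLpNorm (BR δ f) p ≤ ENNReal.ofReal (C * (1 + |(k : ℝ)|) ^ 2) * eLpNorm f p := by
  by_cases hp : p = ⊤
  · subst hp
    have h2 : 1 < δ := by
      refine lt_of_le_of_lt ?_ ((le_max_left _ _).trans_lt hδ)
      norm_num [abs_of_pos]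
    obtain ⟨C, hC, H⟩ := l1_mN h2
    refine ⟨C, hC, fun k f hf _ => ?_⟩
    obtain ⟨B, hB⟩ := hf.bdd
    have h3 : eLpNormEssSup f volume ≠ ⊤ := (eLpNormEssSup_lt_top_of_ae_bound (ae_of_all _ hB)).ne
    have h4 : ∀ᵐ y, ‖f y‖ ≤ (eLpNormEssSup f volume).toReal :=
      (ae_le_eLpNormEssSup (f := f)).mono fun y hy => by
        rw [← toReal_enorm]
        exact ENNReal.toReal_mono h3 hy
    have h5 : ∀ x, ‖BR δ f x‖ ≤ C * (eLpNormEssSup f volume).toReal := fun x =>
      le_of_tendsto (BR_lim (by linarith) hf.int x).norm (eventually_atTop.2 ⟨5, fun N hN =>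
        (norm_cv_le (mN_sm δ N).ker_inv.int h4 x).trans
          (mul_le_mul_of_nonneg_right (H N hN) ENNReal.toReal_nonneg)⟩)
    simp only [eLpNorm_exponent_top]
    refine (eLpNormEssSup_le_of_ae_bound (ae_of_all _ h5)).trans ?_
    rw [ENNReal.ofReal_mul hC.le, ENNReal.ofReal_toReal h3]
    refine mul_le_mul_left (ENNReal.ofReal_le_ofReal (le_mul_of_one_le_right hC.le ?_)) _
    exact one_le_pow₀ (le_add_of_nonneg_right (abs_nonneg _))
  · have h2 : 1 ≤ p.toReal := by simpa using ENNReal.toReal_mono hp h1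
    have h0 : p ≠ 0 := (zero_lt_one.trans_le h1).ne'
    rw [ENNReal.toReal_inv, ← one_div] at hδ
    obtain ⟨C, hC, H⟩ := main_fin h2 hδ
    refine ⟨C, hC, fun k f hf he => ?_⟩
    rw [eLpNorm_eq_lintegral_rpow_enorm_toReal h0 hp, eLpNorm_eq_lintegral_rpow_enorm_toReal h0 hp]
    refine (ENNReal.rpow_le_rpow (H k f hf he) (by positivity)).trans_eq ?_
    rw [ENNReal.mul_rpow_of_nonneg _ _ (by positivity), ← ENNReal.rpow_mul,
      mul_one_div_cancel (by positivity), ENNReal.rpow_one, Np]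

end Vale.Agent.P117
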