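import Vale.Agent.P117.AngB
import Vale.Agent.P117.Main

/-! The estimate for all Schwartz functions, with angular derivatives on the right side. -/

open MeasureTheory Set Real Filter
open scoped FourierTransform RealInnerProductSpace ContDiff ENNReal Topology SchwartzMap

noncomputable section

namespace Vale.Agent.P117

variable {δ : ℝ}

theorem angc_cv (hδ : 0 < δ) {f : E3 → ℂ} (hf : Integrable f) (x : E3) : BR δ f x =
    ∫ y, 𝓕⁻ (fun ξ : E3 => ((max (1 - ‖ξ‖ ^ 2) 0 ^ δ : ℝ) : ℂ)) (x - y) * f y := by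
  rw [BR_eq, ← cv_eq (br_integrable hδ) hf, cv]

theorem BR_hasSum (hδ : 0 < δ) (f : 𝓢(E3, ℂ)) (x : E3) :
    HasSum (fun k : ℤ => BR δ (Pk k f) x) (BR δ f x) := by
  set K : E3 → ℂ := 𝓕⁻ (fun ξ : E3 => ((max (1 - ‖ξ‖ ^ 2) 0 ^ δ : ℝ) : ℂ)) with hK
  have hKc : Continuous K := continuous_inv (br_integrable hδ)
  obtain ⟨B, hB⟩ : ∃ B, ∀ y, ‖K y‖ ≤ B := ⟨_, norm_inv_le _⟩
  have hB0 : 0 ≤ B := (norm_nonneg _).trans (hB 0)
  have hn := fun k => Pk_nice (schwartz_nice f) k
  have hi : ∀ k : ℤ, Integrable fun y => K (x - y) * Pk k f y := fun k =>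
    (hn k).int.bdd_mul (c := B) (hKc.comp (continuous_const.sub continuous_id)).aestronglyMeasurable
      (ae_of_all _ fun y => hB _)
  have hs : Summable fun k : ℤ => ∫ y, ‖K (x - y) * Pk k f y‖ := by
    refine Summable.of_nonneg_of_le (fun _ => integral_nonneg fun _ => norm_nonneg _)
      (fun k => ?_) ((summable_Pk_L1 f).mul_left B)
    rw [← integral_const_mul]
    refine integral_mono (hi k).norm ((hn k).int.norm.const_mul B) fun y => ?_
    simp only [norm_mul]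
    gcongr
    exact hB _
  have h := hasSum_integral_of_summable_integral_norm hi hs
  have e : ∀ y, ∑' k : ℤ, K (x - y) * Pk k f y = K (x - y) * f y := fun y =>
    ((hasSum_Pk f y).mul_left _).tsum_eq
  simp only [e] at h
  rw [angc_cv hδ f.integrable]
  simpa only [angc_cv hδ (hn _).int] using h

theorem angc_num {k : ℤ} (hk : k ≠ 0) :
    (1 + |(k : ℝ)|) ^ 2 * (|(k : ℝ)| ^ 4)⁻¹ ≤ 4 * (1 / (k : ℝ) ^ 2) := by
  have h1 : (1 : ℝ) ≤ |(k : ℝ)| := by exact_mod_cast Int.one_le_abs hk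
  rw [← sq_abs (k : ℝ)]
  generalize |(k : ℝ)| = t at h1
  have ht : 0 < t := by linarith
  rw [← div_eq_mul_inv, mul_one_div, div_le_div_iff₀ (by positivity) (by positivity)]
  have : (1 + t) ^ 2 ≤ 4 * t ^ 2 := by nlinarith
  calc (1 + t) ^ 2 * t ^ 2 ≤ 4 * t ^ 2 * t ^ 2 := by gcongr
    _ = 4 * t ^ 4 := by ring

theorem mainB {p : ℝ≥0∞} (h1 : 1 ≤ p) (hδ : max (3 * |p⁻¹.toReal - 1 / 2| - 1 / 2) 0 < δ) :
    ∃ C : ℝ, 0 < C ∧ ∀ f : 𝓢(E3, ℂ), eLpNorm (BR δ f) p ≤
      ENNReal.ofReal C * (eLpNorm f p + eLpNorm (ang^[4] f) p) := by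
  have hδ0 : 0 < δ := (le_max_right _ _).trans_lt hδ
  obtain ⟨C, hC, H⟩ := main h1 hδ
  have hsum : Summable fun k : ℤ => 1 / (k : ℝ) ^ 2 := Real.summable_one_div_int_pow.2 one_lt_two
  set S : ℝ := ∑' k : ℤ, 1 / (k : ℝ) ^ 2 with hS
  have hS0 : 0 ≤ S := tsum_nonneg fun _ => by positivity
  refine ⟨C * (1 + 4 * S), by positivity, fun f => ?_⟩
  obtain ⟨g, hg⟩ := ang_iter_schwartz f 4
  have hn := fun k => Pk_nice (schwartz_nice f) k
  set N : ℝ≥0∞ := eLpNorm f p + eLpNorm (ang^[4] f) p with hN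
  let a : ℤ → ℝ := fun k => (if k = 0 then 1 else 0) + 4 * (1 / (k : ℝ) ^ 2)
  have ha : ∀ k, 0 ≤ a k := fun k => by
    have : (0 : ℝ) ≤ if k = 0 then 1 else 0 := by split_ifs <;> norm_num
    positivity
  have hk : ∀ k : ℤ, eLpNorm (BR δ (Pk k f)) p ≤ ENNReal.ofReal (C * a k) * N := by
    intro k
    refine (H k _ (hn k) (Pk_eqv k f)).trans ?_
    by_cases h0 : k = 0
    · subst h0
      have : eLpNorm (Pk 0 f) p ≤ N := (Pk_eLp h1 f.continuous 0).trans le_self_add
      simp only [a]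
      gcongr
      simp
    · have h2 : eLpNorm (Pk k (ang^[4] f)) p ≤ N := by
        refine le_trans ?_ le_add_self
        rw [← hg]
        exact Pk_eLp h1 g.continuous k
      rw [Pk_eq_iter f h0 4, eLpNorm_const_smul, ← ofReal_norm, angb_norm, ← mul_assoc,
        ← ENNReal.ofReal_mul (by positivity), mul_assoc C]
      simp only [a, if_neg h0, zero_add]
      exact mul_le_mul' (ENNReal.ofReal_le_ofReal
        (mul_le_mul_of_nonneg_left (angc_num h0) hC.le)) h2
  refine Lp.eLpNorm_le_of_ae_tendsto (u := (atTop : Filter (Finset ℤ)))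
    (f := fun s => ∑ k ∈ s, BR δ (Pk k f)) (Eventually.of_forall fun s => ?_)
    (fun s => Finset.aestronglyMeasurable_sum s fun k _ =>
      (continuous_BR hδ0 (hn k).int).aestronglyMeasurable) (ae_of_all _ fun x => ?_)
  · refine (eLpNorm_sum_le (fun k _ => (continuous_BR hδ0 (hn k).int).aestronglyMeasurable)
      h1).trans ((Finset.sum_le_sum fun k _ => hk k).trans ?_)
    rw [← Finset.sum_mul, ← ENNReal.ofReal_sum_of_nonneg fun k _ => mul_nonneg hC.le (ha k),
      ← Finset.mul_sum]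
    gcongr
    simp only [a]
    rw [Finset.sum_add_distrib, ← Finset.mul_sum]
    gcongr
    · rw [Finset.sum_ite_eq']
      split_ifs <;> norm_num
    · exact hsum.sum_le_tsum s fun _ _ => by positivity
  · simp only [Finset.sum_apply]
    exact BR_hasSum hδ0 f x

end Vale.Agent.P117
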