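import Vale.Agent.P117.Stmt

/-! Internal definitions for P117. FROZEN. See skeleton/P117/GUIDE.md. -/

open MeasureTheory Set Real
open scoped FourierTransform RealInnerProductSpace ContDiff ENNReal

noncomputable section

namespace Vale.Agent.P117

section gen
variable {V : Type} [NormedAddCommGroup V] [InnerProductSpace ℝ V] [FiniteDimensional ℝ V]
  [MeasurableSpace V] [BorelSpace V]

/-- convolution -/
def cv (K f : V → ℂ) (x : V) : ℂ := ∫ y, K (x - y) * f y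

/-- continuous, integrable, bounded -/
structure Ker (K : V → ℂ) : Prop where
  cont : Continuous K
  int : Integrable K
  bdd : ∃ C, ∀ x, ‖K x‖ ≤ C

/-- measurable, integrable, bounded -/
structure Nice (f : V → ℂ) : Prop where
  meas : Measurable f
  int : Integrable f
  bdd : ∃ C, ∀ x, ‖f x‖ ≤ C

end gen

/-- smooth with compact support -/
structure Sm {V : Type} [NormedAddCommGroup V] [NormedSpace ℝ V] (m : V → ℂ) : Prop where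
  smooth : ContDiff ℝ ∞ m
  cs : HasCompactSupport m

/-- the multiplier of a thin annulus -/
def ann {V : Type} [NormedAddCommGroup V] (φ : ℝ → ℂ) (ε : ℝ) (ξ : V) : ℂ :=
  φ ((1 - ‖ξ‖ ^ 2) / ε)

/-- the `p`-th power of the norm -/
def Np {X : Type} [MeasurableSpace X] (μ : Measure X) (p : ℝ) (f : X → ℂ) : ℝ≥0∞ :=
  ∫⁻ x, ‖f x‖ₑ ^ p ∂μ

/-- the large values -/
def hi {X : Type} (α : ℝ) (f : X → ℂ) : X → ℂ := {x | α < ‖f x‖}.indicator f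

/-- the small values -/
def lo {X : Type} (α : ℝ) (f : X → ℂ) : X → ℂ := {x | ‖f x‖ ≤ α}.indicator f

/-- polynomial decay -/
def dc (n : ℕ) (t : ℝ) : ℝ := ((1 + |t|) ^ n)⁻¹

/-- measurable functions on the plane with decay in both variables -/
structure Dec (G : ℂ → ℂ) : Prop where
  meas : Measurable G
  bd : ∃ C, ∀ x, ‖G x‖ ≤ C * (dc 2 x.re * dc 2 x.im)

/-- smooth profiles supported in `[1/4, 4]` -/
structure Prof (φ : ℝ → ℂ) : Prop where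
  smooth : ContDiff ℝ ∞ φ
  supp : ∀ u, u ∉ Icc (1 / 4 : ℝ) 4 → φ u = 0

/-- convolution with a function on the real axis -/
def ext (k : ℂ → ℂ) (g : ℝ → ℂ) (x : ℂ) : ℂ := ∫ y : ℝ, k (x - y) * g y

/-- the polynomial weight -/
def om (l : ℝ) (x : ℂ) : ℂ := 1 + ((l ^ 2 * x.im : ℝ) : ℂ) * Complex.I

/-- modulated box -/
def eta (l : ℝ) (ν : ℤ) : ℝ → ℂ :=
  (Icc (-(1 / (8 * l))) (1 / (8 * l))).indicator fun u =>
    ((4 * l : ℝ) : ℂ) * Complex.exp (((2 * π * (ν * l * u) : ℝ) : ℂ) * Complex.I)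

/-- the Fourier transform of the box -/
def eh : ℝ → ℂ := 𝓕 (eta 1 0)

/-- frequency pieces of a function on the line -/
def gv (l : ℝ) (ν : ℤ) (g : ℝ → ℂ) : ℝ → ℂ := cv (eta l ν) g

/-- caps -/
def Cap (l : ℝ) (ν : ℤ) : Set ℂ :=
  {ξ | |ξ.re - ν * l| ≤ l ∧ 3 / 5 ≤ ξ.im ∧ 1 - 4 * l ^ 2 ≤ ‖ξ‖ ^ 2 ∧ ‖ξ‖ ^ 2 ≤ 1}

/-- the slope of the circle at the centre of a cap -/
def vel (l : ℝ) (ν : ℤ) : ℝ := -(ν * l) / √(1 - (ν * l) ^ 2)

/-- the indices of the caps -/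
def idx (l : ℝ) : Finset ℤ := Finset.Icc (-⌊17 / (20 * l)⌋) ⌊17 / (20 * l)⌋

/-- pairs of indices that interact -/
def Near (a b c d : ℤ) : Prop := (|a - c| ≤ 7 ∧ |b - d| ≤ 7) ∨ (|a - d| ≤ 7 ∧ |b - c| ≤ 7)

/-- kernels adapted to a cap -/
structure CapK (l D : ℝ) (ν : ℤ) (k : ℂ → ℂ) : Prop where
  cont : Continuous k
  bd : ∀ x, ‖k x‖ ≤ D * l ^ 3 * (dc 2 (l * (x.re + vel l ν * x.im)) * dc 3 (l ^ 2 * x.im))
  van : ∀ ξ, ξ ∉ Cap l ν → 𝓕 (fun x => om l x * k x) ξ = 0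

/-- the multiplier of a cap -/
def capM (φ : ℝ → ℂ) (q : ℂ → ℂ) (ψ : ℝ → ℂ) (l : ℝ) (ν : ℤ) (ξ : ℂ) : ℂ :=
  ann φ (l ^ 2) ξ * q ξ * ψ (ξ.re / l - ν)

/-- inverse Fourier transform in the first variable -/
def pf (M : ℂ → ℂ) (τ ζ : ℝ) : ℂ := 𝓕⁻ (fun ρ : ℝ => M ⟨ρ, ζ⟩) τ

/-- the weight -/
def wt (lam s t : ℝ) : ℝ := (1 + lam * |t|) ^ (-s)

/-- a function on the plane times the weight -/
def wm (lam s : ℝ) (G : ℂ → ℂ) (x : ℂ) : ℂ := (wt lam s x.re : ℂ) * G x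

/-- a decaying function with a decaying primitive -/
structure Prim (κ : ℝ → ℂ) (D : ℝ) : Prop where
  cont : Continuous κ
  bd : ∀ u, ‖κ u‖ ≤ D * dc 3 u
  prim : ∃ κ₁ : ℝ → ℂ, (∀ u, HasDerivAt κ₁ (κ u) u) ∧ ∀ u, ‖κ₁ u‖ ≤ D * dc 3 u

/-- the kernel of the filtered back projection -/
def Bk (κ : ℝ → ℂ) (k : ℤ) (r t : ℝ) : ℂ :=
  ∫ θ in (-π)..π, κ (r * cos θ - t) * Complex.exp (k * θ * Complex.I)

/-- the size of that kernel -/
def kb (r t : ℝ) : ℝ := (1 + r) ^ (-(1 / 2) : ℝ) * (1 + abs (r - |t|)) ^ (-(3 / 2) : ℝ)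

/-- points of three-space -/
def pt (a b z : ℝ) : E3 := !₂[a, b, z]

/-- distance to the axis -/
def rho (ξ : E3) : ℝ := √(ξ 0 ^ 2 + ξ 1 ^ 2)

/-- equivariance under the rotations -/
def Eqv (k : ℤ) (f : E3 → ℂ) : Prop :=
  ∀ (θ : ℝ) x, f (rot θ x) = Complex.exp (k * θ * Complex.I) * f x

/-- the class of test functions -/
structure Cls (k : ℤ) (f : E3 → ℂ) : Prop where
  meas : Measurable f
  bdd : ∃ C, ∀ x, ‖f x‖ ≤ C
  supp : ∃ R, ∀ x, R < ‖x‖ → f x = 0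
  eqv : Eqv k f

/-- bound for a convolution operator on the class -/
def Bd (p : ℝ) (k : ℤ) (A : ℝ) (K : E3 → ℂ) : Prop :=
  ∀ f, Cls k f → Np volume p (cv K f) ≤ ENNReal.ofReal A ^ p * Np volume p f

/-- the filtered projection to the plane -/
def rad (κ : ℝ → ℂ) (k : ℤ) (lam : ℝ) (f : E3 → ℂ) (x : ℂ) : ℂ :=
  ∫ r in Ioi (0 : ℝ), lam * Bk κ k (lam * r) (lam * x.re) * f (pt r 0 x.im) * r

/-- smooth cut-off: one for `u ≤ 1`, zero for `4 ≤ u` -/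
def bt (u : ℝ) : ℝ := 1 - smoothTransition ((u - 1) / 3)

/-- dyadic cut-off in the distance to the axis -/
def chi (u : ℝ) : ℂ := ((bt (u ^ 2) - bt (4 * u ^ 2) : ℝ) : ℂ)

/-- the piece of the annulus at distance `lam` from the axis -/
def pc (φ : ℝ → ℂ) (ε lam : ℝ) (ξ : E3) : ℂ := ann φ ε ξ * chi (rho ξ / lam)

/-- the polar pieces of the annulus -/
def pol (φ : ℝ → ℂ) (ε : ℝ) (ξ : E3) : ℂ := ann φ ε ξ * (bt ((ξ 0 ^ 2 + ξ 1 ^ 2) / ε ^ 2) : ℝ)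

/-- the truncated Bochner-Riesz multiplier -/
def mN (δ : ℝ) (N : ℕ) (ξ : E3) : ℂ :=
  ((max (1 - ‖ξ‖ ^ 2) 0 ^ δ * (1 - bt (4 ^ N * (1 - ‖ξ‖ ^ 2))) : ℝ) : ℂ)

/-- the profile of its dyadic pieces -/
def ph (δ : ℝ) (v : ℝ) : ℂ := ((max v 0 ^ δ * (bt v - bt (4 * v)) : ℝ) : ℂ)

end Vale.Agent.P117
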