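import Vale.Agent.P117.Eta
import Vale.Agent.P117.Schur

/-!
The square function of the pieces. `gv l ν g y = 4 l ∫_{|u| ≤ 1/(8l)} e(ν l u) g (y - u)` (`cv_comm`). Bessel inequality for the
exponentials on an interval of length `1 / l` (`tsum_sq_fourierCoeffOn`, `hasSum_sq_fourierCoeffOn`, or directly: expand
`0 ≤ ∫ ‖G - ∑ c ν e ν‖²`) gives `∑ ‖gv l ν g y‖² ≤ 16 l ∫_{|u| ≤ 1/(8l)} ‖g (y - u)‖²`. Then `young_enn` with `p = 2` and the box
of height `16 l`, integral `4`.
-/

open MeasureTheory Set Real Filter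
open scoped FourierTransform RealInnerProductSpace ContDiff ENNReal Topology

noncomputable section

namespace Vale.Agent.P117

theorem bessel {l : ℝ} (hl : 0 < l) (s : Finset ℤ) {g : ℝ → ℂ} (hg : Nice g) (y : ℝ) :
    ∑ ν ∈ s, ‖gv l ν g y‖ₑ ^ 2 ≤ ∫⁻ u, (Icc (-(1 / (8 * l))) (1 / (8 * l))).indicator
      (fun _ => ENNReal.ofReal (16 * l)) (y - u) * ‖g u‖ₑ ^ 2 := by
  set S : Set ℝ := Icc (-(1 / (8 * l))) (1 / (8 * l)) with hS
  set G : ℝ → ℂ := S.indicator fun u => g (y - u) with hG
  have h0 : 0 < 1 / (8 * l) := by positivity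
  have h1 : 1 / (2 * l) = 4 * (1 / (8 * l)) := by field_simp; norm_num
  have hab : -(1 / (2 * l)) < 1 / (2 * l) := by linarith
  have hT : 1 / (2 * l) - -(1 / (2 * l)) = l⁻¹ := by field_simp; norm_num
  have hsub : S ⊆ Ioc (-(1 / (2 * l))) (1 / (2 * l)) := fun u hu =>
    ⟨by linarith [hu.1], by linarith [hu.2]⟩
  have hG0 : ∀ u, u ∉ S → G u = 0 := fun u hu => indicator_of_notMem hu _
  have hGm : Measurable G := (hg.meas.comp (measurable_const.sub measurable_id)).indicator
    measurableSet_Icc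
  obtain ⟨C, hC⟩ := hg.bdd
  have hGb : ∀ u, ‖G u‖ ≤ C := fun u => (norm_indicator_le_norm_self _ _).trans (hC _)
  have hL : MemLp G 2 (volume.restrict (Ioc (-(1 / (2 * l))) (1 / (2 * l)))) :=
    MemLp.of_bound hGm.aestronglyMeasurable C (Eventually.of_forall hGb)
  have hs : ∀ (F : ℝ → ℂ), (Function.support fun u => F u * G u) ⊆
      Ioc (-(1 / (2 * l))) (1 / (2 * l)) := fun F u hu => hsub (by
    by_contra h
    exact hu (by simp only [hG0 u h, mul_zero]))
  have hs2 : (Function.support fun u => ‖G u‖ ^ 2) ⊆ Ioc (-(1 / (2 * l))) (1 / (2 * l)) :=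
    fun u hu => hsub (by
      by_contra h
      exact hu (by simp [hG0 u h]))
  have e : ∀ ν : ℤ, gv l ν g y = 4 * fourierCoeffOn hab G (-ν) := fun ν => by
    rw [gv, cv_comm, fourierCoeffOn_eq_integral]
    simp only [smul_eq_mul, neg_neg]
    rw [intervalIntegral.integral_eq_integral_of_support_subset (hs _), Complex.real_smul,
      ← mul_assoc, ← integral_const_mul]
    refine integral_congr_ae (Eventually.of_forall fun u => ?_)
    simp only [fourier_coe_apply, hT]
    by_cases hu : u ∈ S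
    · simp only [eta, ← hS, hG, indicator_of_mem hu]
      have e1 : ((2 * π * (ν * l * u) : ℝ) : ℂ) * Complex.I =
          2 * π * Complex.I * ν * u / ((l⁻¹ : ℝ) : ℂ) := by
        push_cast
        rw [div_inv_eq_mul]
        ring
      rw [e1]
      push_cast
      rw [one_div, inv_inv]
      ring
    · simp only [eta, ← hS, indicator_of_notMem hu, hG0 u hu, zero_mul, mul_zero]
  have h2 := (Equiv.neg ℤ).hasSum_iff.2 (hasSum_sq_fourierCoeffOn hab hL)
  have h3 := sum_le_hasSum s (fun i _ => sq_nonneg _) h2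
  rw [intervalIntegral.integral_eq_integral_of_support_subset hs2, hT, inv_inv, smul_eq_mul] at h3
  have hi : Integrable fun u => ‖G u‖ ^ 2 :=
    (integrableOn_iff_integrable_of_support_subset hs2).1
      ((memLp_two_iff_integrable_sq_norm hL.1).1 hL)
  have h4 : ∑ ν ∈ s, ‖gv l ν g y‖ ^ 2 ≤ ∫ u, 16 * l * ‖G u‖ ^ 2 := by
    rw [integral_const_mul]
    simp only [e, norm_mul, mul_pow, ← Finset.mul_sum]
    simp only [Function.comp_apply, Equiv.neg_apply] at h3
    have e4 : ‖(4 : ℂ)‖ ^ 2 = 16 := by norm_num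
    rw [e4, mul_assoc]
    exact mul_le_mul_of_nonneg_left h3 (by norm_num)
  calc _ = ENNReal.ofReal (∑ ν ∈ s, ‖gv l ν g y‖ ^ 2) := by
        rw [ENNReal.ofReal_sum_of_nonneg fun i _ => sq_nonneg _]
        refine Finset.sum_congr rfl fun ν _ => ?_
        rw [ENNReal.ofReal_pow (norm_nonneg _), ofReal_norm_eq_enorm]
    _ ≤ ENNReal.ofReal (∫ u, 16 * l * ‖G u‖ ^ 2) := ENNReal.ofReal_le_ofReal h4
    _ = ∫⁻ u, ENNReal.ofReal (16 * l * ‖G u‖ ^ 2) :=
        ofReal_integral_eq_lintegral_ofReal (hi.const_mul _)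
          (Eventually.of_forall fun u => by positivity)
    _ = _ := by
        rw [← lintegral_sub_left_eq_self _ y]
        refine lintegral_congr fun u => ?_
        by_cases hu : y - u ∈ S
        · simp only [hG, indicator_of_mem hu, sub_sub_cancel]
          rw [ENNReal.ofReal_mul (by positivity), ENNReal.ofReal_pow (norm_nonneg _),
            ofReal_norm_eq_enorm]
        · simp [hG0 _ hu, indicator_of_notMem hu]

theorem sq_fun {l : ℝ} (hl : 0 < l) (s : Finset ℤ) {g : ℝ → ℂ} (hg : Nice g) :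
    ∫⁻ y, (∑ ν ∈ s, ‖gv l ν g y‖ₑ ^ 2) ^ 2 ≤ 16 * Np volume 4 g := by
  have hk : Measurable ((Icc (-(1 / (8 * l))) (1 / (8 * l))).indicator
      fun _ : ℝ => ENNReal.ofReal (16 * l)) := measurable_const.indicator measurableSet_Icc
  have h := young_enn (p := 2) one_le_two hk (hg.meas.enorm.pow_const 2)
  rw [lintegral_indicator measurableSet_Icc, setLIntegral_const, Real.volume_Icc,
    ← ENNReal.ofReal_mul (by positivity),
    show 16 * l * (1 / (8 * l) - -(1 / (8 * l))) = 4 by field_simp; norm_num] at h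
  simp only [ENNReal.rpow_two, ← pow_mul] at h
  rw [Np_four]
  refine (lintegral_mono fun y => pow_le_pow_left' (bessel hl s hg y) 2).trans (h.trans_eq ?_)
  norm_num

end Vale.Agent.P117
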