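import Vale.Agent.P117.Cx
import Vale.Agent.P117.Schur

/-!
The bilinear Kakeya estimate. It suffices to treat `η ≤ 1`. Use `lintegral_cx`, shift `y = t + v ν * s`, swap. Diagonal terms:
`(∫ dc 2 (l² s)) * ∫ (h ν)²` and `∑ (h ν)² ≤ (∑ h ν)²`. For `ν ≠ μ` substitute `y' = y + (v μ - v ν) s`; with `d = |v μ - v ν| ∈ [l, 4]`,
`τ = y' - y`: `d⁻¹ * dc 2 (l² τ / d) ≤ d⁻¹ (1 + l² |τ| / d) ^ (-(1 + η)) = d ^ η (d + l² |τ|) ^ (-(1 + η)) ≤ 4 (l + l² |τ|) ^ (-(1 + η)) =: κ τ`.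
Sum: `∫∫ κ (y - y') H y H y' ≤ (∫ κ) ∫ H²` (`a b ≤ (a² + b²) / 2`, or Cauchy-Schwarz and `young_enn`), `lintegral_rpow_aff`.
-/

open MeasureTheory Set Real Filter
open scoped FourierTransform RealInnerProductSpace ContDiff ENNReal Topology

noncomputable section

namespace Vale.Agent.P117

/-- the correlation of two functions -/
def bilT (f g : ℝ → ℝ≥0∞) (τ : ℝ) : ℝ≥0∞ := ∫⁻ y, f y * g (y + τ)

theorem bil_meas {f g : ℝ → ℝ≥0∞} (hf : Measurable f) (hg : Measurable g) :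
    Measurable (bilT f g) :=
  Measurable.lintegral_prod_right' (f := fun q : ℝ × ℝ => f q.2 * g (q.2 + q.1)) (by fun_prop)

theorem bil_term {f g w : ℝ → ℝ≥0∞} (hf : Measurable f) (hg : Measurable g) (hw : Measurable w)
    (a b : ℝ) : ∫⁻ x : ℂ, w x.im * (f (x.re + a * x.im) * g (x.re + b * x.im)) =
      ∫⁻ z, w z * bilT f g ((b - a) * z) := by
  rw [lintegral_cx (by fun_prop)]
  refine lintegral_congr fun z => ?_
  rw [bilT, ← lintegral_add_right_eq_self (fun y => f y * g (y + (b - a) * z)) (a * z),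
    ← lintegral_const_mul _ (by fun_prop)]
  refine lintegral_congr fun t => ?_
  rw [show t + a * z + (b - a) * z = t + b * z by ring]

theorem bil_self {f : ℝ → ℝ≥0∞} (hf : Measurable f) (τ : ℝ) : bilT f f τ ≤ ∫⁻ y, f y ^ 2 := by
  have h := ENNReal.lintegral_mul_le_Lp_mul_Lq volume Real.HolderConjugate.two_two
    hf.aemeasurable (g := fun y => f (y + τ)) (by fun_prop)
  rw [lintegral_add_right_eq_self (fun y => f y ^ (2 : ℝ)) τ,
    ← ENNReal.rpow_add_of_nonneg _ _ (by norm_num) (by norm_num), add_halves,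
    ENNReal.rpow_one] at h
  simp only [ENNReal.rpow_two] at h
  exact h

theorem bil_sum (s : Finset ℤ) {h : ℤ → ℝ → ℝ≥0∞} (hh : ∀ ν, Measurable (h ν)) (τ : ℝ) :
    ∑ ν ∈ s, ∑ μ ∈ s, bilT (h ν) (h μ) τ ≤ ∫⁻ y, (∑ ν ∈ s, h ν y) ^ 2 := by
  refine le_of_eq_of_le ?_ (bil_self (Finset.measurable_sum s fun ν _ => hh ν) τ)
  simp only [bilT, Finset.sum_mul_sum]
  rw [lintegral_finset_sum _ fun ν _ => Finset.measurable_sum s fun μ _ => by fun_prop]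
  exact Finset.sum_congr rfl fun ν _ => (lintegral_finset_sum _ fun μ _ => by fun_prop).symm

theorem bil_real {σ l D u : ℝ} (h0 : 0 < σ) (h1 : σ ≤ 1) (hl : 0 < l) (hD : l ≤ D) (h4 : D ≤ 4)
    (hu : 0 ≤ u) : ((1 + u) ^ 2)⁻¹ ≤ D * (4 * (l + D * u) ^ (-(1 + σ))) := by
  have hD0 := hl.trans_le hD
  have h2 : (l + D * u) ^ (1 + σ) ≤ D * 4 * (1 + u) ^ 2 := by
    refine (rpow_le_rpow (by positivity) (show _ ≤ D * (1 + u) by linarith) (by positivity)).trans ?_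
    rw [mul_rpow hD0.le (by positivity), rpow_add hD0, rpow_one]
    refine mul_le_mul (mul_le_mul_of_nonneg_left ((rpow_le_rpow hD0.le h4 h0.le).trans ?_) hD0.le)
      ?_ (by positivity) (by positivity)
    · exact (rpow_le_rpow_of_exponent_le (by norm_num) h1).trans_eq (rpow_one 4)
    · rw [← rpow_two]
      exact rpow_le_rpow_of_exponent_le (by linarith) (by linarith)
  rw [rpow_neg (by positivity), ← mul_assoc, ← div_eq_mul_inv, inv_eq_one_div,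
    div_le_div_iff₀ (by positivity) (by positivity), one_mul]
  exact h2

theorem bil_off {σ l d : ℝ} (h0 : 0 < σ) (h1 : σ ≤ 1) (hl : 0 < l) (hD : l ≤ |d|) (h4 : |d| ≤ 4)
    {T : ℝ → ℝ≥0∞} (hT : Measurable T) :
    ∫⁻ z, ENNReal.ofReal (dc 2 (l ^ 2 * z)) * T (d * z) ≤
      ∫⁻ τ, ENNReal.ofReal (4 * (l + l ^ 2 * |τ|) ^ (-(1 + σ))) * T τ := by
  have hd : d ≠ 0 := abs_pos.1 (hl.trans_le hD)
  have h2 := lintegral_map (μ := volume) (g := fun z => d * z) (f := fun τ =>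
    ENNReal.ofReal (4 * (l + l ^ 2 * |τ|) ^ (-(1 + σ))) * T τ) (by fun_prop) (by fun_prop)
  rw [Real.map_volume_mul_left hd, lintegral_smul_measure, smul_eq_mul] at h2
  refine (lintegral_mono fun z => ?_).trans_eq
    ((lintegral_const_mul' (ENNReal.ofReal |d|) _ ENNReal.ofReal_ne_top).trans (by
      rw [← h2, ← mul_assoc, ← ENNReal.ofReal_mul (abs_nonneg _), ← abs_mul, mul_inv_cancel₀ hd,
        abs_one, ENNReal.ofReal_one, one_mul]))
  rw [← mul_assoc, ← ENNReal.ofReal_mul (abs_nonneg _)]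
  refine mul_le_mul_left (ENNReal.ofReal_le_ofReal ?_) _
  rw [abs_mul, mul_left_comm (l ^ 2), dc, abs_mul, abs_of_pos (pow_pos hl 2)]
  exact bil_real h0 h1 hl hD h4 (by positivity)

theorem bil {η : ℝ} (hη : 0 < η) : ∃ C : ℝ, 0 < C ∧ ∀ l : ℝ, 0 < l → l ≤ 1 →
    ∀ (s : Finset ℤ) (v : ℤ → ℝ) (h : ℤ → ℝ → ℝ≥0∞), (∀ ν, Measurable (h ν)) →
      (∀ ν ∈ s, ∀ μ ∈ s, l * |(ν : ℝ) - μ| ≤ |v ν - v μ| ∧ |v ν - v μ| ≤ 4) →
      ∑ ν ∈ s, ∑ μ ∈ s, ∫⁻ x : ℂ, ENNReal.ofReal (dc 2 (l ^ 2 * x.im)) *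
          (h ν (x.re + v ν * x.im) * h μ (x.re + v μ * x.im)) ≤
        ENNReal.ofReal (C * (l ^ 2)⁻¹ * l ^ (-η)) * ∫⁻ y, (∑ ν ∈ s, h ν y) ^ 2 := by
  obtain ⟨σ, h0, h1, h2⟩ : ∃ σ : ℝ, 0 < σ ∧ σ ≤ 1 ∧ σ ≤ η :=
    ⟨min 1 η, lt_min one_pos hη, min_le_left _ _, min_le_right _ _⟩
  refine ⟨2 + 8 / σ, by positivity, fun l hl hl1 s v h hh hv => ?_⟩
  have hw : Measurable fun z : ℝ => ENNReal.ofReal (dc 2 (l ^ 2 * z)) :=
    ((continuous_dc 2).comp (by fun_prop)).measurable.ennreal_ofReal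
  have hk : Measurable fun τ : ℝ => ENNReal.ofReal (4 * (l + l ^ 2 * |τ|) ^ (-(1 + σ))) := by
    fun_prop
  have hT := fun ν μ => bil_meas (hh ν) (hh μ)
  have hm : ∀ ν μ, Measurable fun τ : ℝ => ENNReal.ofReal (4 * (l + l ^ 2 * |τ|) ^ (-(1 + σ))) *
      bilT (h ν) (h μ) τ := fun ν μ => hk.mul (hT ν μ)
  have h3 : ∀ ν ∈ s, ∀ μ ∈ s, ∫⁻ x : ℂ, ENNReal.ofReal (dc 2 (l ^ 2 * x.im)) *
      (h ν (x.re + v ν * x.im) * h μ (x.re + v μ * x.im)) ≤
      ENNReal.ofReal (2 / l ^ 2) * bilT (h ν) (h μ) 0 +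
        ∫⁻ τ, ENNReal.ofReal (4 * (l + l ^ 2 * |τ|) ^ (-(1 + σ))) * bilT (h ν) (h μ) τ := by
    intro ν hν μ hμ
    rw [bil_term (hh ν) (hh μ) hw]
    by_cases e : μ = ν
    · rw [e, sub_self]
      simp only [zero_mul]
      rw [lintegral_mul_const _ hw]
      refine le_add_right (mul_le_mul_left ?_ _)
      simpa only [add_zero] using lintegral_dc_aff le_rfl (pow_pos hl 2) 0
    · refine le_add_left (bil_off h0 h1 hl (le_trans ?_ (hv μ hμ ν hν).1) (hv μ hμ ν hν).2 (hT _ _))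
      refine le_mul_of_one_le_right hl.le ?_
      exact_mod_cast Int.one_le_abs (sub_ne_zero.2 e)
  refine (Finset.sum_le_sum fun ν hν => Finset.sum_le_sum (h3 ν hν)).trans ?_
  have h4 : ∑ ν ∈ s, ∑ μ ∈ s, ∫⁻ τ, ENNReal.ofReal (4 * (l + l ^ 2 * |τ|) ^ (-(1 + σ))) *
      bilT (h ν) (h μ) τ ≤ ENNReal.ofReal (4 * (2 * l ^ (-σ) / (σ * l ^ 2))) *
        ∫⁻ y, (∑ ν ∈ s, h ν y) ^ 2 := by
    rw [Finset.sum_congr rfl fun ν _ => (lintegral_finset_sum _ fun μ _ => hm ν μ).symm,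
      ← lintegral_finset_sum _ fun ν _ => Finset.measurable_sum s fun μ _ => hm ν μ]
    simp only [← Finset.mul_sum]
    refine (lintegral_mono fun τ => mul_le_mul_right (bil_sum s hh τ) _).trans ?_
    rw [lintegral_mul_const _ hk]
    refine mul_le_mul_left ?_ _
    simp only [ENNReal.ofReal_mul (show (0 : ℝ) ≤ 4 by norm_num)]
    rw [lintegral_const_mul' _ _ ENNReal.ofReal_ne_top]
    refine mul_le_mul_right ?_ _
    simpa only [sub_zero] using lintegral_rpow_aff h0 (pow_pos hl 2) hl 0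
  simp only [Finset.sum_add_distrib, ← Finset.mul_sum]
  refine (add_le_add (mul_le_mul_right (bil_sum s hh 0) _) h4).trans ?_
  rw [← add_mul, ← ENNReal.ofReal_add (by positivity) (by positivity)]
  refine mul_le_mul_left (ENNReal.ofReal_le_ofReal ?_) _
  have h5 : l ^ (-σ) ≤ l ^ (-η) := rpow_le_rpow_of_exponent_ge hl hl1 (neg_le_neg h2)
  have h6 : 1 ≤ l ^ (-η) := one_le_rpow_of_pos_of_le_one_of_nonpos hl hl1 (by linarith)
  have h7 := add_le_add (mul_le_mul_of_nonneg_left h6 (show 0 ≤ 2 / l ^ 2 by positivity))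
    (mul_le_mul_of_nonneg_left h5 (show 0 ≤ 8 / (σ * l ^ 2) by positivity))
  refine le_of_eq_of_le (by ring) (h7.trans_eq (by ring))

end Vale.Agent.P117
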