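import Vale.Agent.P117.Cx
import Vale.Agent.P117.Decay

/-!
The operator `ext`. All proofs are Fubini on `ℂ × ℝ` (translation invariance of the measure on `ℂ`, `⟪(y : ℂ), ξ⟫ = y * ξ.re`).
`CapK.ker`: integrate first in `x.re` (`integrable_mk`, `integrable_prod_iff'`, `integral_dc_aff`); `‖om l x‖ ≤ 1 + |l² x.im|`.
`fourier_om_inv`: `K = 𝓕⁻ N` and `‖x‖ * ‖K x‖` are integrable (`Sm.decay`); `Real.hasFDerivAt_fourier` (or `Real.fderiv_fourier`)
identifies `𝓕 (x.im * K)` with a derivative of `𝓕 K = N`, which vanishes near `ξ`.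
-/

open MeasureTheory Set Real Filter
open scoped FourierTransform RealInnerProductSpace ContDiff ENNReal Topology

noncomputable section

namespace Vale.Agent.P117

variable {l D : ℝ} {ν : ℤ} {k : ℂ → ℂ} {g : ℝ → ℂ}

theorem norm_om_le (l : ℝ) (x : ℂ) : ‖om l x‖ ≤ 1 + |l ^ 2 * x.im| := by
  unfold om
  refine (norm_add_le _ _).trans_eq ?_
  rw [norm_one, norm_mul, Complex.norm_I, mul_one, Complex.norm_real, Real.norm_eq_abs]

theorem le_norm_om (l : ℝ) (x : ℂ) : (1 + |l ^ 2 * x.im|) / 2 ≤ ‖om l x‖ := by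
  have h1 := Complex.abs_re_le_norm (om l x)
  have h2 := Complex.abs_im_le_norm (om l x)
  have e1 : (om l x).re = 1 := by
    simp only [om, Complex.add_re, Complex.one_re, Complex.mul_I_re, Complex.ofReal_im, neg_zero,
      add_zero]
  have e2 : (om l x).im = l ^ 2 * x.im := by
    simp only [om, Complex.add_im, Complex.one_im, Complex.mul_I_im, Complex.ofReal_re, zero_add]
  rw [e1, abs_one] at h1
  rw [e2] at h2
  linarith

theorem continuous_om (l : ℝ) : Continuous (om l) := by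
  unfold om
  fun_prop

theorem capa_int (hl : 0 < l) (v : ℝ) :
    Integrable fun x : ℂ => dc 2 (l * (x.re + v * x.im)) * dc 2 (l ^ 2 * x.im) := by
  refine integrable_mk.1 ?_
  have hc : Continuous fun q : ℝ × ℝ => dc 2 (l * (q.1 + v * q.2)) * dc 2 (l ^ 2 * q.2) :=
    ((continuous_dc 2).comp (by fun_prop)).mul ((continuous_dc 2).comp (by fun_prop))
  refine (integrable_prod_iff' hc.aestronglyMeasurable).2 ⟨Eventually.of_forall fun z => ?_, ?_⟩
  · simp only [mul_add]
    exact (integrable_dc_aff le_rfl hl.ne' _).mul_const _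
  · have h1 := (integrable_dc_aff (n := 2) le_rfl (pow_pos hl 2).ne' 0).const_mul
      (l⁻¹ * ∫ t, dc 2 t)
    refine h1.congr (Eventually.of_forall fun z => ?_)
    simp only [add_zero, mul_add, norm_mul, Real.norm_eq_abs, abs_of_pos (dc_pos _ _)]
    rw [integral_mul_const, cx_aff hl]

theorem capa_ker (hl : 0 < l) {A v : ℝ} (hc : Continuous k)
    (h : ∀ x : ℂ, ‖k x‖ ≤ A * (dc 2 (l * (x.re + v * x.im)) * dc 2 (l ^ 2 * x.im))) : Ker k :=
  ⟨hc, ((capa_int hl v).const_mul A).mono' hc.aestronglyMeasurable (Eventually.of_forall h), A,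
    fun x => (cx_le (norm_nonneg _) (h x)).2.2⟩

theorem capa_om (h : CapK l D ν k) (x : ℂ) : ‖om l x * k x‖ ≤
    D * l ^ 3 * (dc 2 (l * (x.re + vel l ν * x.im)) * dc 2 (l ^ 2 * x.im)) := by
  rw [norm_mul]
  refine (mul_le_mul (norm_om_le l x) (h.bd x) (norm_nonneg _) (by positivity)).trans_eq ?_
  have e : (1 + |l ^ 2 * x.im|) * dc 3 (l ^ 2 * x.im) = dc 2 (l ^ 2 * x.im) := by
    unfold dc
    have : 0 < 1 + |l ^ 2 * x.im| := by positivity
    field_simp
  rw [← e]
  ring

theorem CapK.ker (hl : 0 < l) (h : CapK l D ν k) : Ker k := by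
  refine capa_ker hl h.cont fun x => le_trans ?_ (capa_om h x)
  rw [norm_mul]
  refine le_mul_of_one_le_left (norm_nonneg _) ?_
  have h1 := Complex.abs_re_le_norm (om l x)
  have e1 : (om l x).re = 1 := by
    simp only [om, Complex.add_re, Complex.one_re, Complex.mul_I_re, Complex.ofReal_im, neg_zero,
      add_zero]
  rwa [e1, abs_one] at h1

theorem CapK.ker_om (hl : 0 < l) (h : CapK l D ν k) : Ker fun x => om l x * k x :=
  capa_ker hl ((continuous_om l).mul h.cont) (capa_om h)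

theorem om_ext (l : ℝ) (k : ℂ → ℂ) (g : ℝ → ℂ) (x : ℂ) :
    om l x * ext k g x = ext (fun y => om l y * k y) g x := by
  unfold ext
  rw [← integral_const_mul]
  refine integral_congr_ae (Eventually.of_forall fun y => ?_)
  have e : om l (x - y) = om l x := by simp only [om, Complex.sub_im, Complex.ofReal_im, sub_zero]
  simp only [e, mul_assoc]

theorem capa_prod (hk : Ker k) (hg : Nice g) :
    Integrable (fun p : ℂ × ℝ => k (p.1 - p.2) * g p.2) (volume.prod volume) := by
  have hm : Measurable fun p : ℂ × ℝ => k (p.1 - p.2) * g p.2 :=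
    (hk.cont.comp (by fun_prop)).measurable.mul (hg.meas.comp measurable_snd)
  refine (integrable_prod_iff' hm.aestronglyMeasurable).2 ⟨Eventually.of_forall fun y => ?_, ?_⟩
  · exact (hk.int.comp_sub_right (y : ℂ)).mul_const (g y)
  · refine (hg.int.norm.const_mul (∫ x, ‖k x‖)).congr (Eventually.of_forall fun y => ?_)
    simp only [norm_mul]
    rw [integral_mul_const, integral_sub_right_eq_self (fun x => ‖k x‖) (y : ℂ)]

theorem ext_ker (hk : Ker k) (hg : Nice g) : Ker (ext k g) := by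
  obtain ⟨C, hC⟩ := hk.bdd
  have hb : ∀ (x : ℂ) (y : ℝ), ‖k (x - y) * g y‖ ≤ C * ‖g y‖ := fun x y => by
    rw [norm_mul]
    exact mul_le_mul_of_nonneg_right (hC _) (norm_nonneg _)
  refine ⟨?_, (capa_prod hk hg).integral_prod_left, ∫ y, C * ‖g y‖, fun x => ?_⟩
  · refine continuous_of_dominated (fun x => ?_) (fun x => Eventually.of_forall (hb x))
      (hg.int.norm.const_mul C) (Eventually.of_forall fun y => ?_)
    · exact (hk.cont.comp (by fun_prop)).aestronglyMeasurable.mul hg.int.1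
    · exact (hk.cont.comp (continuous_id.sub continuous_const)).mul continuous_const
  · exact norm_integral_le_of_norm_le (hg.int.norm.const_mul C) (Eventually.of_forall (hb x))

theorem capa_inner (y : ℝ) (ξ : ℂ) : ⟪(y : ℂ), ξ⟫ = ⟪y, ξ.re⟫ := by
  rw [inner_cx]
  simp [mul_comm]

theorem fourier_ext (hk : Ker k) (hg : Nice g) (ξ : ℂ) :
    𝓕 (ext k g) ξ = 𝓕 k ξ * 𝓕 g ξ.re := by
  have h1 : Integrable (Function.uncurry fun (x : ℂ) (y : ℝ) => 𝐞 (-⟪x, ξ⟫) • (k (x - y) * g y))
      (volume.prod volume) := by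
    have h2 := capa_prod hk hg
    refine h2.mono (AEStronglyMeasurable.smul (f := fun p : ℂ × ℝ => 𝐞 (-⟪p.1, ξ⟫))
      (Continuous.aestronglyMeasurable (by fun_prop)) h2.1) (Eventually.of_forall fun p => ?_)
    exact (Circle.norm_smul _ _).le
  have h2 := integral_integral_swap h1
  rw [Real.fourier_eq, Real.fourier_eq g, ← integral_const_mul]
  refine Eq.trans (integral_congr_ae (Eventually.of_forall fun x => ?_))
    (h2.trans (integral_congr_ae (Eventually.of_forall fun y => ?_)))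
  · simp only [ext, Circle.smul_def, smul_eq_mul]
    rw [integral_const_mul]
  · simp only
    rw [Real.fourier_eq k, ← integral_mul_const,
      ← integral_add_right_eq_self (fun x : ℂ => 𝐞 (-⟪x, ξ⟫) • (k (x - y) * g y)) (y : ℂ)]
    refine integral_congr_ae (Eventually.of_forall fun x => ?_)
    simp only [Circle.smul_def, smul_eq_mul, add_sub_cancel_right]
    rw [inner_add_left, neg_add, AddChar.map_add_eq_mul, Circle.coe_mul, capa_inner]
    ring

theorem ext_eq {N : ℂ → ℂ} (hN : Integrable N) (hg : Integrable g) (x : ℂ) :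
    ext (𝓕⁻ N) g x = 𝓕⁻ (fun ξ => N ξ * 𝓕 g ξ.re) x := by
  have h1 : Integrable (Function.uncurry fun (y : ℝ) (v : ℂ) => 𝐞 ⟪v, x - y⟫ • (g y * N v))
      (volume.prod volume) := by
    have h2 := hg.mul_prod hN
    refine h2.mono (AEStronglyMeasurable.smul (f := fun p : ℝ × ℂ => 𝐞 ⟪p.2, x - p.1⟫)
      (Continuous.aestronglyMeasurable (by fun_prop)) h2.1) (Eventually.of_forall fun p => ?_)
    exact (Circle.norm_smul _ _).le
  have h2 := integral_integral_swap h1
  rw [ext, Real.fourierInv_eq]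
  refine Eq.trans (integral_congr_ae (Eventually.of_forall fun y => ?_))
    (h2.trans (integral_congr_ae (Eventually.of_forall fun v => ?_)))
  · simp only
    rw [Real.fourierInv_eq, ← integral_mul_const]
    refine integral_congr_ae (Eventually.of_forall fun v => ?_)
    simp only [Circle.smul_def, smul_eq_mul]
    ring
  · simp only
    rw [Real.fourier_eq, Circle.smul_def, smul_eq_mul, ← integral_const_mul, ← integral_const_mul]
    refine integral_congr_ae (Eventually.of_forall fun y => ?_)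
    simp only [Circle.smul_def, smul_eq_mul]
    rw [inner_sub_right, sub_eq_add_neg, AddChar.map_add_eq_mul, Circle.coe_mul,
      real_inner_comm (y : ℂ) v, capa_inner]
    ring

theorem capa_mom {N : ℂ → ℂ} (hN : Sm N) : Integrable fun x : ℂ => ‖x‖ * ‖𝓕⁻ N x‖ := by
  obtain ⟨C, h0, hC⟩ := hN.decay 4
  have h1 : Integrable fun x : ℂ => (1 + ‖x‖) ^ (-3 : ℝ) :=
    integrable_one_add_norm (by simp; norm_num)
  refine (h1.const_mul C).mono' (continuous_norm.mul hN.ker_inv.cont.norm).aestronglyMeasurable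
    (Eventually.of_forall fun x => ?_)
  have hx : 0 < 1 + ‖x‖ := by positivity
  have e : (1 + ‖x‖) ^ (-3 : ℝ) = ((1 + ‖x‖) ^ 3)⁻¹ := by
    rw [rpow_neg hx.le]
    exact congrArg _ (by exact_mod_cast rpow_natCast (1 + ‖x‖) 3)
  rw [e, Real.norm_of_nonneg (by positivity)]
  calc ‖x‖ * ‖𝓕⁻ N x‖ ≤ (1 + ‖x‖) * (C * ((1 + ‖x‖) ^ 4)⁻¹) :=
        mul_le_mul (by linarith) (hC x) (norm_nonneg _) hx.le
    _ = C * ((1 + ‖x‖) ^ 3)⁻¹ := by field_simp

theorem fourier_om_inv {N : ℂ → ℂ} (hN : Sm N) (l : ℝ) {S : Set ℂ} (hS : IsClosed S)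
    (h : ∀ ξ ∉ S, N ξ = 0) {ξ : ℂ} (hξ : ξ ∉ S) : 𝓕 (fun x => om l x * 𝓕⁻ N x) ξ = 0 := by
  have hK := hN.ker_inv
  have hm := capa_mom hN
  have hL : Integrable (VectorFourier.fourierSMulRight (innerSL ℝ) (𝓕⁻ N)) :=
    (hm.const_mul (2 * π * ‖(innerSL ℝ : ℂ →L[ℝ] ℂ →L[ℝ] ℝ)‖)).mono' hK.int.1.fourierSMulRight
      (Eventually.of_forall fun x =>
        (VectorFourier.norm_fourierSMulRight_le _ _ _).trans (le_of_eq (mul_assoc _ _ _)))
  have h0 : fderiv ℝ N ξ = 0 := by
    have h1 : N =ᶠ[𝓝 ξ] fun _ => 0 := by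
      filter_upwards [hS.isOpen_compl.mem_nhds hξ] with y hy using h y hy
    rw [h1.fderiv_eq]
    simp
  have h1 := Real.fderiv_fourier hK.int hm
  rw [hN.fourier_inv] at h1
  have h2 : 𝓕 (fun x => VectorFourier.fourierSMulRight (innerSL ℝ) (𝓕⁻ N) x Complex.I) ξ = 0 := by
    rw [← Real.fourier_continuousLinearMap_apply hL, ← h1, h0]
    rfl
  have hI : Integrable fun x => VectorFourier.fourierSMulRight (innerSL ℝ) (𝓕⁻ N) x Complex.I :=
    hL.apply_continuousLinearMap _
  have e : (fun x => om l x * 𝓕⁻ N x) = fun x => 𝓕⁻ N x + (-(l ^ 2 / (2 * π)) : ℝ) *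
      VectorFourier.fourierSMulRight (innerSL ℝ) (𝓕⁻ N) x Complex.I := by
    funext x
    have e1 : innerSL ℝ x Complex.I = x.im := by
      change ⟪x, Complex.I⟫ = x.im
      rw [inner_cx]
      simp
    have hπ : (π : ℂ) ≠ 0 := by exact_mod_cast pi_ne_zero
    rw [VectorFourier.fourierSMulRight_apply, e1, om]
    simp only [smul_eq_mul, Complex.real_smul]
    push_cast
    field_simp
  rw [e, ← neg_neg ξ, ← Real.fourierInv_eq_fourier_neg, inv_add hK.int (hI.const_mul _),
    inv_const_mul, Real.fourierInv_eq_fourier_neg, Real.fourierInv_eq_fourier_neg, neg_neg, h2,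
    hN.fourier_inv, h ξ hξ]
  simp


end Vale.Agent.P117
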