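import Vale.Agent.P117.Cx

/-!
Geometry of the caps. `cap_near`: put `σ = ξ₁ + ξ₂ = ξ₃ + ξ₄`, `d = ξ₁ - ξ₂`, `d' = ξ₃ - ξ₄`, `ε = l²`,
`E = ⟪σ, d⟫ = ‖ξ₁‖² - ‖ξ₂‖²`, `|E| ≤ 4 ε`, `|‖d‖² - ‖d'‖²| ≤ 16 ε`, `σ.im² ‖d‖² = ‖σ‖² d.re² - 2 σ.re d.re E + E²`,
`|ξ.re| ≤ 4/5`, `σ.im ≥ 6/5`. Hence `|d.re² - d'.re²| ≤ 100 ε`, so `|d.re - d'.re| ≤ 10 l` or `|d.re + d'.re| ≤ 10 l`.
`vel_sep`: `x ↦ x * (1 / √(1 - x²) - 1)` is odd and monotone on `(-1, 1)`.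
-/

open MeasureTheory Set Real Filter
open scoped FourierTransform RealInnerProductSpace ContDiff ENNReal Topology

noncomputable section

namespace Vale.Agent.P117

variable {l : ℝ} {ν μ : ℤ}

theorem geo_core {x₁ x₂ x₃ x₄ y₁ y₂ y₃ y₄ ε : ℝ} (h0 : 0 < ε) (h1 : ε ≤ 1 / 400)
    (hx : x₁ + x₂ = x₃ + x₄) (hy : y₁ + y₂ = y₃ + y₄) (a₁ : 3 / 5 ≤ y₁) (a₂ : 3 / 5 ≤ y₂)
    (b₁ : 1 - 4 * ε ≤ x₁ ^ 2 + y₁ ^ 2 ∧ x₁ ^ 2 + y₁ ^ 2 ≤ 1)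
    (b₂ : 1 - 4 * ε ≤ x₂ ^ 2 + y₂ ^ 2 ∧ x₂ ^ 2 + y₂ ^ 2 ≤ 1)
    (b₃ : 1 - 4 * ε ≤ x₃ ^ 2 + y₃ ^ 2 ∧ x₃ ^ 2 + y₃ ^ 2 ≤ 1)
    (b₄ : 1 - 4 * ε ≤ x₄ ^ 2 + y₄ ^ 2 ∧ x₄ ^ 2 + y₄ ^ 2 ≤ 1) :
    (x₁ - x₂) ^ 2 - (x₃ - x₄) ^ 2 ≤ 100 * ε := by
  obtain rfl : x₄ = x₁ + x₂ - x₃ := by linarith
  obtain rfl : y₄ = y₁ + y₂ - y₃ := by linarith
  have k : ∀ {x y x' y' : ℝ}, x ^ 2 + y ^ 2 ≤ 1 → x' ^ 2 + y' ^ 2 ≤ 1 →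
      1 - 4 * ε ≤ x ^ 2 + y ^ 2 → 1 - 4 * ε ≤ x' ^ 2 + y' ^ 2 →
      |(x ^ 2 - x' ^ 2) * (x ^ 2 + y ^ 2 - (x' ^ 2 + y' ^ 2))| ≤ 1 * (4 * ε) :=
    fun {x y x' y'} c₂ c₄ c₅ c₆ => (abs_mul _ _).trans_le (mul_le_mul
      (abs_le.2 ⟨by linarith [sq_nonneg x, sq_nonneg y'], by linarith [sq_nonneg x', sq_nonneg y]⟩)
      (abs_le.2 ⟨by linarith, by linarith⟩) (abs_nonneg _) zero_le_one)
  have k₁ := (abs_le.1 (k b₁.2 b₂.2 b₁.1 b₂.1)).2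
  have k₂ := (abs_le.1 (k b₃.2 b₄.2 b₃.1 b₄.1)).1
  have k₃ : (x₃ ^ 2 + y₃ ^ 2 - ((x₁ + x₂ - x₃) ^ 2 + (y₁ + y₂ - y₃) ^ 2)) ^ 2 ≤ (4 * ε) ^ 2 :=
    sq_le_sq' (by linarith) (by linarith)
  have k₄ := sq_nonneg (x₁ ^ 2 + y₁ ^ 2 - (x₂ ^ 2 + y₂ ^ 2))
  have k₅ : (6 / 5) ^ 2 ≤ (y₁ + y₂) ^ 2 := sq_le_sq' (by linarith) (by linarith)
  have k₆ := mul_le_mul_of_nonneg_left (show 2 * (x₁ ^ 2 + y₁ ^ 2 + (x₂ ^ 2 + y₂ ^ 2)) -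
    2 * (x₃ ^ 2 + y₃ ^ 2 + ((x₁ + x₂ - x₃) ^ 2 + (y₁ + y₂ - y₃) ^ 2)) ≤ 16 * ε by linarith)
    (sq_nonneg (y₁ + y₂))
  by_contra h
  have k₇ := mul_le_mul_of_nonneg_left (not_le.1 h).le
    (add_nonneg (sq_nonneg (x₁ + x₂)) (sq_nonneg (y₁ + y₂)))
  have k₈ := mul_nonneg (sq_nonneg (x₁ + x₂)) h0.le
  have k₉ := mul_le_mul_of_nonneg_right k₅ h0.le
  have k₀ := mul_le_mul_of_nonneg_right h1 h0.le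
  linarith

theorem geo_near (h0 : 0 < l) {x y : ℝ} (h : |x - ν * l| ≤ l) (h' : |y - μ * l| ≤ l)
    (e : |x - y| ≤ 5 * l) : |ν - μ| ≤ 7 := by
  rw [abs_le] at *
  have h1 : ((ν : ℝ) - μ) * l ≤ 7 * l := by linarith
  have h2 : -7 * l ≤ ((ν : ℝ) - μ) * l := by linarith
  have h3 := le_of_mul_le_mul_right h2 h0
  have h4 := le_of_mul_le_mul_right h1 h0
  exact ⟨mod_cast h3, mod_cast h4⟩

theorem geo_pos {x y : ℝ} (h : 0 ≤ y) (h' : y ≤ x) (h1 : x ^ 2 < 1) :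
    0 ≤ y / √(1 - y ^ 2) - y ∧ y / √(1 - y ^ 2) - y ≤ x / √(1 - x ^ 2) - x := by
  have h2 : 0 < √(1 - x ^ 2) := sqrt_pos.2 (by linarith)
  have h3 : √(1 - x ^ 2) ≤ √(1 - y ^ 2) := sqrt_le_sqrt (by nlinarith)
  have h4 : 1 ≤ (√(1 - y ^ 2))⁻¹ :=
    (one_le_inv₀ (h2.trans_le h3)).2 (sqrt_le_one.2 (by nlinarith))
  have h5 := inv_anti₀ h2 h3
  rw [div_eq_mul_inv, div_eq_mul_inv]
  constructor <;> nlinarith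

theorem geo_mono {x y : ℝ} (h : y ≤ x) (h1 : x ^ 2 < 1) (h2 : y ^ 2 < 1) :
    x - y ≤ x / √(1 - x ^ 2) - y / √(1 - y ^ 2) := by
  rcases le_total 0 y with a | a
  · linarith [(geo_pos a h h1).2]
  rcases le_total 0 x with b | b
  · have h3 := (geo_pos b le_rfl h1).1
    have h4 := (geo_pos (neg_nonneg.2 a) le_rfl (by rwa [neg_sq])).1
    rw [neg_sq, neg_div] at h4
    linarith
  · have h4 := (geo_pos (neg_nonneg.2 b) (neg_le_neg h) (by rwa [neg_sq])).2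
    rw [neg_sq, neg_sq, neg_div, neg_div] at h4
    linarith

theorem isClosed_cap (l : ℝ) (ν : ℤ) : IsClosed (Cap l ν) := by
  refine IsClosed.and ?_ (.and ?_ (.and ?_ ?_)) <;> exact isClosed_le (by fun_prop) (by fun_prop)
theorem norm_le_of_cap {ξ : ℂ} (h : ξ ∈ Cap l ν) : ‖ξ‖ ≤ 1 :=
  (sq_le_one_iff₀ (norm_nonneg _)).1 h.2.2.2
theorem cap_near (h0 : 0 < l) (h1 : l ≤ 1 / 20) {a b c d : ℤ} {ξ₁ ξ₂ ξ₃ ξ₄ : ℂ} (m₁ : ξ₁ ∈ Cap l a)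
    (m₂ : ξ₂ ∈ Cap l b) (m₃ : ξ₃ ∈ Cap l c) (m₄ : ξ₄ ∈ Cap l d) (e : ξ₁ + ξ₂ = ξ₃ + ξ₄) :
    Near a b c d := by
  simp only [Cap, mem_ofPred_eq, norm_sq_cx] at m₁ m₂ m₃ m₄
  have hx : ξ₁.re + ξ₂.re = ξ₃.re + ξ₄.re := congrArg Complex.re e
  have hy : ξ₁.im + ξ₂.im = ξ₃.im + ξ₄.im := congrArg Complex.im e
  have h2 : l ^ 2 ≤ 1 / 400 := by nlinarith
  have k₁ := geo_core (pow_pos h0 2) h2 hx hy m₁.2.1 m₂.2.1 m₁.2.2 m₂.2.2 m₃.2.2 m₄.2.2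
  have k₂ := geo_core (pow_pos h0 2) h2 hx.symm hy.symm m₃.2.1 m₄.2.1 m₃.2.2 m₄.2.2 m₁.2.2 m₂.2.2
  have k₃ : |ξ₁.re - ξ₃.re| * |ξ₁.re - ξ₄.re| ≤ 5 * l * (5 * l) := by
    rw [← abs_mul, abs_le]
    obtain h : ξ₂.re = ξ₃.re + ξ₄.re - ξ₁.re := by linarith
    rw [h] at k₁ k₂
    constructor <;> nlinarith
  rcases le_or_gt |ξ₁.re - ξ₃.re| (5 * l) with h | h
  · exact Or.inl ⟨geo_near h0 m₁.1 m₃.1 h, geo_near h0 m₂.1 m₄.1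
      (by rwa [show ξ₂.re - ξ₄.re = -(ξ₁.re - ξ₃.re) by linarith, abs_neg])⟩
  · have h' : |ξ₁.re - ξ₄.re| ≤ 5 * l := by
      by_contra h'
      exact (mul_lt_mul'' h (not_le.1 h') (by positivity) (by positivity)).not_ge k₃
    exact Or.inr ⟨geo_near h0 m₁.1 m₄.1 h', geo_near h0 m₂.1 m₃.1
      (by rwa [show ξ₂.re - ξ₃.re = -(ξ₁.re - ξ₄.re) by linarith, abs_neg])⟩
theorem idx_abs (h0 : 0 < l) (h : ν ∈ idx l) : |ν * l| ≤ 17 / 20 := by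
  have h1 : |(ν : ℝ)| ≤ 17 / (20 * l) := by
    rw [← Int.cast_abs]
    exact Int.le_floor.1 (abs_le.2 (Finset.mem_Icc.1 h))
  rw [le_div_iff₀ (by positivity)] at h1
  rw [abs_mul, abs_of_pos h0]
  linarith
theorem idx_cover (h0 : 0 < l) (h1 : l ≤ 1 / 20) {ρ : ℝ} (h : |ρ| ≤ 4 / 5) :
    |ρ / l| ≤ (⌊17 / (20 * l)⌋ : ℤ) := by
  refine le_trans ?_ (Int.sub_one_lt_floor _).le
  rw [abs_div, abs_of_pos h0, div_le_iff₀ h0, sub_mul, div_mul_eq_mul_div,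
    mul_div_mul_right _ _ h0.ne']
  linarith
theorem sqrt_ge (h0 : 0 < l) (h : ν ∈ idx l) : 1 / 2 ≤ √(1 - (ν * l) ^ 2) := by
  have h1 := abs_le.1 (idx_abs h0 h)
  exact le_sqrt_of_sq_le (by nlinarith)
theorem vel_abs (h0 : 0 < l) (h : ν ∈ idx l) : |vel l ν| ≤ 2 := by
  have h1 := sqrt_ge h0 h
  rw [vel, abs_div, abs_neg, abs_of_nonneg (sqrt_nonneg _), div_le_iff₀ (by linarith)]
  linarith [idx_abs h0 h]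
theorem vel_sep (h0 : 0 < l) (h : ν ∈ idx l) (h' : μ ∈ idx l) :
    l * |(ν : ℝ) - μ| ≤ |vel l ν - vel l μ| ∧ |vel l ν - vel l μ| ≤ 4 := by
  refine ⟨?_, (abs_sub _ _).trans (by linarith [vel_abs h0 h, vel_abs h0 h'])⟩
  have h1 : ((ν : ℝ) * l) ^ 2 < 1 := (sq_lt_one_iff_abs_lt_one _).2 (by linarith [idx_abs h0 h])
  have h2 : ((μ : ℝ) * l) ^ 2 < 1 := (sq_lt_one_iff_abs_lt_one _).2 (by linarith [idx_abs h0 h'])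
  nth_rw 1 [← abs_of_pos h0]
  rw [← abs_mul, mul_comm, sub_mul, vel, vel, neg_div, neg_div]
  rcases le_total ((μ : ℝ) * l) (ν * l) with a | a
  · rw [abs_of_nonneg (sub_nonneg.2 a)]
    exact le_abs.2 (Or.inr (by linarith [geo_mono a h1 h2]))
  · rw [abs_of_nonpos (sub_nonpos.2 a)]
    exact le_abs.2 (Or.inl (by linarith [geo_mono a h2 h1]))

end Vale.Agent.P117
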