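import Vale.Agent.P117.CapA
import Vale.Agent.P117.CutA
import Vale.Agent.P117.Geo

/-!
The kernel of a cap. With `ρ₀ = ν l`, `γ = √(1 - ρ₀²)`, `v = vel l ν = -ρ₀ / γ` substitute
`ξ = ⟨ρ₀ + l a, γ + v l a + l² b⟩` (Jacobian `l³`; do it with `integral_cx'` and two one-dimensional affine substitutions, or
with a linear map). Then `(1 - ‖ξ‖²) / l² = -2 γ b - a² - (v a + l b)²`, `ξ.re / l - ν = a` and
`⟪ξ, x⟫ = const + a * (l (x.re + v x.im)) + b * (l² x.im)`. So `‖𝓕⁻ capM x‖ = l³ ‖𝓕⁻ (N (P, ·)) x'‖` where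
`N ((ρ₀, γ, v, l), y) = φ (-2 γ y.im - y.re² - (v y.re + l y.im)²) * q ⟨ρ₀ + l y.re, γ + v l y.re + l² y.im⟩ * ψ y.re` is smooth.
On the compact set `[-1,1] × [1/2,1] × [-2,2] × [0,1/20]` it vanishes unless `|y.re| ≤ 1`, `-12 ≤ y.im ≤ 0` (use `q = 0` for
`ξ.im < 3/5`: `l² |b| ≤ γ + 2 l - 3/5`). Apply `unif_decay` with `n = 5`; `(1 + ‖x'‖)⁻⁵ ≤ dc 2 x'.re * dc 3 x'.im`.
-/

open MeasureTheory Set Real Filter
open scoped FourierTransform RealInnerProductSpace ContDiff ENNReal Topology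

noncomputable section

namespace Vale.Agent.P117

variable {φ ψ : ℝ → ℂ} {q : ℂ → ℂ}

theorem capM_sm (hφ : Prof φ) (hq : ContDiff ℝ ∞ q) (hψ : ContDiff ℝ ∞ ψ) {l : ℝ} (hl : 0 < l)
    (ν : ℤ) : Sm (capM φ q ψ l ν) :=
  ((ann_sm hφ (pow_pos hl 2)).mul hq).mul
    (hψ.comp ((Complex.reCLM.contDiff.div_const l).sub contDiff_const))

/-- the rescaled multiplier -/
def capb_N (φ : ℝ → ℂ) (q : ℂ → ℂ) (ψ : ℝ → ℂ) (w : (ℝ × ℝ × ℝ × ℝ) × ℂ) : ℂ :=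
  φ (-2 * w.1.2.1 * w.2.im - w.2.re ^ 2 - (w.1.2.2.1 * w.2.re + w.1.2.2.2 * w.2.im) ^ 2) *
    q ⟨w.1.1 + w.1.2.2.2 * w.2.re,
      w.1.2.1 + w.1.2.2.1 * w.1.2.2.2 * w.2.re + w.1.2.2.2 ^ 2 * w.2.im⟩ * ψ w.2.re

theorem capb_smooth (hφ : Prof φ) (hq : ContDiff ℝ ∞ q) (hψ : ContDiff ℝ ∞ ψ) :
    ContDiff ℝ ∞ (capb_N φ q ψ) := by
  have hre : ContDiff ℝ ∞ fun w : (ℝ × ℝ × ℝ × ℝ) × ℂ => w.2.re :=
    Complex.reCLM.contDiff.comp contDiff_snd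
  have him : ContDiff ℝ ∞ fun w : (ℝ × ℝ × ℝ × ℝ) × ℂ => w.2.im :=
    Complex.imCLM.contDiff.comp contDiff_snd
  have h1 : ContDiff ℝ ∞ fun w : (ℝ × ℝ × ℝ × ℝ) × ℂ => w.1.1 := by fun_prop
  have h2 : ContDiff ℝ ∞ fun w : (ℝ × ℝ × ℝ × ℝ) × ℂ => w.1.2.1 := by fun_prop
  have h3 : ContDiff ℝ ∞ fun w : (ℝ × ℝ × ℝ × ℝ) × ℂ => w.1.2.2.1 := by fun_prop
  have h4 : ContDiff ℝ ∞ fun w : (ℝ × ℝ × ℝ × ℝ) × ℂ => w.1.2.2.2 := by fun_prop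
  have hmk : ContDiff ℝ ∞ fun u : ℝ × ℝ => (⟨u.1, u.2⟩ : ℂ) :=
    Complex.equivRealProdCLM.symm.contDiff
  exact ((hφ.smooth.comp ((((contDiff_const.mul h2).mul him).sub (hre.pow 2)).sub
    (((h3.mul hre).add (h4.mul him)).pow 2))).mul
    (hq.comp (hmk.comp ((h1.add (h4.mul hre)).prodMk
      ((h2.add ((h3.mul h4).mul hre)).add ((h4.pow 2).mul him)))))).mul (hψ.comp hre)

theorem capb_arith {γ v l a b : ℝ} (hγ : 1 / 2 ≤ γ) (hv : |v| ≤ 2) (hl0 : 0 ≤ l)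
    (hl : l ≤ 1 / 20) (ha : |a| ≤ 1) (h1 : 1 / 4 ≤ -2 * γ * b - a ^ 2 - (v * a + l * b) ^ 2)
    (h2 : -2 * γ * b - a ^ 2 - (v * a + l * b) ^ 2 ≤ 4) (h3 : 3 / 5 ≤ γ + v * l * a + l ^ 2 * b) :
    |b| ≤ 12 := by
  have hb : b ≤ 0 := by
    by_contra h
    have := mul_pos (by linarith : 0 < γ) (not_le.1 h)
    nlinarith [sq_nonneg a, sq_nonneg (v * a + l * b)]
  have hva : |v * a| ≤ 2 := by
    rw [abs_mul]
    nlinarith [abs_nonneg v, abs_nonneg a]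
  obtain ⟨u, hu⟩ : ∃ u, u = v * a := ⟨_, rfl⟩
  have e : v * l * a = l * u := by rw [hu]; ring
  rw [← hu] at hva h1 h2
  rw [e] at h3
  obtain ⟨u1, u2⟩ := abs_le.1 hva
  obtain ⟨a1, a2⟩ := abs_le.1 ha
  have c1 : l * u ≤ 1 / 10 := by nlinarith
  have c2 : -(1 / 10) ≤ l * u := by nlinarith
  have c3 : l ^ 2 * b * b ≤ (γ - 1 / 2) * (-b) := by nlinarith
  have c4 : l * u * b ≤ 1 / 10 * (-b) := by nlinarith
  have c5 : u ^ 2 ≤ 4 := by nlinarith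
  have c6 : a ^ 2 ≤ 1 := by nlinarith
  have c7 : 1 / 2 * (-b) ≤ γ * (-b) := mul_le_mul_of_nonneg_right hγ (by linarith)
  rw [abs_of_nonpos hb]
  nlinarith

theorem capb_van (hφ : Prof φ) (hq0 : ∀ ξ : ℂ, ξ.im < 3 / 5 → q ξ = 0)
    (hψ0 : ∀ a, 1 ≤ |a| → ψ a = 0) :
    ∀ a ∈ Icc (-1 : ℝ) 1 ×ˢ Icc (1 / 2 : ℝ) 1 ×ˢ Icc (-2 : ℝ) 2 ×ˢ Icc (0 : ℝ) (1 / 20),
      ∀ y : ℂ, 13 < ‖y‖ → capb_N φ q ψ (a, y) = 0 := by
  rintro ⟨ρ, γ, v, l⟩ ⟨-, hγ, hv, hl⟩ y hy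
  by_contra h
  simp only [capb_N, mul_eq_zero, not_or] at h
  obtain ⟨⟨h1, h2⟩, h3⟩ := h
  have a1 : |y.re| ≤ 1 := le_of_not_ge fun hh => h3 (hψ0 _ hh)
  have a2 := not_not.1 fun hh => h1 (hφ.supp _ hh)
  have a3 := not_lt.1 fun hh => h2 (hq0 _ hh)
  have a4 := capb_arith hγ.1 (abs_le.2 hv) hl.1 hl.2 a1 a2.1 a2.2 a3
  have := Complex.norm_le_abs_re_add_abs_im y
  linarith

theorem capb_aff1 (G : ℝ → ℂ) {l : ℝ} (hl : 0 < l) (c : ℝ) :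
    ∫ t, G t = l * ∫ a, G (c + l * a) := by
  have h1 := Measure.integral_comp_mul_left (fun t => G (c + t)) l
  rw [integral_add_left_eq_self, abs_of_pos (inv_pos.2 hl)] at h1
  rw [h1, Complex.real_smul, ← mul_assoc, ← Complex.ofReal_mul, mul_inv_cancel₀ hl.ne',
    Complex.ofReal_one, one_mul]

theorem capb_aff {F : ℂ → ℂ} {l : ℝ} (hl : 0 < l) (ρ γ v : ℝ) (hF : Integrable F)
    (hF' : Integrable fun y : ℂ => F ⟨ρ + l * y.re, γ + v * l * y.re + l ^ 2 * y.im⟩) :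
    ∫ ξ, F ξ = (l ^ 3 : ℝ) * ∫ y : ℂ, F ⟨ρ + l * y.re, γ + v * l * y.re + l ^ 2 * y.im⟩ := by
  rw [integral_cx' hF, integral_cx' hF', capb_aff1 _ hl ρ]
  have h : ∀ a : ℝ, ∫ z : ℝ, F ⟨ρ + l * a, z⟩ =
      (l ^ 2 : ℝ) * ∫ b : ℝ, F ⟨ρ + l * a, γ + v * l * a + l ^ 2 * b⟩ := fun a =>
    capb_aff1 (fun z => F ⟨ρ + l * a, z⟩) (pow_pos hl 2) _
  simp only [h]
  rw [integral_const_mul]
  push_cast
  ring

theorem capb_int {M : ℂ → ℂ} (hM : Integrable M) {θ : ℂ → ℝ} (hθ : Continuous θ) :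
    Integrable fun y => Complex.exp ((θ y : ℂ) * Complex.I) * M y :=
  hM.bdd_mul (c := 1) (by fun_prop : Continuous fun y => Complex.exp ((θ y : ℂ) * Complex.I)
    ).aestronglyMeasurable (Eventually.of_forall fun y => by
      rw [Complex.norm_exp_ofReal_mul_I])

theorem capb_norm {M N : ℂ → ℂ} (hM : Integrable M) (hN : Integrable N) {l : ℝ} (hl : 0 < l)
    (ρ γ v : ℝ) (h : ∀ y : ℂ, M ⟨ρ + l * y.re, γ + v * l * y.re + l ^ 2 * y.im⟩ = N y) (x : ℂ) :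
    ‖𝓕⁻ M x‖ = l ^ 3 * ‖𝓕⁻ N ⟨l * (x.re + v * x.im), l ^ 2 * x.im⟩‖ := by
  have e : ∀ y : ℂ, Complex.exp (((2 * π * ⟪(⟨ρ + l * y.re, γ + v * l * y.re + l ^ 2 * y.im⟩ : ℂ),
      x⟫ : ℝ) : ℂ) * Complex.I) * M ⟨ρ + l * y.re, γ + v * l * y.re + l ^ 2 * y.im⟩ =
      Complex.exp (((2 * π * (ρ * x.re + γ * x.im) : ℝ) : ℂ) * Complex.I) *
        (Complex.exp (((2 * π * ⟪y, (⟨l * (x.re + v * x.im), l ^ 2 * x.im⟩ : ℂ)⟫ : ℝ) : ℂ) *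
          Complex.I) * N y) := by
    intro y
    rw [h, ← mul_assoc, ← Complex.exp_add, ← add_mul, ← Complex.ofReal_add, inner_cx, inner_cx]
    congr 4
    ring
  rw [fourierInv_eq', fourierInv_eq']
  simp only [smul_eq_mul]
  rw [capb_aff hl ρ γ v (capb_int hM (by fun_prop)) (by
    simp only [e]
    exact (capb_int hN (by fun_prop)).const_mul _)]
  simp only [e]
  rw [integral_const_mul, norm_mul, norm_mul, Complex.norm_exp_ofReal_mul_I, one_mul,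
    Complex.norm_real, Real.norm_eq_abs, abs_of_pos (pow_pos hl 3)]

theorem capb_eq {l : ℝ} (hl : 0 < l) {ν : ℤ} (hν : ν ∈ idx l) (y : ℂ) :
    capM φ q ψ l ν ⟨ν * l + l * y.re,
      √(1 - (ν * l) ^ 2) + vel l ν * l * y.re + l ^ 2 * y.im⟩ =
      capb_N φ q ψ ((ν * l, √(1 - (ν * l) ^ 2), vel l ν, l), y) := by
  have h1 := sqrt_ge hl hν
  have h2 := abs_le.1 (idx_abs hl hν)
  have h3 : √(1 - (ν * l) ^ 2) ^ 2 = 1 - (ν * l) ^ 2 := sq_sqrt (by nlinarith)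
  have h4 : vel l ν * √(1 - (ν * l) ^ 2) = -(ν * l) := div_mul_cancel₀ _ (by linarith)
  simp only [capM, ann, capb_N, norm_sq_cx]
  generalize √(1 - (ν * l) ^ 2) = γ at h3 h4
  generalize vel l ν = v at h4
  congr 3
  · rw [div_eq_iff (by positivity)]
    linear_combination (-1) * h3 - 2 * l * y.re * h4
  · field_simp
    ring

theorem capb_dc (y : ℂ) : ((1 + ‖y‖) ^ 5)⁻¹ ≤ dc 2 y.re * dc 3 y.im := by
  rw [dc, dc, ← mul_inv]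
  refine inv_anti₀ (by positivity) ?_
  have h1 := Complex.abs_re_le_norm y
  have h2 := Complex.abs_im_le_norm y
  calc (1 + |y.re|) ^ 2 * (1 + |y.im|) ^ 3 ≤ (1 + ‖y‖) ^ 2 * (1 + ‖y‖) ^ 3 := by gcongr
    _ = _ := by ring

theorem cap_kernel (hφ : Prof φ) (hq : ContDiff ℝ ∞ q) (hq0 : ∀ ξ : ℂ, ξ.im < 3 / 5 → q ξ = 0)
    (hψ : ContDiff ℝ ∞ ψ) (hψ0 : ∀ a, 1 ≤ |a| → ψ a = 0) :
    ∃ D, 0 ≤ D ∧ ∀ l : ℝ, 0 < l → l ≤ 1 / 20 → ∀ ν ∈ idx l,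
      CapK l D ν (𝓕⁻ (capM φ q ψ l ν)) := by
  have hs := capb_smooth hφ hq hψ
  have hv := capb_van hφ hq0 hψ0
  obtain ⟨C, hC, hd⟩ := unif_decay hs
    (isCompact_Icc.prod (isCompact_Icc.prod (isCompact_Icc.prod isCompact_Icc))) hv 5
  refine ⟨C, hC, fun l hl hl1 ν hν => ?_⟩
  have hM := capM_sm hφ hq hψ hl ν
  refine ⟨hM.ker_inv.cont, fun x => ?_, fun ξ hξ =>
    fourier_om_inv hM l (isClosed_cap l ν) (fun ξ hξ => ?_) hξ⟩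
  · have h2 := abs_le.1 (idx_abs hl hν)
    have hP : (ν * l, √(1 - (ν * l) ^ 2), vel l ν, l) ∈
        Icc (-1 : ℝ) 1 ×ˢ Icc (1 / 2 : ℝ) 1 ×ˢ Icc (-2 : ℝ) 2 ×ˢ Icc (0 : ℝ) (1 / 20) :=
      ⟨⟨by linarith, by linarith⟩, ⟨sqrt_ge hl hν, sqrt_le_one.2 (by nlinarith)⟩,
        abs_le.1 (vel_abs hl hν), hl.le, hl1⟩
    have hN : Sm fun y : ℂ => capb_N φ q ψ ((ν * l, √(1 - (ν * l) ^ 2), vel l ν, l), y) :=
      ⟨hs.comp (contDiff_const.prodMk contDiff_id), HasCompactSupport.intro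
        (isCompact_closedBall 0 13) fun y hy => hv _ hP y (by simpa using hy)⟩
    rw [capb_norm hM.ker.int hN.ker.int hl _ _ _ (capb_eq hl hν) x, mul_comm C, mul_assoc]
    exact mul_le_mul_of_nonneg_left ((hd _ hP _).trans
      (mul_le_mul_of_nonneg_left (capb_dc _) hC)) (by positivity)
  · by_contra h
    simp only [capM, mul_eq_zero, not_or] at h
    obtain ⟨⟨h1, h2⟩, h3⟩ := h
    have a1 : |ξ.re / l - ν| ≤ 1 := le_of_not_ge fun hh => h3 (hψ0 _ hh)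
    refine hξ ⟨?_, not_lt.1 fun hh => h2 (hq0 _ hh), ann_ne hφ (pow_pos hl 2) h1⟩
    have e : ξ.re - ν * l = (ξ.re / l - ν) * l := by field_simp
    rw [e, abs_mul, abs_of_pos hl]
    exact mul_le_of_le_one_left hl.le a1

end Vale.Agent.P117
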