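import Vale.Agent.P117.Four

/-!
The modulated boxes. `fourier_eta`: substitute `u = w / l`. `exists_psi`: `ψ₀ a = σ (a + 1) - σ a` with `σ = Real.smoothTransition`
telescopes; `eh` is smooth (`Real.contDiff_fourier`, compact support) and its real part `∫_{|u| ≤ 1/8} 4 cos (2 π a u)` is positive for
`|a| ≤ 3/2`; take `ψ = ψ₀ / eh` (smooth at points `|a| < 3/2`, locally zero at points `1 < |a|`).
-/

open MeasureTheory Set Real Filter
open scoped FourierTransform RealInnerProductSpace ContDiff ENNReal Topology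

noncomputable section

namespace Vale.Agent.P117

variable {l : ℝ}

theorem eta_nice (hl : 0 < l) (ν : ℤ) : Nice (eta l ν) := by
  have hc : Continuous fun u : ℝ =>
      ((4 * l : ℝ) : ℂ) * Complex.exp (((2 * π * (ν * l * u) : ℝ) : ℂ) * Complex.I) := by
    fun_prop
  refine ⟨hc.measurable.indicator measurableSet_Icc,
    (integrable_indicator_iff measurableSet_Icc).2 hc.integrableOn_Icc, 4 * l, fun x => ?_⟩
  refine (norm_indicator_le_norm_self _ _).trans_eq ?_
  rw [norm_mul, Complex.norm_exp_ofReal_mul_I, mul_one, Complex.norm_real, Real.norm_eq_abs,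
    abs_of_pos (by positivity)]

theorem gv_nice (hl : 0 < l) (ν : ℤ) {g : ℝ → ℂ} (hg : Nice g) : Nice (gv l ν g) :=
  cv_nice (eta_nice hl ν) hg

theorem fourier_eta (hl : 0 < l) (ν : ℤ) (ρ : ℝ) : 𝓕 (eta l ν) ρ = eh (ρ / l - ν) := by
  rw [eh, fourier_real_eq_integral_exp_smul, fourier_real_eq_integral_exp_smul]
  have h := Measure.integral_comp_mul_left
    (fun v : ℝ => Complex.exp (↑(-2 * π * v * (ρ / l - ν)) * Complex.I) • eta 1 0 v) l
  have h2 : ∀ v : ℝ, Complex.exp (↑(-2 * π * v * ρ) * Complex.I) • eta l ν v =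
      l • (Complex.exp (↑(-2 * π * (l * v) * (ρ / l - ν)) * Complex.I) • eta 1 0 (l * v)) := by
    intro v
    have e : v ∈ Icc (-(1 / (8 * l))) (1 / (8 * l)) ↔
        l * v ∈ Icc (-(1 / (8 * 1) : ℝ)) (1 / (8 * 1)) := by
      simp only [mem_Icc, ← abs_le, abs_mul, abs_of_pos hl]
      rw [le_div_iff₀ (by positivity), le_div_iff₀ (by positivity)]
      constructor <;> intro h <;> linarith
    unfold eta
    by_cases hv : v ∈ Icc (-(1 / (8 * l))) (1 / (8 * l))
    · rw [indicator_of_mem hv, indicator_of_mem (e.1 hv)]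
      have e2 : -2 * π * (l * v) * (ρ / l - ν) = -2 * π * v * ρ + 2 * π * (ν * l * v) := by
        field_simp
        ring
      rw [e2, Complex.ofReal_add, add_mul, Complex.exp_add]
      simp only [smul_eq_mul, Complex.real_smul, Int.cast_zero, zero_mul, mul_zero,
        Complex.ofReal_zero, Complex.exp_zero, mul_one]
      push_cast
      ring
    · rw [indicator_of_notMem hv, indicator_of_notMem (fun h => hv (e.2 h))]
      simp
  simp only [h2]
  rw [integral_smul, h, smul_smul, abs_of_pos (inv_pos.2 hl), mul_inv_cancel₀ hl.ne', one_smul]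

theorem fourier_gv (hl : 0 < l) (ν : ℤ) {g : ℝ → ℂ} (hg : Nice g) (ρ : ℝ) :
    𝓕 (gv l ν g) ρ = eh (ρ / l - ν) * 𝓕 g ρ := by
  rw [gv, fourier_cv (eta_nice hl ν).int hg.int, fourier_eta hl]

theorem eta_smooth : ContDiff ℝ ∞ eh := by
  refine Real.contDiff_fourier (N := ⊤) fun n _ => ?_
  have h := (eta_nice one_pos 0).int.norm
  refine h.mono' ((measurable_norm.pow_const n).mul
    (eta_nice one_pos 0).meas.norm).aestronglyMeasurable (Eventually.of_forall fun v => ?_)
  rw [Real.norm_eq_abs, abs_of_nonneg (by positivity)]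
  by_cases hv : v ∈ Icc (-(1 / (8 * 1) : ℝ)) (1 / (8 * 1))
  · refine mul_le_of_le_one_left (norm_nonneg _) (pow_le_one₀ (norm_nonneg _) ?_)
    rw [Real.norm_eq_abs, abs_le]
    constructor <;> linarith [hv.1, hv.2]
  · simp only [eta, indicator_of_notMem hv, norm_zero, mul_zero, le_refl]

theorem eta_ne {a : ℝ} (ha : |a| < 3 / 2) : eh a ≠ 0 := by
  have hc : Continuous fun v : ℝ => Complex.exp (↑(-2 * π * v * a) * Complex.I) * 4 := by
    fun_prop
  have e : eh a = ∫ v in (-(1 / 8) : ℝ)..(1 / 8),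
      Complex.exp (↑(-2 * π * v * a) * Complex.I) * 4 := by
    rw [eh, fourier_real_eq_integral_exp_smul, intervalIntegral.integral_of_le (by norm_num),
      ← integral_Icc_eq_integral_Ioc, ← integral_indicator measurableSet_Icc]
    refine integral_congr_ae (Eventually.of_forall fun v => ?_)
    simp only [eta, mul_one]
    by_cases hv : v ∈ Icc (-(1 / 8) : ℝ) (1 / 8)
    · simp only [indicator_of_mem hv]
      simp
    · simp only [indicator_of_notMem hv, smul_zero]
  have h1 : 0 < ∫ v in (-(1 / 8) : ℝ)..(1 / 8),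
      Complex.reCLM (Complex.exp (↑(-2 * π * v * a) * Complex.I) * 4) := by
    refine intervalIntegral.intervalIntegral_pos_of_pos_on
      ((Complex.reCLM.continuous.comp hc).intervalIntegrable _ _) (fun v hv => ?_) (by norm_num)
    have h2 : |v| ≤ 1 / 8 := abs_le.2 ⟨hv.1.le, hv.2.le⟩
    have h3 : |v * a| ≤ 1 / 8 * (3 / 2) := by
      rw [abs_mul]
      exact mul_le_mul h2 ha.le (abs_nonneg _) (by norm_num)
    have h4 := abs_le.1 h3
    have h5 : 0 < cos (-2 * π * v * a) :=
      cos_pos_of_mem_Ioo ⟨by nlinarith [pi_pos], by nlinarith [pi_pos]⟩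
    rw [Complex.reCLM_apply, Complex.mul_re, Complex.exp_ofReal_mul_I_re]
    simpa using h5
  rw [Complex.reCLM.intervalIntegral_comp_comm (hc.intervalIntegrable _ _), ← e] at h1
  intro h0
  simp [h0] at h1

theorem eta_zero {a : ℝ} (ha : 1 ≤ |a|) : smoothTransition (a + 1) - smoothTransition a = 0 := by
  rcases le_abs.1 ha with h | h
  · rw [smoothTransition.one_of_one_le h, smoothTransition.one_of_one_le (by linarith), sub_self]
  · rw [smoothTransition.zero_of_nonpos (by linarith),
      smoothTransition.zero_of_nonpos (by linarith), sub_self]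

theorem eta_tel (f : ℝ → ℝ) {N : ℤ} (hN : 0 ≤ N) (a : ℝ) :
    ∑ ν ∈ Finset.Icc (-N) N, (f (a - ν + 1) - f (a - ν)) = f (a + N + 1) - f (a - N) := by
  obtain ⟨n, rfl⟩ := Int.eq_ofNat_of_zero_le hN
  have e : ((n : ℤ) + 1 - -(n : ℤ)).toNat = 2 * n + 1 := by omega
  rw [Int.Icc_eq_finset_map, Finset.sum_map, e]
  have h := Finset.sum_range_sub' (fun i : ℕ => f (a + n + 1 - i)) (2 * n + 1)
  have e1 : a + n + 1 - ((2 * n + 1 : ℕ) : ℝ) = a - n := by
    push_cast
    ring
  rw [e1, Nat.cast_zero, sub_zero] at h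
  refine Eq.trans (Finset.sum_congr rfl fun i _ => ?_) h
  have e2 : ∀ x y : ℝ, x = y → f (x + 1) - f x = f (y + 1) - f y := fun x y h => by rw [h]
  have e3 : a + n + 1 - (i : ℝ) = a + n + 1 - ((i + 1 : ℕ) : ℝ) + 1 := by
    push_cast
    ring
  rw [e3]
  refine e2 _ _ ?_
  simp
  ring

theorem exists_psi : ∃ ψ : ℝ → ℂ, ContDiff ℝ ∞ ψ ∧ (∀ a, 1 ≤ |a| → ψ a = 0) ∧
    ∀ (N : ℤ) (a : ℝ), |a| ≤ N → ∑ ν ∈ Finset.Icc (-N) N, ψ (a - ν) * eh (a - ν) = 1 := by
  refine ⟨fun a => ((smoothTransition (a + 1) - smoothTransition a : ℝ) : ℂ) / eh a, ?_,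
    fun a ha => by simp only [eta_zero ha, Complex.ofReal_zero, zero_div], fun N a ha => ?_⟩
  · refine contDiff_iff_contDiffAt.2 fun a => ?_
    by_cases ha : |a| < 3 / 2
    · have h1 : ContDiff ℝ ∞ fun a : ℝ => smoothTransition (a + 1) - smoothTransition a :=
        (smoothTransition.contDiff.comp (contDiff_id.add contDiff_const)).sub
          smoothTransition.contDiff
      simp only [div_eq_mul_inv]
      exact (Complex.ofRealCLM.contDiff.comp h1).contDiffAt.mul
        (eta_smooth.contDiffAt.inv (eta_ne ha))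
    · have h1 : ∀ᶠ b in 𝓝 a, 1 < |b| :=
        continuous_abs.continuousAt.eventually (lt_mem_nhds (by linarith))
      refine (contDiffAt_const (c := (0 : ℂ))).congr_of_eventuallyEq (h1.mono fun b hb => ?_)
      simp only [eta_zero hb.le, Complex.ofReal_zero, zero_div]
  · have h1 : ∀ b : ℝ, ((smoothTransition (b + 1) - smoothTransition b : ℝ) : ℂ) / eh b * eh b =
        ((smoothTransition (b + 1) - smoothTransition b : ℝ) : ℂ) := fun b => by
      by_cases hb : |b| < 3 / 2
      · exact div_mul_cancel₀ _ (eta_ne hb)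
      · simp only [eta_zero (a := b) (by linarith), Complex.ofReal_zero, zero_div, zero_mul]
    have h2 := abs_le.1 ha
    simp only [h1]
    rw [← Complex.ofReal_sum, eta_tel _ (by exact_mod_cast (abs_nonneg a).trans ha),
      smoothTransition.one_of_one_le (by linarith), smoothTransition.zero_of_nonpos (by linarith)]
    simp


end Vale.Agent.P117
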