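import Vale.Agent.P117.Base

/-!
Convolution and Fourier transform on a Euclidean space. Mathlib: `Real.fourier_eq`, `Real.fourierInv_eq`,
`Real.fourierInv_eq_fourier_neg`, `Real.fourier_mul_convolution_eq`, `Continuous.fourier_fourierInv_eq`,
`HasCompactSupport.toSchwartzMap` (then `SchwartzMap.fourier_coe`, `SchwartzMap.fourierInv_coe`, `SchwartzMap.integrable`),
`Integrable.convolution_integrand`, `Integrable.integrable_convolution`, `continuous_of_dominated`,
`Real.fourierInv_comp_linearIsometry`, `LinearIsometryEquiv.measurePreserving`.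
-/

open MeasureTheory Set Real Filter
open scoped FourierTransform RealInnerProductSpace ContDiff ENNReal Topology

noncomputable section

namespace Vale.Agent.P117

variable {V : Type} [NormedAddCommGroup V] [InnerProductSpace ℝ V] [FiniteDimensional ℝ V]
  [MeasurableSpace V] [BorelSpace V]
  {K K' f g m m' q : V → ℂ}

theorem four_schwartz (φ : SchwartzMap V ℂ) : Ker (φ : V → ℂ) :=
  ⟨φ.continuous, φ.integrable, _, fun x => φ.norm_le_seminorm ℝ x⟩

theorem four_cv (K f : V → ℂ) :
    cv K f = convolution K f (ContinuousLinearMap.mul ℂ ℂ) volume :=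
  funext fun _ => convolution_mul_swap.symm

theorem four_int (hm : Integrable m) (x : V) : Integrable fun v => 𝐞 ⟪v, x⟫ • m v := by
  refine hm.mono (Continuous.aestronglyMeasurable (by fun_prop) |>.smul hm.1)
    (Eventually.of_forall fun v => ?_)
  rw [Circle.norm_smul]

theorem Ker.nice (h : Ker K) : Nice K := ⟨h.cont.measurable, h.int, h.bdd⟩
theorem Sm.ker (h : Sm m) : Ker m := four_schwartz (h.cs.toSchwartzMap h.smooth)
theorem Sm.ker_inv (h : Sm m) : Ker (𝓕⁻ m) := by
  have h1 := four_schwartz (𝓕⁻ (h.cs.toSchwartzMap h.smooth))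
  rwa [SchwartzMap.fourierInv_coe] at h1
theorem Sm.ker_fourier (h : Sm m) : Ker (𝓕 m) := four_schwartz (𝓕 (h.cs.toSchwartzMap h.smooth))
theorem Sm.fourier_inv (h : Sm m) : 𝓕 (𝓕⁻ m) = m :=
  h.ker.cont.fourier_fourierInv_eq h.ker.int h.ker_fourier.int
theorem Sm.inv_fourier (h : Sm m) : 𝓕⁻ (𝓕 m) = m :=
  h.ker.cont.fourierInv_fourier_eq h.ker.int h.ker_fourier.int
omit [FiniteDimensional ℝ V] [MeasurableSpace V] [BorelSpace V] in
theorem Sm.mul (h : Sm m) (hq : ContDiff ℝ ∞ q) : Sm fun ξ => m ξ * q ξ :=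
  ⟨h.smooth.mul hq, h.cs.mul_right⟩
theorem continuous_fourier (hf : Integrable f) : Continuous (𝓕 f) :=
  VectorFourier.fourierIntegral_continuous Real.continuous_fourierChar
    (innerSL ℝ).continuous₂ hf
theorem continuous_inv (hf : Integrable f) : Continuous (𝓕⁻ f) := by
  have h1 : 𝓕⁻ f = fun w => 𝓕 f (-w) := funext (Real.fourierInv_eq_fourier_neg f)
  rw [h1]
  exact (continuous_fourier hf).comp continuous_neg
theorem norm_fourier_le (f : V → ℂ) (ξ : V) : ‖𝓕 f ξ‖ ≤ ∫ x, ‖f x‖ :=
  VectorFourier.norm_fourierIntegral_le_integral_norm _ _ _ _ _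
theorem norm_inv_le (f : V → ℂ) (ξ : V) : ‖𝓕⁻ f ξ‖ ≤ ∫ x, ‖f x‖ := by
  rw [Real.fourierInv_eq_fourier_neg]
  exact norm_fourier_le f _
theorem integrable_mul_fourier (hm : Integrable m) (hf : Integrable f) :
    Integrable fun ξ => m ξ * 𝓕 f ξ :=
  hm.mul_bdd (continuous_fourier hf).aestronglyMeasurable
    (Eventually.of_forall (norm_fourier_le f))
/-- Fubini -/
theorem cv_eq (hm : Integrable m) (hf : Integrable f) (x : V) :
    cv (𝓕⁻ m) f x = 𝓕⁻ (fun ξ => m ξ * 𝓕 f ξ) x := by
  have h1 : Integrable (Function.uncurry fun y v : V => 𝐞 ⟪v, x - y⟫ • (f y * m v))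
      (volume.prod volume) := by
    have h2 := hf.mul_prod hm
    refine h2.mono (AEStronglyMeasurable.smul (f := fun p : V × V => 𝐞 ⟪p.2, x - p.1⟫)
      (Continuous.aestronglyMeasurable (by fun_prop)) h2.1) (Eventually.of_forall fun p => ?_)
    exact (Circle.norm_smul _ _).le
  have h2 := integral_integral_swap h1
  rw [cv, Real.fourierInv_eq]
  refine Eq.trans (integral_congr_ae (Eventually.of_forall fun y => ?_))
    (h2.trans (integral_congr_ae (Eventually.of_forall fun v => ?_)))
  · simp only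
    rw [Real.fourierInv_eq, ← integral_mul_const]
    refine integral_congr_ae (Eventually.of_forall fun v => ?_)
    simp only [Circle.smul_def, smul_eq_mul]
    ring
  · simp only
    rw [Real.fourier_eq, Circle.smul_def, smul_eq_mul, ← integral_const_mul, ← integral_const_mul]
    refine integral_congr_ae (Eventually.of_forall fun y => ?_)
    simp only [Circle.smul_def, smul_eq_mul]
    rw [inner_sub_right, sub_eq_add_neg, AddChar.map_add_eq_mul, Circle.coe_mul,
      real_inner_comm v y]
    ring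
theorem cv_integrable (hK : Ker K) (hf : Integrable f) (x : V) :
    Integrable fun y => K (x - y) * f y := by
  obtain ⟨C, hC⟩ := hK.bdd
  exact hf.bdd_mul (hK.cont.comp (continuous_const.sub continuous_id)).aestronglyMeasurable
    (Eventually.of_forall fun y => hC _)
theorem cv_comm (K f : V → ℂ) (x : V) : cv K f x = ∫ y, K y * f (x - y) := by
  rw [four_cv, convolution_mul]
theorem norm_cv_le (hK : Integrable K) {B : ℝ} (hf : ∀ᵐ y, ‖f y‖ ≤ B) (x : V) :
    ‖cv K f x‖ ≤ (∫ y, ‖K y‖) * B := by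
  refine (norm_integral_le_of_norm_le ((hK.comp_sub_left x).norm.mul_const B) ?_).trans_eq ?_
  · filter_upwards [hf] with y hy
    rw [norm_mul]
    exact mul_le_mul_of_nonneg_left hy (norm_nonneg _)
  · rw [integral_mul_const, integral_sub_left_eq_self (fun y => ‖K y‖) volume x]
theorem cv_nice (hK : Nice K) (hf : Nice f) : Nice (cv K f) := by
  obtain ⟨C, hC⟩ := hf.bdd
  refine ⟨?_, ?_, _, norm_cv_le hK.int (Eventually.of_forall hC)⟩
  · have h1 : Measurable (Function.uncurry fun x y : V => K (x - y) * f y) :=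
      (hK.meas.comp (measurable_fst.sub measurable_snd)).mul (hf.meas.comp measurable_snd)
    exact h1.stronglyMeasurable.integral_prod_right.measurable
  · rw [four_cv]
    exact hK.int.integrable_convolution _ hf.int
theorem cv_ker (hK : Ker K) (hf : Nice f) : Ker (cv K f) := by
  refine ⟨?_, (cv_nice hK.nice hf).int, (cv_nice hK.nice hf).bdd⟩
  obtain ⟨C, hC⟩ := hK.bdd
  refine continuous_of_dominated (fun x => (cv_integrable hK hf.int x).1)
    (fun x => Eventually.of_forall fun y => ?_) (hf.int.norm.const_mul C)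
    (Eventually.of_forall fun y => ?_)
  · rw [norm_mul]
    exact mul_le_mul_of_nonneg_right (hC _) (norm_nonneg _)
  · exact (hK.cont.comp (continuous_id.sub continuous_const)).mul continuous_const
theorem fourier_cv (hK : Integrable K) (hf : Integrable f) (ξ : V) :
    𝓕 (cv K f) ξ = 𝓕 K ξ * 𝓕 f ξ := by
  rw [four_cv]
  exact Real.fourier_mul_convolution_eq hK hf ξ
theorem cv_add_right (hK : Ker K) (hf : Integrable f) (hg : Integrable g) (x : V) :
    cv K (fun y => f y + g y) x = cv K f x + cv K g x := by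
  simp only [cv, mul_add]
  exact integral_add (cv_integrable hK hf x) (cv_integrable hK hg x)
theorem cv_add_left (hK : Ker K) (hK' : Ker K') (hf : Integrable f) (x : V) :
    cv (fun y => K y + K' y) f x = cv K f x + cv K' f x := by
  simp only [cv, add_mul]
  exact integral_add (cv_integrable hK hf x) (cv_integrable hK' hf x)
theorem inv_add (hm : Integrable m) (hm' : Integrable m') (x : V) :
    𝓕⁻ (fun ξ => m ξ + m' ξ) x = 𝓕⁻ m x + 𝓕⁻ m' x := by
  simp only [Real.fourierInv_eq, smul_add]
  exact integral_add (four_int hm x) (four_int hm' x)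
theorem inv_sum {ι : Type} (s : Finset ι) {M : ι → V → ℂ} (hm : ∀ i ∈ s, Integrable (M i)) (x : V) :
    𝓕⁻ (fun ξ => ∑ i ∈ s, M i ξ) x = ∑ i ∈ s, 𝓕⁻ (M i) x := by
  simp only [Real.fourierInv_eq, Finset.smul_sum]
  exact integral_finsetSum s fun i hi => four_int (hm i hi) x
theorem inv_const_mul (c : ℂ) (m : V → ℂ) (x : V) :
    𝓕⁻ (fun ξ => c * m ξ) x = c * 𝓕⁻ m x := by
  rw [Real.fourierInv_eq, Real.fourierInv_eq, ← integral_const_mul]
  refine integral_congr_ae (Eventually.of_forall fun v => ?_)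
  simp only [Circle.smul_def, smul_eq_mul]
  ring
theorem Ker.add (hK : Ker K) (hK' : Ker K') : Ker fun x => K x + K' x := by
  obtain ⟨C, hC⟩ := hK.bdd
  obtain ⟨C', hC'⟩ := hK'.bdd
  exact ⟨hK.cont.add hK'.cont, hK.int.add hK'.int, C + C', fun x =>
    (norm_add_le _ _).trans (add_le_add (hC x) (hC' x))⟩
theorem Ker.sum {ι : Type} (s : Finset ι) {H : ι → V → ℂ} (h : ∀ i ∈ s, Ker (H i)) :
    Ker fun x => ∑ i ∈ s, H i x := by
  classical
  induction s using Finset.induction_on with
  | empty => exact ⟨continuous_const, by simp, 0, fun x => by simp⟩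
  | insert a s ha ih =>
    simp only [Finset.sum_insert ha]
    exact (h a (Finset.mem_insert_self a s)).add
      (ih fun i hi => h i (Finset.mem_insert_of_mem hi))
theorem Ker.mul (hK : Ker K) (hK' : Ker K') : Ker fun x => K x * K' x := by
  obtain ⟨C, hC⟩ := hK.bdd
  obtain ⟨C', hC'⟩ := hK'.bdd
  refine ⟨hK.cont.mul hK'.cont, hK.int.mul_bdd hK'.cont.aestronglyMeasurable
    (Eventually.of_forall hC'), C * C', fun x => ?_⟩
  rw [norm_mul]
  exact mul_le_mul (hC x) (hC' x) (norm_nonneg _) ((norm_nonneg _).trans (hC x))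
theorem cv_iso (A : V ≃ₗᵢ[ℝ] V) (m G : V → ℂ) (x : V) :
    cv (𝓕⁻ (m ∘ A)) G x = cv (𝓕⁻ m) (G ∘ A.symm) (A x) := by
  rw [cv, cv, ← MeasurePreserving.integral_comp A.measurePreserving
    A.toHomeomorph.measurableEmbedding fun y => 𝓕⁻ m (A x - y) * (G ∘ A.symm) y]
  refine integral_congr_ae (Eventually.of_forall fun y => ?_)
  simp only [Real.fourierInv_comp_linearIsometry, map_sub, Function.comp_apply,
    LinearIsometryEquiv.symm_apply_apply]
theorem inv_even (h : ∀ ξ, m (-ξ) = m ξ) (x : V) : 𝓕⁻ m (-x) = 𝓕⁻ m x := by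
  have h1 : (fun ξ => m (-ξ)) = m := funext h
  rw [Real.fourierInv_eq_fourier_neg, neg_neg, Real.fourierInv_eq_fourier_comp_neg, h1]

end Vale.Agent.P117
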