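import Vale.Agent.P117.CapA
import Vale.Agent.P117.Schur

/-!
Freezing one variable. `cv K G x = ∫ z, ext K (G ⟨·, z⟩) (x - z I)` (`integral_cx`). Hoelder with the weight
`w s = 1 + |l² s| ≤ 2 ‖om‖`: `(∫ a z) ^ 4 ≤ (∫ w (x.im - z) ^ (-4/3)) ^ 3 * ∫ (w (x.im - z) * a z) ^ 4` and
`∫ w ^ (-4/3) ≤ 6 / l²` (`lintegral_rpow_aff`). Integrate in `x` (Tonelli, translation invariance), apply the hypothesis to the slices
(`Dec.slice`) and finish with `lintegral_cx`. Joint measurability of `(x, z) ↦ ext K (G ⟨·, z⟩) x`: `StronglyMeasurable.integral_prod_right`.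
-/

open MeasureTheory Set Real Filter
open scoped FourierTransform RealInnerProductSpace ContDiff ENNReal Topology

noncomputable section

namespace Vale.Agent.P117

theorem freeze_holder {l : ℝ} (hl : 0 < l) (b : ℝ) {a : ℝ → ℝ≥0∞} (ha : Measurable a) :
    (∫⁻ z, a z) ^ (4 : ℝ) ≤ ENNReal.ofReal (6 / l ^ 2) ^ (3 : ℝ) *
      ∫⁻ z, (ENNReal.ofReal (1 + l ^ 2 * |z - b|) * a z) ^ (4 : ℝ) := by
  have hW : ∀ z : ℝ, 0 < 1 + l ^ 2 * |z - b| := fun z => by positivity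
  have hpq : (4 / 3 : ℝ).HolderConjugate 4 := by
    rw [Real.holderConjugate_iff]
    norm_num
  have h1 := ENNReal.lintegral_mul_le_Lp_mul_Lq volume hpq
    (f := fun z => ENNReal.ofReal (1 + l ^ 2 * |z - b|)⁻¹)
    (g := fun z => ENNReal.ofReal (1 + l ^ 2 * |z - b|) * a z)
    (Measurable.aemeasurable (by fun_prop)) (Measurable.aemeasurable (by fun_prop))
  have e1 : ∀ z, ((fun z => ENNReal.ofReal (1 + l ^ 2 * |z - b|)⁻¹) *
      fun z => ENNReal.ofReal (1 + l ^ 2 * |z - b|) * a z) z = a z := by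
    intro z
    rw [Pi.mul_apply, ← mul_assoc, ← ENNReal.ofReal_mul (inv_nonneg.2 (hW z).le),
      inv_mul_cancel₀ (hW z).ne', ENNReal.ofReal_one, one_mul]
  have e2 : ∀ z, ENNReal.ofReal (1 + l ^ 2 * |z - b|)⁻¹ ^ (4 / 3 : ℝ) =
      ENNReal.ofReal ((1 + l ^ 2 * |z - b|) ^ (-(1 + 1 / 3 : ℝ))) := by
    intro z
    rw [ENNReal.ofReal_rpow_of_pos (inv_pos.2 (hW z)), Real.rpow_neg (hW z).le,
      Real.inv_rpow (hW z).le]
    norm_num
  simp only [e1, e2] at h1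
  have h2 := lintegral_rpow_aff (σ := 1 / 3) (by norm_num) (a := l ^ 2) (c := 1) (by positivity)
    one_pos b
  have e3 : 2 * (1 : ℝ) ^ (-(1 / 3 : ℝ)) / (1 / 3 * l ^ 2) = 6 / l ^ 2 := by
    rw [Real.one_rpow]
    field_simp
    norm_num
  rw [e3] at h2
  refine (ENNReal.rpow_le_rpow h1 (by norm_num)).trans ?_
  rw [ENNReal.mul_rpow_of_nonneg _ _ (by norm_num), ← ENNReal.rpow_mul, ← ENNReal.rpow_mul]
  have e4 : (1 / (4 / 3) * 4 : ℝ) = 3 := by norm_num
  have e5 : (1 / 4 * 4 : ℝ) = 1 := by norm_num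
  rw [e4, e5, ENNReal.rpow_one]
  gcongr

theorem freeze_meas {K G : ℂ → ℂ} (hK : Ker K) (hG : Dec G) :
    Measurable fun p : ℂ × ℝ => ext K (fun t => G ⟨t, p.2⟩) p.1 := by
  have h1 : Measurable fun q : (ℂ × ℝ) × ℝ => K (q.1.1 - q.2) * G ⟨q.2, q.1.2⟩ := by
    refine (hK.cont.measurable.comp (by fun_prop)).mul ?_
    exact hG.meas.comp (measurable_mk.comp (measurable_snd.prodMk measurable_fst.snd))
  exact (StronglyMeasurable.integral_prod_right (ν := volume)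
    (f := fun (p : ℂ × ℝ) (t : ℝ) => K (p.1 - t) * G ⟨t, p.2⟩) h1.stronglyMeasurable).measurable

theorem freeze_cv {K G : ℂ → ℂ} (hK : Ker K) (hG : Dec G) (x : ℂ) :
    cv K G x = ∫ z : ℝ, ext K (fun t => G ⟨t, z⟩) (x - z * Complex.I) := by
  rw [cv, integral_cx (cv_integrable hK hG.nice.int x)]
  refine integral_congr_ae (Eventually.of_forall fun z => ?_)
  refine integral_congr_ae (Eventually.of_forall fun t => ?_)
  have e : x - ⟨t, z⟩ = x - z * Complex.I - t := by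
    apply Complex.ext <;> simp
  simp only [e]

theorem freeze : ∃ C : ℝ, 0 < C ∧ ∀ l : ℝ, 0 < l → ∀ K : ℂ → ℂ, Ker K → ∀ A : ℝ≥0∞,
    (∀ g, Nice g → Np volume 4 (fun x => om l x * ext K g x) ≤
      A * ENNReal.ofReal (l ^ 6) * Np volume 4 g) →
    ∀ G, Dec G → Np volume 4 (cv K G) ≤ ENNReal.ofReal C * A * Np volume 4 G := by
  refine ⟨3456, by norm_num, fun l hl K hK A hA G hG => ?_⟩
  have hm := freeze_meas hK hG
  set H : ℂ × ℝ → ℝ≥0∞ := fun p => ‖om l p.1 * ext K (fun t => G ⟨t, p.2⟩) p.1‖ₑ ^ (4 : ℝ) with hH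
  have hHm : Measurable H :=
    ((((continuous_om l).measurable.comp measurable_fst).mul hm).enorm).pow_const _
  have hsh : Measurable fun p : ℂ × ℝ => ((p.1 - p.2 * Complex.I, p.2) : ℂ × ℝ) := by fun_prop
  have hpt : ∀ x : ℂ, ‖cv K G x‖ₑ ^ (4 : ℝ) ≤ ENNReal.ofReal (6 / l ^ 2) ^ (3 : ℝ) * 2 ^ (4 : ℝ) *
      ∫⁻ z : ℝ, H (x - z * Complex.I, z) := by
    intro x
    have hs : Measurable fun z : ℝ => ((x - z * Complex.I, z) : ℂ × ℝ) := by fun_prop
    have ha : Measurable fun z : ℝ => ‖ext K (fun t => G ⟨t, z⟩) (x - z * Complex.I)‖ₑ :=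
      (hm.comp hs).enorm
    rw [freeze_cv hK hG]
    refine (ENNReal.rpow_le_rpow (enorm_integral_le_lintegral_enorm _) (by norm_num)).trans ?_
    refine (freeze_holder hl x.im ha).trans ?_
    have hs' : Measurable fun z : ℝ => H (x - z * Complex.I, z) := hHm.comp hs
    rw [mul_assoc, ← lintegral_const_mul _ hs']
    refine mul_le_mul_right (lintegral_mono fun z => ?_) _
    simp only [hH]
    rw [← ENNReal.mul_rpow_of_nonneg _ _ (by norm_num), enorm_mul, ← mul_assoc]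
    refine ENNReal.rpow_le_rpow (mul_le_mul_left ?_ _) (by norm_num)
    have h1 := le_norm_om l (x - z * Complex.I)
    have e : |l ^ 2 * (x - z * Complex.I).im| = l ^ 2 * |z - x.im| := by
      rw [abs_mul, abs_of_nonneg (sq_nonneg l), abs_sub_comm]
      simp
    rw [e] at h1
    rw [← ofReal_norm, ← ENNReal.ofReal_ofNat 2, ← ENNReal.ofReal_mul (by norm_num)]
    exact ENNReal.ofReal_le_ofReal (by linarith)
  have hsw : ∫⁻ x : ℂ, ∫⁻ z : ℝ, H (x - z * Complex.I, z) = ∫⁻ z : ℝ, ∫⁻ x : ℂ, H (x, z) := by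
    rw [lintegral_lintegral_swap (f := fun (x : ℂ) (z : ℝ) => H (x - z * Complex.I, z))
      (hHm.comp hsh).aemeasurable]
    refine lintegral_congr fun z => ?_
    exact lintegral_sub_right_eq_self (fun x => H (x, z)) (z * Complex.I)
  have hG4 : Measurable fun x => ‖G x‖ₑ ^ (4 : ℝ) := hG.meas.enorm.pow_const _
  have hsl : ∫⁻ z : ℝ, ∫⁻ x : ℂ, H (x, z) ≤ A * ENNReal.ofReal (l ^ 6) * Np volume 4 G := by
    have hq : Measurable fun z : ℝ => ∫⁻ t : ℝ, ‖G ⟨t, z⟩‖ₑ ^ (4 : ℝ) :=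
      Measurable.lintegral_prod_left' (f := fun q : ℝ × ℝ => ‖G ⟨q.1, q.2⟩‖ₑ ^ (4 : ℝ))
        (hG4.comp measurable_mk)
    rw [Np, lintegral_cx hG4, ← lintegral_const_mul _ hq]
    refine lintegral_mono fun z => ?_
    have h1 := hA _ (hG.slice z)
    rw [Np, Np] at h1
    exact h1
  have hc : ENNReal.ofReal (6 / l ^ 2) ^ (3 : ℝ) * 2 ^ (4 : ℝ) * ENNReal.ofReal (l ^ 6) =
      ENNReal.ofReal 3456 := by
    rw [← ENNReal.ofReal_ofNat 2, ENNReal.ofReal_rpow_of_pos (by positivity),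
      ENNReal.ofReal_rpow_of_pos (by norm_num), ← ENNReal.ofReal_mul (by positivity),
      ← ENNReal.ofReal_mul (by positivity)]
    congr 1
    rw [show (3 : ℝ) = (3 : ℕ) by norm_num, show (4 : ℝ) = (4 : ℕ) by norm_num, Real.rpow_natCast,
      Real.rpow_natCast]
    field_simp
    norm_num
  have hI : Measurable fun x : ℂ => ∫⁻ z : ℝ, H (x - z * Complex.I, z) :=
    Measurable.lintegral_prod_right' (f := fun p : ℂ × ℝ => H (p.1 - p.2 * Complex.I, p.2))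
      (hHm.comp hsh)
  calc Np volume 4 (cv K G) ≤ ∫⁻ x : ℂ, ENNReal.ofReal (6 / l ^ 2) ^ (3 : ℝ) * 2 ^ (4 : ℝ) *
        ∫⁻ z : ℝ, H (x - z * Complex.I, z) := lintegral_mono hpt
    _ ≤ ENNReal.ofReal (6 / l ^ 2) ^ (3 : ℝ) * 2 ^ (4 : ℝ) *
        (A * ENNReal.ofReal (l ^ 6) * Np volume 4 G) := by
      rw [lintegral_const_mul _ hI, hsw]
      gcongr
    _ = ENNReal.ofReal 3456 * A * Np volume 4 G := by
      rw [← hc]
      ring

end Vale.Agent.P117
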