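import Vale.Agent.P117.Cx

/-!
Integrals over the circle without cancellation. `circ0`: `1 - |cos θ| ≥ 2 θ² / π²` for `|θ| ≤ π / 2` (`Real.cos_le_one_sub_mul_cos_sq'`-like bounds,
`Real.cos_quadratic_upper_bound`), the same after the shift by `π`; `(1 + c θ²)⁻¹ ≤ 2 * dc 2 (√c θ)` and `integral_dc_aff`; for `r ≤ 1` use the trivial bound `2 π`.
`circ1`: if `r ≤ |t|` then `|r cos θ - t| ≥ d + r (1 - |cos θ|)` with `d = |t| - r`, so `dc 3 ≤ (1 + d)⁻² (1 + r (1 - |cos θ|))⁻¹`. If `|t| ≤ r ≤ |t| + 2` then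
`1 + r (1 - |cos θ|) ≤ 3 (1 + |r cos θ - t|)`.
-/

open MeasureTheory Set Real Filter
open scoped FourierTransform RealInnerProductSpace ContDiff ENNReal Topology

noncomputable section

namespace Vale.Agent.P117

theorem kera_pt {r u : ℝ} (hr : 0 ≤ r) (hu : |u| ≤ π) :
    (1 + r * (1 - cos u))⁻¹ ≤ 34 * dc 2 (√(1 + r) * u + 0) := by
  have h1 : cos u ≤ 1 - 2 / π ^ 2 * u ^ 2 := cos_le_one_sub_mul_cos_sq hu
  have hpi : π ^ 2 ≤ 16 := by nlinarith [pi_le_four, pi_pos]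
  have hp0 : 0 < π ^ 2 := by positivity
  have hu2 : u ^ 2 ≤ 16 := by
    have : u ^ 2 ≤ π ^ 2 := by
      rw [← sq_abs u]
      exact pow_le_pow_left₀ (abs_nonneg u) hu 2
    linarith
  have h2 : u ^ 2 ≤ 8 * (1 - cos u) := by
    have h3 : 2 / 16 ≤ 2 / π ^ 2 := div_le_div_of_nonneg_left (by norm_num) hp0 hpi
    nlinarith [sq_nonneg u]
  have hc : 0 ≤ 1 - cos u := by linarith [cos_le_one u]
  have he : 0 < 1 + r * (1 - cos u) := by positivity
  have hs : (√(1 + r)) ^ 2 = 1 + r := sq_sqrt (by linarith)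
  set a := √(1 + r) with ha
  have hx : |a * u + 0| ^ 2 = (1 + r) * u ^ 2 := by rw [sq_abs, add_zero, mul_pow, hs]
  have hx0 : 0 < 1 + |a * u + 0| := by positivity
  have h4 : (1 + |a * u + 0|) ^ 2 ≤ 34 * (1 + r * (1 - cos u)) := by
    have h5 : r * u ^ 2 ≤ r * (8 * (1 - cos u)) := mul_le_mul_of_nonneg_left h2 hr
    have h6 : 0 ≤ r * (1 - cos u) := by positivity
    nlinarith [sq_nonneg (1 - |a * u + 0|)]
  unfold dc
  rw [← div_eq_mul_inv, inv_eq_one_div, div_le_div_iff₀ he (by positivity)]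
  linarith

theorem kera_pt2 {r θ : ℝ} (hr : 0 ≤ r) (hθ : θ ∈ Icc (-π) π) :
    (1 + r * (1 - |cos θ|))⁻¹ ≤ 34 * (dc 2 (√(1 + r) * θ + 0) + (dc 2 (√(1 + r) * θ + -(√(1 + r) * π)) +
      dc 2 (√(1 + r) * θ + √(1 + r) * π))) := by
  have p1 := dc_pos 2 (√(1 + r) * θ + 0)
  have p2 := dc_pos 2 (√(1 + r) * θ + -(√(1 + r) * π))
  have p3 := dc_pos 2 (√(1 + r) * θ + √(1 + r) * π)
  rcases le_total 0 (cos θ) with h | h
  · have := kera_pt hr (u := θ) (abs_le.2 hθ)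
    rw [abs_of_nonneg h]
    linarith
  · rw [abs_of_nonpos h]
    rcases le_total 0 θ with h0 | h0
    · have := kera_pt hr (u := θ - π) (abs_le.2 ⟨by linarith, by linarith [hθ.2, pi_pos]⟩)
      rw [cos_sub_pi, show √(1 + r) * (θ - π) + 0 = √(1 + r) * θ + -(√(1 + r) * π) by ring] at this
      linarith
    · have := kera_pt hr (u := θ + π) (abs_le.2 ⟨by linarith [hθ.1, pi_pos], by linarith⟩)
      rw [cos_add_pi, show √(1 + r) * (θ + π) + 0 = √(1 + r) * θ + √(1 + r) * π by ring] at this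
      linarith

theorem kera_den {r : ℝ} (hr : 0 ≤ r) (θ : ℝ) : 0 < 1 + r * (1 - |cos θ|) := by
  have : 0 ≤ 1 - |cos θ| := by linarith [abs_cos_le_one θ]
  positivity

theorem kera_cont {r : ℝ} (hr : 0 ≤ r) : Continuous fun θ : ℝ => (1 + r * (1 - |cos θ|))⁻¹ :=
  Continuous.inv₀ (by fun_prop) fun θ => (kera_den hr θ).ne'

theorem circ0 : ∃ C : ℝ, 0 < C ∧ ∀ r : ℝ, 0 ≤ r →
    ∫ θ in (-π)..π, (1 + r * (1 - |cos θ|))⁻¹ ≤ C * (1 + r) ^ (-(1 / 2) : ℝ) := by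
  refine ⟨204, by norm_num, fun r hr => ?_⟩
  have ha : 0 < √(1 + r) := sqrt_pos.2 (by linarith)
  set a := √(1 + r) with hadef
  have i1 := integrable_dc_aff (le_refl 2) ha.ne' 0
  have i2 := integrable_dc_aff (le_refl 2) ha.ne' (-(a * π))
  have i3 := integrable_dc_aff (le_refl 2) ha.ne' (a * π)
  have j1 := integral_dc_aff (le_refl 2) ha 0
  have j2 := integral_dc_aff (le_refl 2) ha (-(a * π))
  have j3 := integral_dc_aff (le_refl 2) ha (a * π)
  have i23 : Integrable fun θ => dc 2 (a * θ + -(a * π)) + dc 2 (a * θ + a * π) := i2.add i3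
  have i123 : Integrable fun θ => dc 2 (a * θ + 0) + (dc 2 (a * θ + -(a * π)) + dc 2 (a * θ + a * π)) :=
    i1.add i23
  have hI := i123.const_mul 34
  have hpi : -π ≤ π := by linarith [pi_pos]
  have h1 : ∫ θ in (-π)..π, (1 + r * (1 - |cos θ|))⁻¹ ≤
      ∫ θ in (-π)..π, 34 * (dc 2 (a * θ + 0) + (dc 2 (a * θ + -(a * π)) + dc 2 (a * θ + a * π))) :=
    intervalIntegral.integral_mono_on hpi ((kera_cont hr).intervalIntegrable _ _) hI.intervalIntegrable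
      fun θ hθ => kera_pt2 hr hθ
  have h2 : ∫ θ in (-π)..π, 34 * (dc 2 (a * θ + 0) + (dc 2 (a * θ + -(a * π)) + dc 2 (a * θ + a * π))) ≤
      ∫ θ, 34 * (dc 2 (a * θ + 0) + (dc 2 (a * θ + -(a * π)) + dc 2 (a * θ + a * π))) := by
    rw [intervalIntegral.integral_of_le hpi]
    refine setIntegral_le_integral hI (Eventually.of_forall fun θ => ?_)
    have p1 := dc_pos 2 (a * θ + 0)
    have p2 := dc_pos 2 (a * θ + -(a * π))
    have p3 := dc_pos 2 (a * θ + a * π)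
    positivity
  rw [integral_const_mul, integral_add i1 i23, integral_add i2 i3] at h2
  have h3 : (1 + r) ^ (-(1 / 2) : ℝ) = a⁻¹ := by
    rw [rpow_neg (by linarith), hadef, sqrt_eq_rpow]
  rw [h3]
  rw [div_eq_mul_inv] at j1 j2 j3
  linarith

theorem kera_pt3 {r t : ℝ} (hr : 0 ≤ r) (ht : r ≤ |t| + 2) (θ : ℝ) :
    dc 3 (r * cos θ - t) ≤ 27 * ((1 + abs (r - |t|)) ^ 2)⁻¹ * (1 + r * (1 - |cos θ|))⁻¹ := by
  have he := kera_den hr θ
  have he0 : 0 ≤ r * (1 - |cos θ|) := mul_nonneg hr (by linarith [abs_cos_le_one θ])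
  have hx : |t| - r * |cos θ| ≤ |r * cos θ - t| := by
    have := abs_sub_abs_le_abs_sub t (r * cos θ)
    rw [abs_mul, abs_of_nonneg hr, abs_sub_comm] at this
    exact this
  have hx0 := abs_nonneg (r * cos θ - t)
  set x := |r * cos θ - t| with hxdef
  have h1 : 1 + abs (r - |t|) ≤ 3 * (1 + x) := by
    have : abs (r - |t|) ≤ 2 + 3 * x := abs_le.2 ⟨by nlinarith, by linarith⟩
    linarith
  have h2 : 1 + r * (1 - |cos θ|) ≤ 3 * (1 + x) := by nlinarith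
  have hD : 0 < 1 + abs (r - |t|) := by positivity
  have h3 : (1 + abs (r - |t|)) ^ 2 * (1 + r * (1 - |cos θ|)) ≤ (3 * (1 + x)) ^ 2 * (3 * (1 + x)) :=
    mul_le_mul (pow_le_pow_left₀ hD.le h1 2) h2 he.le (by positivity)
  unfold dc
  rw [← hxdef, mul_assoc, ← mul_inv, ← div_eq_mul_inv, inv_eq_one_div,
    div_le_div_iff₀ (by positivity) (by positivity)]
  linarith

theorem circ1 : ∃ C : ℝ, 0 < C ∧ ∀ r t : ℝ, 0 ≤ r → r ≤ |t| + 2 →
    ∫ θ in (-π)..π, dc 3 (r * cos θ - t) ≤ C * kb r t := by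
  obtain ⟨C, hC, h⟩ := circ0
  refine ⟨27 * C, by positivity, fun r t hr ht => ?_⟩
  have hpi : -π ≤ π := by linarith [pi_pos]
  have hD : 1 ≤ 1 + abs (r - |t|) := by linarith [abs_nonneg (r - |t|)]
  have hc : Continuous fun θ : ℝ => dc 3 (r * cos θ - t) := (continuous_dc 3).comp (by fun_prop)
  have h1 : ∫ θ in (-π)..π, dc 3 (r * cos θ - t) ≤
      ∫ θ in (-π)..π, 27 * ((1 + abs (r - |t|)) ^ 2)⁻¹ * (1 + r * (1 - |cos θ|))⁻¹ :=
    intervalIntegral.integral_mono_on hpi (hc.intervalIntegrable _ _)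
      ((continuous_const.mul (kera_cont hr)).intervalIntegrable _ _) fun θ _ => kera_pt3 hr ht θ
  rw [intervalIntegral.integral_const_mul] at h1
  have h2 : ((1 + abs (r - |t|)) ^ 2)⁻¹ ≤ (1 + abs (r - |t|)) ^ (-(3 / 2) : ℝ) := by
    rw [← rpow_natCast, ← rpow_neg (by linarith)]
    exact rpow_le_rpow_of_exponent_le hD (by norm_num)
  have h3 : 0 ≤ C * (1 + r) ^ (-(1 / 2) : ℝ) := by positivity
  calc _ ≤ _ := h1
    _ ≤ 27 * ((1 + abs (r - |t|)) ^ 2)⁻¹ * (C * (1 + r) ^ (-(1 / 2) : ℝ)) :=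
        mul_le_mul_of_nonneg_left (h r hr) (by positivity)
    _ ≤ 27 * (1 + abs (r - |t|)) ^ (-(3 / 2) : ℝ) * (C * (1 + r) ^ (-(1 / 2) : ℝ)) :=
        mul_le_mul_of_nonneg_right (by linarith) h3
    _ = 27 * C * kb r t := by unfold kb; ring

end Vale.Agent.P117
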