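import Vale.Agent.P117.CapA
import Vale.Agent.P117.Orth
import Vale.Agent.P117.AO
import Vale.Agent.P117.Geo
import Vale.Agent.P117.Bess
import Vale.Agent.P117.Bil

/-!
The `L⁴` estimate for a sum over caps. `H ν = ext (om l * k ν) (gv l ν g)` is `Ker`, its Fourier transform vanishes off `Cap l ν`
(`fourier_ext`, `CapK.van`); `orth4` and `cap_near` give the hypothesis of `almost_orth`. Pointwise, with `W t = l * dc 2 (l t)` (integral at most `2`)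
and `h ν y = ∫⁻ u, W (y - u) * ‖gv l ν g u‖ₑ²`: `‖H ν x‖ₑ² ≤ 2 D² l⁴ * dc 1 (l² x.im) * h ν (x.re + vel l ν * x.im)` by Cauchy-Schwarz. Then `bil`,
`∑ h ν y = ∫⁻ W (y - u) * ∑ ‖gv l ν g u‖ₑ²`, `young_enn` with `p = 2`, `sq_fun`.
-/

open MeasureTheory Set Real Filter
open scoped FourierTransform RealInnerProductSpace ContDiff ENNReal Topology

noncomputable section

namespace Vale.Agent.P117

/-- Cauchy-Schwarz with a weight -/
theorem sq_cs {W f : ℝ → ℝ≥0∞} (hW : Measurable W) (hf : Measurable f) :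
    (∫⁻ u, W u * f u) ^ 2 ≤ (∫⁻ u, W u) * ∫⁻ u, W u * f u ^ 2 := by
  have h := ENNReal.lintegral_mul_le_Lp_mul_Lq (volume : Measure ℝ) Real.HolderConjugate.two_two
    (f := fun u => W u ^ (1 / 2 : ℝ)) (g := fun u => W u ^ (1 / 2 : ℝ) * f u)
    (hW.pow_const _).aemeasurable ((hW.pow_const _).mul hf).aemeasurable
  have e0 : ∀ a : ℝ≥0∞, (a ^ (1 / 2 : ℝ)) ^ (2 : ℝ) = a := fun a => by
    rw [← ENNReal.rpow_mul]
    norm_num
  have e1 : ∀ u, W u ^ (1 / 2 : ℝ) * (W u ^ (1 / 2 : ℝ) * f u) = W u * f u := fun u => by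
    rw [← mul_assoc, ← sq, ← ENNReal.rpow_two, e0]
  have e2 : ∀ u, (W u ^ (1 / 2 : ℝ) * f u) ^ (2 : ℝ) = W u * f u ^ 2 := fun u => by
    rw [ENNReal.mul_rpow_of_nonneg _ _ (by norm_num), e0, ENNReal.rpow_two]
  simp only [Pi.mul_apply, e0, e1, e2] at h
  calc (∫⁻ u, W u * f u) ^ 2
      ≤ ((∫⁻ u, W u) ^ (1 / 2 : ℝ) * (∫⁻ u, W u * f u ^ 2) ^ (1 / 2 : ℝ)) ^ 2 := by gcongr
    _ = _ := by rw [mul_pow, ← ENNReal.rpow_two, ← ENNReal.rpow_two, e0, e0]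

theorem sq_meas (l b : ℝ) : Measurable fun u : ℝ => ENNReal.ofReal (l * dc 2 (l * (b - u))) :=
  (continuous_const.mul ((continuous_dc 2).comp (by fun_prop))).measurable.ennreal_ofReal

theorem sq_int {l : ℝ} (hl : 0 < l) : ∫⁻ u, ENNReal.ofReal (l * dc 2 (l * u)) ≤ 2 := by
  have h := lintegral_dc_aff (n := 2) le_rfl hl 0
  simp only [add_zero] at h
  simp only [ENNReal.ofReal_mul hl.le]
  rw [lintegral_const_mul' _ _ ENNReal.ofReal_ne_top]
  calc _ ≤ ENNReal.ofReal l * ENNReal.ofReal (2 / l) := by gcongr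
    _ = 2 := by
      rw [← ENNReal.ofReal_mul hl.le, mul_div_cancel₀ _ hl.ne']
      exact ENNReal.ofReal_ofNat 2

theorem sq_int' {l : ℝ} (hl : 0 < l) (b : ℝ) :
    ∫⁻ u, ENNReal.ofReal (l * dc 2 (l * (b - u))) ≤ 2 := by
  rw [lintegral_sub_left_eq_self (fun u => ENNReal.ofReal (l * dc 2 (l * u))) b]
  exact sq_int hl

theorem ext_pt {l D : ℝ} (hl : 0 < l) (hD : 0 ≤ D) {ν : ℤ} {k : ℂ → ℂ} (hk : CapK l D ν k)
    {g : ℝ → ℂ} (hg : Measurable g) (x : ℂ) :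
    ‖ext (fun y => om l y * k y) g x‖ₑ ^ 2 ≤ ENNReal.ofReal (2 * D ^ 2 * l ^ 4 * dc 1 (l ^ 2 * x.im)) *
      ∫⁻ u, ENNReal.ofReal (l * dc 2 (l * (x.re + vel l ν * x.im - u))) * ‖g u‖ₑ ^ 2 := by
  set b := x.re + vel l ν * x.im with hb
  set t := l ^ 2 * x.im with ht
  have d1 := dc_pos 1 t
  have d2 := dc_pos 2 t
  have hpt : ∀ u : ℝ, ‖om l (x - u) * k (x - u) * g u‖ₑ ≤ ENNReal.ofReal (D * l ^ 2 * dc 2 t) *
      (ENNReal.ofReal (l * dc 2 (l * (b - u))) * ‖g u‖ₑ) := by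
    intro u
    have d3 := dc_pos 2 (l * (b - u))
    rw [enorm_mul, ← mul_assoc, ← ENNReal.ofReal_mul (by positivity), ← ofReal_norm]
    refine mul_le_mul_left (ENNReal.ofReal_le_ofReal ?_) _
    have h1 := norm_om_le l (x - u)
    have h2 := hk.bd (x - u)
    have i1 : (x - (u : ℂ)).im = x.im := by simp
    have i2 : (x - (u : ℂ)).re + vel l ν * x.im = b - u := by
      simp only [hb, Complex.sub_re, Complex.ofReal_re]
      ring
    rw [i1, ← ht] at h1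
    rw [i1, i2, ← ht] at h2
    have e : (1 + |t|) * dc 3 t = dc 2 t := by
      have : 0 < 1 + |t| := by positivity
      simp only [dc]
      field_simp
    rw [norm_mul]
    calc _ ≤ (1 + |t|) * (D * l ^ 3 * (dc 2 (l * (b - u)) * dc 3 t)) :=
          mul_le_mul h1 h2 (norm_nonneg _) (by positivity)
      _ = D * l ^ 3 * dc 2 (l * (b - u)) * ((1 + |t|) * dc 3 t) := by ring
      _ = _ := by
        rw [e]
        ring
  have h1 : ‖ext (fun y => om l y * k y) g x‖ₑ ≤ ENNReal.ofReal (D * l ^ 2 * dc 2 t) *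
      ∫⁻ u, ENNReal.ofReal (l * dc 2 (l * (b - u))) * ‖g u‖ₑ := by
    rw [← lintegral_const_mul' _ _ ENNReal.ofReal_ne_top]
    exact (enorm_integral_le_lintegral_enorm _).trans (lintegral_mono hpt)
  have h2 := sq_cs (sq_meas l b) hg.enorm
  have h3 : (D * l ^ 2 * dc 2 t) ^ 2 * 2 ≤ 2 * D ^ 2 * l ^ 4 * dc 1 t := by
    have k1 : dc 2 t * dc 2 t ≤ dc 1 t := by
      rw [← dc_add]
      exact dc_anti (by norm_num) t
    have k2 : 0 ≤ 2 * D ^ 2 * l ^ 4 := by positivity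
    calc _ = 2 * D ^ 2 * l ^ 4 * (dc 2 t * dc 2 t) := by ring
      _ ≤ _ := mul_le_mul_of_nonneg_left k1 k2
  calc _ ≤ (ENNReal.ofReal (D * l ^ 2 * dc 2 t) *
        ∫⁻ u, ENNReal.ofReal (l * dc 2 (l * (b - u))) * ‖g u‖ₑ) ^ 2 := by gcongr
    _ ≤ ENNReal.ofReal (D * l ^ 2 * dc 2 t) ^ 2 *
        (2 * ∫⁻ u, ENNReal.ofReal (l * dc 2 (l * (b - u))) * ‖g u‖ₑ ^ 2) := by
      rw [mul_pow]
      exact mul_le_mul_right (h2.trans (mul_le_mul_left (sq_int' hl b) _)) _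
    _ ≤ _ := by
      rw [← mul_assoc, ← ENNReal.ofReal_pow (by positivity), ← ENNReal.ofReal_ofNat 2,
        ← ENNReal.ofReal_mul (by positivity)]
      exact mul_le_mul_left (ENNReal.ofReal_le_ofReal h3) _

theorem sq_caps {η : ℝ} (hη : 0 < η) : ∃ C : ℝ, 0 < C ∧ ∀ l D : ℝ, 0 < l → l ≤ 1 / 20 → 0 ≤ D →
    ∀ k : ℤ → ℂ → ℂ, (∀ ν ∈ idx l, CapK l D ν (k ν)) → ∀ g, Nice g →
      Np volume 4 (fun x => om l x * ∑ ν ∈ idx l, ext (k ν) (gv l ν g) x) ≤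
        ENNReal.ofReal (C * D ^ 4 * l ^ (-η)) * ENNReal.ofReal (l ^ 6) * Np volume 4 g := by
  obtain ⟨C, hC, hb⟩ := bil hη
  refine ⟨450 * 4 * 64 * C, by positivity, fun l D hl hl1 hD k hk g hg => ?_⟩
  set H : ℤ → ℂ → ℂ := fun ν => ext (fun y => om l y * k ν y) (gv l ν g) with hH
  set W : ℝ → ℝ≥0∞ := fun u => ENNReal.ofReal (l * dc 2 (l * u)) with hW
  set h : ℤ → ℝ → ℝ≥0∞ := fun ν y => ∫⁻ u, W (y - u) * ‖gv l ν g u‖ₑ ^ 2 with hh
  have mW : Measurable W :=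
    (continuous_const.mul ((continuous_dc 2).comp (by fun_prop))).measurable.ennreal_ofReal
  have mg : ∀ ν, Measurable fun u => ‖gv l ν g u‖ₑ ^ 2 := fun ν =>
    (gv_nice hl ν hg).meas.enorm.pow_const 2
  have mh : ∀ ν, Measurable (h ν) := fun ν =>
    Measurable.lintegral_prod_right' (f := fun q : ℝ × ℝ => W (q.1 - q.2) * ‖gv l ν g q.2‖ₑ ^ 2)
      ((mW.comp (measurable_fst.sub measurable_snd)).mul ((mg ν).comp measurable_snd))
  have e0 : (fun x => om l x * ∑ ν ∈ idx l, ext (k ν) (gv l ν g) x) =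
      fun x => ∑ ν ∈ idx l, H ν x := by
    funext x
    rw [Finset.mul_sum]
    exact Finset.sum_congr rfl fun ν _ => om_ext l _ _ x
  have kH : ∀ ν ∈ idx l, Ker (H ν) := fun ν hν =>
    ext_ker ((hk ν hν).ker_om hl) (gv_nice hl ν hg)
  have vH : ∀ ν ∈ idx l, ∀ ξ ∉ Cap l ν, 𝓕 (H ν) ξ = 0 := fun ν hν ξ hξ => by
    rw [hH, fourier_ext ((hk ν hν).ker_om hl) (gv_nice hl ν hg), (hk ν hν).van ξ hξ, zero_mul]
  have h1 := almost_orth (idx l) kH fun a ha b hb' c hc d hd hn =>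
    orth4 (kH a ha) (kH b hb') (kH c hc) (kH d hd) (R := 1) (fun _ => norm_le_of_cap)
      (fun _ => norm_le_of_cap) (fun _ => norm_le_of_cap) (fun _ => norm_le_of_cap) (vH a ha)
      (vH b hb') (vH c hc) (vH d hd) fun _ m1 _ m2 _ m3 _ m4 e => hn (cap_near hl hl1 m1 m2 m3 m4 e)
  have h2 : ∀ a ∈ idx l, ∀ b ∈ idx l, ∫⁻ x, ‖H a x‖ₑ ^ 2 * ‖H b x‖ₑ ^ 2 ≤
      ENNReal.ofReal (4 * D ^ 4 * l ^ 8) * ∫⁻ x : ℂ, ENNReal.ofReal (dc 2 (l ^ 2 * x.im)) *
        (h a (x.re + vel l a * x.im) * h b (x.re + vel l b * x.im)) := by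
    intro a ha b hb'
    rw [← lintegral_const_mul' _ _ ENNReal.ofReal_ne_top]
    refine lintegral_mono fun x => ?_
    have d1 := dc_pos 1 (l ^ 2 * x.im)
    refine (mul_le_mul' (ext_pt hl hD (hk a ha) (gv_nice hl a hg).meas x)
      (ext_pt hl hD (hk b hb') (gv_nice hl b hg).meas x)).trans (le_of_eq ?_)
    have e : 2 * D ^ 2 * l ^ 4 * dc 1 (l ^ 2 * x.im) * (2 * D ^ 2 * l ^ 4 * dc 1 (l ^ 2 * x.im)) =
        4 * D ^ 4 * l ^ 8 * dc 2 (l ^ 2 * x.im) := by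
      rw [show dc 2 (l ^ 2 * x.im) = dc 1 (l ^ 2 * x.im) * dc 1 (l ^ 2 * x.im) from dc_add 1 1 _]
      ring
    rw [mul_mul_mul_comm, ← ENNReal.ofReal_mul (by positivity), e,
      ← mul_assoc (ENNReal.ofReal (4 * D ^ 4 * l ^ 8)),
      ← ENNReal.ofReal_mul (by positivity : 0 ≤ 4 * D ^ 4 * l ^ 8)]
  have h3 := hb l hl (by linarith) (idx l) (vel l) h mh fun ν hν μ hμ => vel_sep hl hν hμ
  have h4 : ∫⁻ y, (∑ ν ∈ idx l, h ν y) ^ 2 ≤ 64 * Np volume 4 g := by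
    have e1 : ∀ y, ∑ ν ∈ idx l, h ν y =
        ∫⁻ u, W (y - u) * ∑ ν ∈ idx l, ‖gv l ν g u‖ₑ ^ 2 := fun y => by
      simp only [hh, Finset.mul_sum]
      exact (lintegral_finsetSum _ fun ν _ =>
        (mW.comp (measurable_const.sub measurable_id)).mul (mg ν)).symm
    have e2 := young_enn (p := 2) one_le_two mW
      (Finset.measurable_sum (idx l) fun ν _ => mg ν)
    simp only [ENNReal.rpow_two] at e2
    simp only [e1]
    refine e2.trans ((mul_le_mul' (pow_le_pow_left' (sq_int hl) 2)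
      (sq_fun hl (idx l) hg)).trans (le_of_eq ?_))
    rw [← mul_assoc]
    norm_num
  have hp : 0 < l ^ (-η) := rpow_pos_of_pos hl _
  rw [e0]
  calc _ ≤ _ := h1
    _ ≤ 450 * ∑ a ∈ idx l, ∑ b ∈ idx l, ENNReal.ofReal (4 * D ^ 4 * l ^ 8) *
        ∫⁻ x : ℂ, ENNReal.ofReal (dc 2 (l ^ 2 * x.im)) *
          (h a (x.re + vel l a * x.im) * h b (x.re + vel l b * x.im)) :=
      mul_le_mul_right (Finset.sum_le_sum fun a ha => Finset.sum_le_sum fun b hb' => h2 a ha b hb') _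
    _ ≤ 450 * (ENNReal.ofReal (4 * D ^ 4 * l ^ 8) *
        (ENNReal.ofReal (C * (l ^ 2)⁻¹ * l ^ (-η)) * (64 * Np volume 4 g))) := by
      simp only [← Finset.mul_sum]
      exact mul_le_mul_right (mul_le_mul_right (h3.trans (mul_le_mul_right h4 _)) _) _
    _ = _ := by
      rw [← ENNReal.ofReal_ofNat 450, ← ENNReal.ofReal_ofNat 64, ← mul_assoc, ← mul_assoc,
        ← mul_assoc, ← ENNReal.ofReal_mul (by positivity), ← ENNReal.ofReal_mul (by positivity),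
        ← ENNReal.ofReal_mul (by positivity), ← ENNReal.ofReal_mul (by positivity)]
      congr 2
      field_simp

end Vale.Agent.P117
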