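import Vale.Agent.P117.CapB
import Vale.Agent.P117.Sq
import Vale.Agent.P117.Freeze

/-!
The planar `L⁴` estimate. `sector`: take `ψ` from `exists_psi`; where `ann * q ≠ 0` one has `|ξ.re| ≤ 4/5`, so
`ann * q * 𝓕 g = ∑ ν ∈ idx l, capM ν * 𝓕 (gv l ν g)` (`idx_cover`, `fourier_gv`); `ext_eq`, `inv_sum`, `cap_kernel`, `sq_caps`, `freeze`.
`l4`: `σ u = smoothTransition (10 * u - 6)`, `τ ξ = 1 - σ ξ.im - σ (-ξ.im)`; on the annulus (`‖ξ‖² ≥ 99/100`)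
`1 = σ ξ.im + σ (-ξ.im) + τ ξ * σ ξ.re + τ ξ * σ (-ξ.re)`. Each piece is `(ann * q) ∘ A` for `A` a power of the rotation
`ξ ↦ I * ξ` (`rotation`, or build the isometry by hand) and `q` as in `sector`; `cv_iso`, `Dec.comp_I`, invariance of the measure,
`Np_add_le'`.
-/

open MeasureTheory Set Real Filter
open scoped FourierTransform RealInnerProductSpace ContDiff ENNReal Topology

noncomputable section

namespace Vale.Agent.P117

variable {φ : ℝ → ℂ} {η : ℝ}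

theorem sector (hη : 0 < η) (hφ : Prof φ) {q : ℂ → ℂ} (hq : ContDiff ℝ ∞ q)
    (hq0 : ∀ ξ : ℂ, ξ.im < 3 / 5 → q ξ = 0) : ∃ C : ℝ, 0 < C ∧ ∀ l : ℝ, 0 < l → l ≤ 1 / 20 →
      ∀ G, Dec G → Np volume 4 (cv (𝓕⁻ fun ξ => ann φ (l ^ 2) ξ * q ξ) G) ≤
        ENNReal.ofReal (C * l ^ (-η)) * Np volume 4 G := by
  obtain ⟨ψ, p1, p2, p3⟩ := exists_psi
  obtain ⟨D, hD, hk⟩ := cap_kernel hφ hq hq0 p1 p2
  obtain ⟨C1, h1, hs⟩ := sq_caps hη
  obtain ⟨C2, h2, hf⟩ := freeze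
  refine ⟨C2 * (C1 * D ^ 4) + 1, by positivity, fun l l0 l1 G hG => ?_⟩
  have hN := (ann_sm (V := ℂ) hφ (pow_pos l0 2)).mul hq
  refine (hf l l0 _ hN.ker_inv (ENNReal.ofReal (C1 * D ^ 4 * l ^ (-η))) (fun g hg => ?_)
    G hG).trans ?_
  · refine le_trans (le_of_eq ?_) (hs l D l0 l1 hD _ (hk l l0 l1) g hg)
    refine congrArg (Np volume 4) (funext fun x => congrArg (om l x * ·) ?_)
    have hi := fun ν => (capM_sm hφ hq p1 l0 ν).ker.int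
    rw [ext_eq hN.ker.int hg.int, Finset.sum_congr rfl fun ν _ =>
      ext_eq (hi ν) (gv_nice l0 ν hg).int x,
      ← inv_sum _ (M := fun ν ξ => capM φ q ψ l ν ξ * 𝓕 (gv l ν g) ξ.re) fun ν _ => (hi ν).mul_bdd
        ((continuous_fourier (gv_nice l0 ν hg).int).comp
          Complex.continuous_re).aestronglyMeasurable
        (Eventually.of_forall fun ξ => norm_fourier_le _ _)]
    refine congrArg (fun m : ℂ → ℂ => 𝓕⁻ m x) (funext fun ξ => ?_)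
    simp only [capM, fourier_gv l0 _ hg]
    by_cases h0 : ann φ (l ^ 2) ξ * q ξ = 0
    · simp only [h0, zero_mul, Finset.sum_const_zero]
    · have a1 := (ann_ne hφ (pow_pos l0 2) (left_ne_zero_of_mul h0)).2
      have a2 : 3 / 5 ≤ ξ.im := not_lt.1 fun h => right_ne_zero_of_mul h0 (hq0 ξ h)
      rw [norm_sq_cx] at a1
      have a3 := p3 _ _ (idx_cover l0 l1 (ρ := ξ.re) (abs_le_of_sq_le_sq (by nlinarith) (by norm_num)))
      rw [← mul_one (_ * 𝓕 g ξ.re), ← a3, Finset.mul_sum]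
      exact Finset.sum_congr rfl fun ν _ => by ring
  · rw [← ENNReal.ofReal_mul h2.le]
    have := rpow_pos_of_pos l0 (-η)
    exact mul_le_mul_left (ENNReal.ofReal_le_ofReal (by nlinarith)) _

/-- the estimate for the multiplier `q` -/
def l4_P (φ : ℝ → ℂ) (η : ℝ) (q : ℂ → ℂ) : Prop := ∃ C : ℝ, 0 < C ∧ ∀ l : ℝ, 0 < l → l ≤ 1 / 20 →
  ∀ G, Dec G → Np volume 4 (cv (𝓕⁻ fun ξ => ann φ (l ^ 2) ξ * q ξ) G) ≤
    ENNReal.ofReal (C * l ^ (-η)) * Np volume 4 G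

theorem l4_iso (A : ℂ ≃ₗᵢ[ℝ] ℂ) (F : ℂ → ℂ) : Np volume 4 (fun x => F (A x)) = Np volume 4 F :=
  A.measurePreserving.lintegral_comp_emb A.toHomeomorph.measurableEmbedding
    fun x => ‖F x‖ₑ ^ (4 : ℝ)

theorem l4_rot {q : ℂ → ℂ} (h : l4_P φ η q) : l4_P φ η fun ξ => q (Complex.I * ξ) := by
  obtain ⟨C, hC, h⟩ := h
  refine ⟨C, hC, fun l l0 l1 G hG => ?_⟩
  obtain ⟨A, hA⟩ : ∃ A : ℂ ≃ₗᵢ[ℝ] ℂ, ∀ x, A x = Complex.I * x :=
    ⟨rotation ⟨Complex.I, by simp [Submonoid.unitSphere]⟩, fun _ => rfl⟩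
  have e1 : G ∘ A.symm = fun x => G (Complex.I * (Complex.I * (Complex.I * x))) :=
    funext fun x => congrArg G (A.symm_apply_eq.2 (by simp [hA, ← mul_assoc]))
  have e2 : (fun ξ => ann φ (l ^ 2) ξ * q (Complex.I * ξ)) =
      (fun ξ => ann φ (l ^ 2) ξ * q ξ) ∘ A := by
    funext ξ
    simp only [Function.comp_apply, ann, A.norm_map]
    rw [hA]
  rw [e2, funext (cv_iso A _ G), l4_iso, ← l4_iso A.symm G]
  exact h l l0 l1 _ (e1 ▸ hG.comp_I.comp_I.comp_I)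

theorem l4_add (hφ : Prof φ) {q q' : ℂ → ℂ} (hq : ContDiff ℝ ∞ q) (hq' : ContDiff ℝ ∞ q')
    (h : l4_P φ η q) (h' : l4_P φ η q') : l4_P φ η fun ξ => q ξ + q' ξ := by
  obtain ⟨C, hC, h⟩ := h
  obtain ⟨C', hC', h'⟩ := h'
  refine ⟨16 * (C + C'), by positivity, fun l l0 l1 G hG => ?_⟩
  have hN := (ann_sm (V := ℂ) hφ (pow_pos l0 2)).mul hq
  have hN' := (ann_sm (V := ℂ) hφ (pow_pos l0 2)).mul hq'
  have := rpow_pos_of_pos l0 (-η)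
  simp only [mul_add _ (q _)]
  rw [funext (inv_add hN.ker.int hN'.ker.int),
    funext (cv_add_left hN.ker_inv hN'.ker_inv hG.nice.int)]
  refine (Np_add_le' (by norm_num) (cv_nice hN.ker_inv.nice hG.nice).meas _).trans
    ((mul_le_mul_right (add_le_add (h l l0 l1 G hG) (h' l l0 l1 G hG)) _).trans (le_of_eq ?_))
  rw [← add_mul, ← ENNReal.ofReal_add (by positivity) (by positivity), ← mul_assoc, mul_assoc 16,
    ENNReal.ofReal_mul (by norm_num), add_mul]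
  norm_num

theorem l4 (hη : 0 < η) (hφ : Prof φ) : ∃ C : ℝ, 0 < C ∧ ∀ l : ℝ, 0 < l → l ≤ 1 / 20 →
    ∀ G, Dec G → Np volume 4 (cv (𝓕⁻ (ann φ (l ^ 2) : ℂ → ℂ)) G) ≤
      ENNReal.ofReal (C * l ^ (-η)) * Np volume 4 G := by
  obtain ⟨σ, s0, s1, s2⟩ : ∃ σ : ℝ → ℂ, ContDiff ℝ ∞ σ ∧ (∀ u, u < 3 / 5 → σ u = 0) ∧
      ∀ u, 7 / 10 ≤ u → σ u = 1 :=
    ⟨fun u => smoothTransition (10 * u - 6), Complex.ofRealCLM.contDiff.comp
      (smoothTransition.contDiff.comp (by fun_prop)),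
      fun u hu => Complex.ofReal_eq_zero.2 (smoothTransition.zero_of_nonpos (by linarith)),
      fun u hu => Complex.ofReal_eq_one.2 (smoothTransition.one_of_one_le (by linarith))⟩
  have dI : ∀ {q : ℂ → ℂ}, ContDiff ℝ ∞ q → ContDiff ℝ ∞ fun ξ : ℂ => q (Complex.I * ξ) :=
    fun h => h.comp (contDiff_const.mul contDiff_id)
  have d1 : ContDiff ℝ ∞ fun ξ : ℂ => σ ξ.im := s0.comp Complex.imCLM.contDiff
  have d4 : ContDiff ℝ ∞ fun ξ : ℂ => σ ξ.re := s0.comp Complex.reCLM.contDiff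
  have d5 : ContDiff ℝ ∞ fun ξ : ℂ => σ (-ξ.re) := s0.comp Complex.reCLM.contDiff.neg
  obtain ⟨t, d2, t1, t2⟩ : ∃ t : ℂ → ℂ, ContDiff ℝ ∞ t ∧ (∀ ξ : ℂ, ξ.im < 3 / 5 → t ξ = 0) ∧
      ∀ ξ, t ξ = (1 - σ ξ.re - σ (-ξ.re)) * σ ξ.im :=
    ⟨_, ((contDiff_const.sub d4).sub d5).mul d1, fun ξ h => mul_eq_zero_of_right _ (s1 _ h),
      fun _ => rfl⟩
  obtain ⟨s, d3, a1, a2⟩ : ∃ s : ℂ → ℂ, ContDiff ℝ ∞ s ∧ l4_P φ η s ∧
      ∀ ξ, s ξ = σ ξ.im + t (Complex.I * ξ) :=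
    ⟨_, d1.add (dI d2), l4_add hφ d1 (dI d2) (sector hη hφ d1 fun ξ h => s1 _ h)
      (l4_rot (sector hη hφ d2 t1)), fun _ => rfl⟩
  have a3 := l4_rot a1
  have a4 := l4_rot a3
  have d6 := dI d3
  have d7 := dI d6
  obtain ⟨C, hC, h⟩ := l4_add hφ d3 d7 a1 a4
  refine ⟨C, hC, fun l l0 l1 G hG => le_trans (le_of_eq ?_) (h l l0 l1 G hG)⟩
  refine congrArg (fun m : ℂ → ℂ => Np volume 4 (cv (𝓕⁻ m) G)) (funext fun ξ => ?_)
  by_cases h0 : (ann φ (l ^ 2) ξ : ℂ) = 0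
  · rw [h0, zero_mul]
  refine (mul_one _).symm.trans (congrArg (ann φ (l ^ 2) ξ * ·) ?_)
  have b1 := (ann_ne hφ (pow_pos l0 2) h0).1
  rw [norm_sq_cx] at b1
  simp only [a2, t2, Complex.I_mul_re, Complex.I_mul_im, neg_neg]
  have key : ∀ u : ℝ, 7 / 10 ≤ |u| → σ u + σ (-u) = 1 := fun u hu => by
    rcases le_abs.1 hu with h | h
    · rw [s2 _ h, s1 (-u) (by linarith), add_zero]
    · rw [s2 _ h, s1 u (by linarith), zero_add]
  rcases le_or_gt (7 / 10) |ξ.im| with b2 | b2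
  · linear_combination (σ ξ.re + σ (-ξ.re) - 1) * key _ b2
  · have b3 : 7 / 10 ≤ |ξ.re| := not_lt.1 fun b3 => by
      nlinarith [sq_abs ξ.re, sq_abs ξ.im, abs_nonneg ξ.im, abs_nonneg ξ.re]
    linear_combination (σ ξ.im + σ (-ξ.im) - 1) * key _ b3

end Vale.Agent.P117
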