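import Vale.Agent.P117.W
import Vale.Agent.P117.KerB
import Vale.Agent.P117.PrimX
import Vale.Agent.P117.SS
import Vale.Agent.P117.Rad
import Vale.Agent.P117.FBP
import Vale.Agent.P117.CutB

/-!
One piece. `Np_cyl` for `cv K f` (`Eqv.cv`, `inv_rot`, `pc_rot`, `cv_ker`), `fbp` with `G = rad (𝓕 b) k lam f`, `ss_out` for every `z`, `lintegral_cx`, `wlp` (with `η * p`),
`lintegral_cx`, `ss_in`, `Np_cyl`. The powers of `lam` cancel. The constant is `(16 C D₁) (16 C D₂) C' ^ (1/p)`.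
-/

open MeasureTheory Set Real Filter
open scoped FourierTransform RealInnerProductSpace ContDiff ENNReal Topology

noncomputable section

namespace Vale.Agent.P117

theorem piece_cx {lam p : ℝ} (hl : 0 ≤ lam) (s : ℝ) {G : ℂ → ℂ} (hG : Measurable G) :
    Np volume p (wm lam s G) = ∫⁻ z : ℝ, ∫⁻ t : ℝ, ‖(wt lam s t : ℂ) * G ⟨t, z⟩‖ₑ ^ p := by
  have h1 : Measurable (wm lam s G) :=
    (Complex.measurable_ofReal.comp (w_meas hl s)).mul hG
  exact lintegral_cx (h1.enorm.pow_const p)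

theorem piece {p η : ℝ} (h2 : 2 ≤ p) (h3 : p < 3) (hη : 0 < η) {φ : ℝ → ℂ} (hφ : Prof φ) :
    ∃ C : ℝ, 0 < C ∧ ∀ l lam : ℝ, 0 < l → l ≤ 1 / 20 → 0 < lam → ∀ k : ℤ,
      Bd p k (C * (1 + |(k : ℝ)|) ^ 2 * l ^ (-η)) (𝓕⁻ (pc φ (l ^ 2) lam)) := by
  have hp : 0 < p := by linarith
  obtain ⟨a, b, ha, hb, hab⟩ := exists_ab
  obtain ⟨D₁, hD₁, h1⟩ := ha.prim_inv
  obtain ⟨D₂, hD₂, h2'⟩ := hb.prim_fourier
  obtain ⟨C, hC, hB⟩ := Bk_le
  obtain ⟨C', hC', hW⟩ := wlp h2 h3 (mul_pos hη hp) hφ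
  refine ⟨16 * (C * D₁) * (16 * (C * D₂)) * C' ^ (1 / p), by positivity,
    fun l lam hl hl' hlam k f hf => ?_⟩
  have hε : 0 < l ^ 2 := by positivity
  have hm := pc_sm hφ hε lam
  have hM : Sm (ann φ (l ^ 2) : ℂ → ℂ) := ann_sm hφ hε
  have hG := rad_dec h2' hf hlam
  set G := rad (𝓕 b) k lam f with hGd
  set H := cv (𝓕⁻ (ann φ (l ^ 2) : ℂ → ℂ)) G with hH
  have hHm : Measurable H := (cv_ker hM.ker_inv hG.nice).cont.measurable
  have hk : 0 < 1 + |(k : ℝ)| := by positivity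
  set E₁ := C * D₁ * (1 + |(k : ℝ)|) with hE₁
  set E₂ := C * D₂ * (1 + |(k : ℝ)|) with hE₂
  have p1 : 0 < E₁ := by positivity
  have p2 : 0 < E₂ := by positivity
  have e1 : ∫⁻ z : ℝ, ∫⁻ r in Ioi (0 : ℝ),
      ‖cv (𝓕⁻ (pc φ (l ^ 2) lam)) f (pt r 0 z)‖ₑ ^ p * ENNReal.ofReal r ≤
      ENNReal.ofReal ((16 * E₁) ^ p * lam ^ (p - 1)) * Np volume p (wm lam (1 / 2 - 1 / p) H) := by
    rw [piece_cx hlam.le _ hHm, ← lintegral_const_mul' _ _ ENNReal.ofReal_ne_top]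
    refine lintegral_mono fun z => ?_
    simp only [fbp hM ha hab hlam hm.ker.int (pc_eq φ _ lam) hf.nice.int hf.eqv hG.nice
      (fourier_rad hb h2' hf hlam)]
    exact ss_out h2 (by linarith) p1.le hlam (hB _ _ h1 k)
      (hHm.comp (measurable_mk.comp (measurable_id.prodMk measurable_const)))
  have e2 : Np volume p (wm lam (1 / 2 - 1 / p) G) ≤
      ENNReal.ofReal ((16 * E₂) ^ p * lam ^ (1 - p)) *
        ∫⁻ z : ℝ, ∫⁻ r in Ioi (0 : ℝ), ‖f (pt r 0 z)‖ₑ ^ p * ENNReal.ofReal r := by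
    rw [piece_cx hlam.le _ hG.meas, ← lintegral_const_mul' _ _ ENNReal.ofReal_ne_top]
    refine lintegral_mono fun z => ?_
    exact ss_in h2 (by linarith) p2.le hlam (hB _ _ h2' k) (F := fun r => f (pt r 0 z))
      ((rad_meas hf z).comp (measurable_id.prodMk measurable_const))
  have e3 : ENNReal.ofReal ((16 * E₁) ^ p * lam ^ (p - 1)) * (ENNReal.ofReal (C' * l ^ (-(η * p))) *
      ENNReal.ofReal ((16 * E₂) ^ p * lam ^ (1 - p))) =
      ENNReal.ofReal (16 * (C * D₁) * (16 * (C * D₂)) * C' ^ (1 / p) * (1 + |(k : ℝ)|) ^ 2 *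
        l ^ (-η)) ^ p := by
    rw [ENNReal.ofReal_rpow_of_nonneg (by positivity) hp.le, ← ENNReal.ofReal_mul (by positivity),
      ← ENNReal.ofReal_mul (by positivity)]
    congr 1
    have q1 : 16 * (C * D₁) * (16 * (C * D₂)) * C' ^ (1 / p) * (1 + |(k : ℝ)|) ^ 2 * l ^ (-η) =
        16 * E₁ * (16 * E₂ * (C' ^ (1 / p) * l ^ (-η))) := by
      rw [hE₁, hE₂]
      ring
    have q2 : lam ^ (p - 1) * lam ^ (1 - p) = 1 := by
      rw [← Real.rpow_add hlam, sub_add_sub_cancel, sub_self, Real.rpow_zero]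
    rw [q1, Real.mul_rpow (x := 16 * E₁) (by positivity) (by positivity),
      Real.mul_rpow (x := 16 * E₂) (by positivity) (by positivity),
      Real.mul_rpow (x := C' ^ (1 / p)) (by positivity) (by positivity), ← Real.rpow_mul hC'.le,
      ← Real.rpow_mul hl.le, one_div_mul_cancel hp.ne', Real.rpow_one, neg_mul]
    linear_combination ((16 * E₁) ^ p * (16 * E₂) ^ p * C' * l ^ (-(η * p))) * q2
  rw [Np_cyl (cv_ker hm.ker_inv hf.nice).cont.measurable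
    (Eqv.cv (inv_rot (pc_rot φ _ lam)) hf.eqv), Np_cyl hf.meas hf.eqv, ← e3, mul_left_comm]
  refine mul_le_mul_right (e1.trans ?_) _
  rw [mul_assoc, mul_assoc]
  exact mul_le_mul_right ((hW l lam hl hl' hlam G hG).trans (mul_le_mul_right e2 _)) _

end Vale.Agent.P117
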