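import Mathlib

/-! Definitions used in the statement for P117. -/

open MeasureTheory Real
open scoped FourierTransform RealInnerProductSpace

noncomputable section

namespace Vale.Agent.P117

/-- Euclidean three-space. -/
abbrev E3 := EuclideanSpace ℝ (Fin 3)

/-- Rotation by the angle `θ` about the third coordinate axis. -/
def rot (θ : ℝ) (x : E3) : E3 :=
  !₂[cos θ * x 0 - sin θ * x 1, sin θ * x 0 + cos θ * x 1, x 2]

/-- The Bochner-Riesz operator of order `δ`. -/
def BR (δ : ℝ) (f : E3 → ℂ) (x : E3) : ℂ :=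
  ∫ ξ : E3, ((max (1 - ‖ξ‖ ^ 2) 0 ^ δ : ℝ) : ℂ) * 𝓕 f ξ *
    Complex.exp (((2 * π * ⟪x, ξ⟫ : ℝ) : ℂ) * Complex.I)

end Vale.Agent.P117
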