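import Vale.Agent.P117.All

/-!
Summation of the dyadic pieces. Induction on `N` from `5` with `mN_succ`, `inv_add`, `inv_const_mul`, `Bd.add`, `Bd.const_mul`; choose `σ` between the critical order and `δ`
and carry the bound `C₀ + C ∑ n ∈ range N, r ^ n`, `r = 4 ^ (σ - δ) < 1`, at most `C₀ + C / (1 - r)`. The start is `Bd.of_L1` for the fixed kernel `𝓕⁻ (mN δ 5)`.
-/

open MeasureTheory Set Real Filter
open scoped FourierTransform RealInnerProductSpace ContDiff ENNReal Topology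

noncomputable section

namespace Vale.Agent.P117

variable {p δ : ℝ}

theorem sumn_ker {K : E3 → ℂ} (hK : Ker K) (c : ℂ) : Ker fun x => c * K x := by
  obtain ⟨C, hC⟩ := hK.bdd
  refine ⟨continuous_const.mul hK.cont, hK.int.const_mul c, ‖c‖ * C, fun x => ?_⟩
  rw [norm_mul]
  exact mul_le_mul_of_nonneg_left (hC x) (norm_nonneg c)

theorem sumn_ind {P : ℝ → (E3 → ℂ) → Prop}
    (hadd : ∀ A B K K', Ker K → Ker K' → 0 ≤ A → 0 ≤ B → P A K → P B K' →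
      P (A + B) fun x => K x + K' x)
    (hmul : ∀ (A : ℝ) K (c : ℝ), 0 ≤ c → P A K → P (c * A) fun x => (c : ℂ) * K x)
    {σ C₀ C : ℝ} (hσ : σ < δ) (h0 : 0 ≤ C₀) (hC : 0 ≤ C) (hs : P C₀ (𝓕⁻ (mN δ 5)))
    (hn : ∀ n : ℕ, 5 ≤ n → P (C * (4 ^ n) ^ σ) (𝓕⁻ (ann (ph δ) (4 ^ n)⁻¹ : E3 → ℂ)))
    {N : ℕ} (hN : 5 ≤ N) :
    ∃ A, A ≤ C₀ + C * (1 - (4 : ℝ) ^ (σ - δ))⁻¹ ∧ P A (𝓕⁻ (mN δ N)) := by
  have hr0 : 0 < (4 : ℝ) ^ (σ - δ) := by positivity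
  have hr1 : (4 : ℝ) ^ (σ - δ) < 1 :=
    Real.rpow_lt_one_of_one_lt_of_neg (by norm_num) (sub_neg.2 hσ)
  have h1 : ∃ A, 0 ≤ A ∧ A ≤ C₀ + C * ∑ n ∈ Finset.range N, ((4 : ℝ) ^ (σ - δ)) ^ n ∧
      P A (𝓕⁻ (mN δ N)) := by
    induction N, hN using Nat.le_induction with
    | base => exact ⟨C₀, h0, le_add_of_nonneg_right (by positivity), hs⟩
    | succ N hN ih =>
      obtain ⟨A, a0, a1, a2⟩ := ih
      have hsm : Sm (ann (ph δ) (4 ^ N)⁻¹ : E3 → ℂ) := ann_sm (ph_prof δ) (by positivity)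
      have e1 : 𝓕⁻ (mN δ (N + 1)) = fun x => 𝓕⁻ (mN δ N) x +
          ((((4 : ℝ) ^ N) ^ (-δ) : ℝ) : ℂ) * 𝓕⁻ (ann (ph δ) (4 ^ N)⁻¹ : E3 → ℂ) x := by
        funext x
        rw [funext (mN_succ δ N), inv_add (mN_sm δ N).ker.int (hsm.ker.int.const_mul _),
          inv_const_mul]
      have e2 : ((4 : ℝ) ^ N) ^ (-δ) * (C * (4 ^ N) ^ σ) = C * ((4 : ℝ) ^ (σ - δ)) ^ N := by
        rw [Real.rpow_pow_comm (by norm_num), sub_eq_add_neg, Real.rpow_add (by positivity)]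
        ring
      refine ⟨A + ((4 : ℝ) ^ N) ^ (-δ) * (C * (4 ^ N) ^ σ), by positivity, ?_, ?_⟩
      · rw [e2, Finset.sum_range_succ, mul_add]
        linarith
      · rw [e1]
        exact hadd _ _ _ _ (mN_sm δ N).ker_inv (sumn_ker hsm.ker_inv _) a0 (by positivity) a2
          (hmul _ _ _ (by positivity) (hn N hN))
  obtain ⟨A, -, a1, a2⟩ := h1
  refine ⟨A, a1.trans (add_le_add_right (mul_le_mul_of_nonneg_left ?_ hC) _), a2⟩
  rw [← tsum_geometric_of_lt_one hr0.le hr1]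
  exact (summable_geometric_of_lt_one hr0.le hr1).sum_le_tsum _ fun n _ => by positivity

theorem sumn_pos {σ : ℝ} (hσ : σ < δ) : 0 < (1 - (4 : ℝ) ^ (σ - δ))⁻¹ :=
  inv_pos.2 (sub_pos.2 (Real.rpow_lt_one_of_one_lt_of_neg (by norm_num) (sub_neg.2 hσ)))

theorem bd_mN (h1 : 1 ≤ p) (hδ : max (3 * |1 / p - 1 / 2| - 1 / 2) 0 < δ) : ∃ C : ℝ, 0 < C ∧
    ∀ N : ℕ, 5 ≤ N → ∀ k : ℤ, Bd p k (C * (1 + |(k : ℝ)|) ^ 2) (𝓕⁻ (mN δ N)) := by
  obtain ⟨σ, hσ, hσ'⟩ := exists_between hδ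
  obtain ⟨C, hC, h⟩ := ann_full (ph_prof δ) h1 hσ
  have h0 : 0 ≤ ∫ x, ‖𝓕⁻ (mN δ 5) x‖ := integral_nonneg fun x => norm_nonneg _
  have h2 := sumn_pos hσ'
  refine ⟨(∫ x, ‖𝓕⁻ (mN δ 5) x‖) + C * (1 - (4 : ℝ) ^ (σ - δ))⁻¹, by positivity,
    fun N hN k => ?_⟩
  obtain ⟨A, a1, a2⟩ := sumn_ind (P := Bd p k)
    (fun A B K K' hK hK' hA hB => Bd.add h1 hK hK' hA hB)
    (fun A K c hc hK => hK.const_mul (zero_le_one.trans h1) hc) hσ' h0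
    (C := C * (1 + |(k : ℝ)|) ^ 2) (by positivity)
    (Bd.of_L1 h1 (mN_sm δ 5).ker_inv le_rfl k) (fun n hn => h n hn k) hN
  refine a2.mono (zero_le_one.trans h1) (a1.trans ?_)
  have h3 : 1 ≤ (1 + |(k : ℝ)|) ^ 2 := one_le_pow₀ (le_add_of_nonneg_right (abs_nonneg _))
  have h4 := le_mul_of_one_le_right h0 h3
  linarith

theorem l1_mN (hδ : 1 < δ) : ∃ C : ℝ, 0 < C ∧ ∀ N : ℕ, 5 ≤ N → ∫ x, ‖𝓕⁻ (mN δ N) x‖ ≤ C := by
  obtain ⟨C, hC, h⟩ := l1_ann (ph_prof δ)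
  have h0 : 0 ≤ ∫ x, ‖𝓕⁻ (mN δ 5) x‖ := integral_nonneg fun x => norm_nonneg _
  have h2 := sumn_pos hδ
  refine ⟨(∫ x, ‖𝓕⁻ (mN δ 5) x‖) + C * (1 - (4 : ℝ) ^ (1 - δ))⁻¹, by positivity,
    fun N hN => ?_⟩
  obtain ⟨A, a1, a2⟩ := sumn_ind (P := fun A K => ∫ x, ‖K x‖ ≤ A)
    (fun A B K K' hK hK' _ _ hA hB => by
      refine le_trans (integral_mono (hK.add hK').int.norm (hK.int.norm.add hK'.int.norm)
        fun x => norm_add_le _ _) ?_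
      rw [integral_add' hK.int.norm hK'.int.norm]
      exact add_le_add hA hB)
    (fun A K c hc hK => by
      simp only [norm_mul, Complex.norm_real, Real.norm_of_nonneg hc]
      rw [integral_const_mul]
      exact mul_le_mul_of_nonneg_left hK hc) hδ h0 hC.le le_rfl
    (fun n hn => by
      have h3 : (4 : ℝ) ^ 5 ≤ 4 ^ n := pow_le_pow_right₀ (by norm_num) hn
      refine (h _ (by positivity) ?_).trans_eq (by rw [Real.rpow_one, div_inv_eq_mul])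
      rw [one_div]
      exact inv_anti₀ (by norm_num) (le_trans (by norm_num) h3)) hN
  exact a2.trans a1

end Vale.Agent.P117
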