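import Vale.Agent.P117.WL2
import Vale.Agent.P117.L4
import Vale.Agent.P117.Marc

/-!
The weighted `L^p` estimate in the plane (Stein-Weiss by a change of measure). For `p = 2` it is `wl2` with `b = 0` (and `1 ≤ l ^ (-η)`). For `2 < p < 3` let
`b = (p / 2 - 1) / (4 - p) < 1/2`, `u x = wt lam b x.re`, `ν = volume.withDensity (ofReal (u ^ 4))`, and apply `marc` (exponents `2, p, 4`) to `f = G / u`,
`g = cv K G / u`, with `g₁ = cv K G₁ / u`, `G₁ = u * hi α f`, `G₂ = u * lo α f` (`Dec.of_le`, `cv_add_right`). Conversions: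
`Np ν q (F / u) = ∫⁻ ‖F‖ₑ ^ q * ofReal (u ^ (4 - q))` (`lintegral_withDensity_eq_lintegral_mul`), and `u ^ (4 - p) = wt lam (1/2 - 1/p) ^ p`.
-/

open MeasureTheory Set Real Filter
open scoped FourierTransform RealInnerProductSpace ContDiff ENNReal Topology

noncomputable section

namespace Vale.Agent.P117

theorem w_meas {lam : ℝ} (hl : 0 ≤ lam) (b : ℝ) : Measurable fun x : ℂ => wt lam b x.re :=
  ((continuous_wt hl b).comp Complex.continuous_re).measurable

theorem w_conv {lam q s b : ℝ} (hl : 0 ≤ lam) (hq : 0 ≤ q) (hs : s * q = b * (4 - q)) {F : ℂ → ℂ}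
    (hF : Measurable F) :
    Np (volume.withDensity fun x : ℂ => ENNReal.ofReal (wt lam b x.re ^ (4 : ℝ))) q
      (fun x => F x / wt lam b x.re) = Np volume q (wm lam s F) := by
  have h1 := w_meas hl b
  rw [Np, Np, lintegral_withDensity_eq_lintegral_mul _ (by fun_prop) (by fun_prop)]
  refine lintegral_congr fun x => ?_
  have h2 := wt_pos hl b x.re
  have h3 := wt_pos hl s x.re
  have h4 : 0 < 1 + lam * |x.re| := by positivity
  simp only [Pi.mul_apply, wm, ← ofReal_norm, norm_div, norm_mul, Complex.norm_real,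
    Real.norm_of_nonneg h2.le, Real.norm_of_nonneg h3.le]
  rw [ENNReal.ofReal_rpow_of_nonneg (by positivity) hq,
    ENNReal.ofReal_rpow_of_nonneg (by positivity) hq, ← ENNReal.ofReal_mul (by positivity),
    div_rpow (norm_nonneg _) h2.le, mul_rpow h3.le (norm_nonneg _), mul_div_assoc', mul_div_right_comm,
    ← rpow_sub h2, wt, wt, ← rpow_mul h4.le, ← rpow_mul h4.le, neg_mul, neg_mul, hs]

theorem wlp {p η : ℝ} (h2 : 2 ≤ p) (h3 : p < 3) (hη : 0 < η) {φ : ℝ → ℂ} (hφ : Prof φ) :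
    ∃ C : ℝ, 0 < C ∧ ∀ l lam : ℝ, 0 < l → l ≤ 1 / 20 → 0 < lam → ∀ G, Dec G →
      Np volume p (wm lam (1 / 2 - 1 / p) (cv (𝓕⁻ (ann φ (l ^ 2) : ℂ → ℂ)) G)) ≤
        ENNReal.ofReal (C * l ^ (-η)) * Np volume p (wm lam (1 / 2 - 1 / p) G) := by
  obtain ⟨A, hA, hA'⟩ := ann_pf hφ
  have one : ∀ l : ℝ, 0 < l → l ≤ 1 / 20 → 1 ≤ l ^ (-η) := fun l h h' =>
    one_le_rpow_of_pos_of_le_one_of_nonpos h (by linarith) (by linarith)
  rcases h2.eq_or_lt with rfl | h2
  · obtain ⟨C, hC, h⟩ := wl2 (b := 1 / 2 - 1 / 2) (by norm_num) (by norm_num)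
    refine ⟨C * A ^ 2, by positivity, fun l lam hl hl' hlam G hG => ?_⟩
    have h1 := hA' _ (pow_pos hl 2)
    refine (h _ A lam (ann_sm hφ (pow_pos hl 2)) hA hlam h1.1 h1.2 G hG).trans ?_
    exact mul_le_mul_left (ENNReal.ofReal_le_ofReal
      (le_mul_of_one_le_right (by positivity) (one l hl hl'))) _
  have h4 : 0 < 4 - p := by linarith
  obtain ⟨b, hb⟩ : ∃ b, b = (p / 2 - 1) / (4 - p) := ⟨_, rfl⟩
  have hb0 : 0 ≤ b := hb ▸ div_nonneg (by linarith) h4.le
  obtain ⟨C, hC, h⟩ := wl2 hb0 (hb ▸ (div_lt_iff₀ h4).2 (by linarith))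
  obtain ⟨C', hC', h'⟩ := l4 hη hφ
  obtain ⟨D, hD, hm⟩ := marc two_pos h2 (show p < 4 by linarith)
  refine ⟨D * (C * A ^ 2 + C'), by positivity, fun l lam hl hl' hlam G hG => ?_⟩
  have h1 := hA' _ (pow_pos hl 2)
  have hM : Sm (ann φ (l ^ 2) : ℂ → ℂ) := ann_sm hφ (pow_pos hl 2)
  have hK := hM.ker_inv
  have mu := w_meas hlam.le b
  have mc : ∀ {H : ℂ → ℂ}, Dec H → Measurable (cv (𝓕⁻ (ann φ (l ^ 2) : ℂ → ℂ)) H) := fun hH =>
    (cv_nice hK.nice hH.nice).meas
  have md : ∀ {H : ℂ → ℂ}, Measurable H → Measurable fun x => H x / wt lam b x.re := fun hH => by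
    fun_prop
  have u0 : ∀ x : ℂ, (wt lam b x.re : ℂ) ≠ 0 := fun x =>
    Complex.ofReal_ne_zero.2 (wt_pos hlam.le _ _).ne'
  have k1 : ∀ H : ℂ → ℂ, H = fun x => wm lam b H x / wt lam b x.re := fun H => funext fun x =>
    (mul_div_cancel_left₀ _ (u0 x)).symm
  have k2 : ∀ {H : ℂ → ℂ}, Measurable H → (∀ x, ‖H x‖ ≤ ‖G x / wt lam b x.re‖) →
      Dec (wm lam b H) := fun hH hle => hG.of_le (by unfold wm; fun_prop) fun x => by
    have := hle x
    rwa [norm_div, le_div_iff₀' (norm_pos_iff.2 (u0 x)), ← norm_mul] at this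
  have k0 : ∀ H : ℂ → ℂ, wm lam 0 H = H := fun H => funext fun x => by simp [wm, wt]
  have hs : (1 / 2 - 1 / p) * p = b * (4 - p) := by
    rw [hb]
    field_simp
  rw [← w_conv hlam.le (by linarith) hs (mc hG), ← w_conv hlam.le (by linarith) hs hG.meas]
  refine (hm _ _ _ (ENNReal.ofReal (C * A ^ 2)) (ENNReal.ofReal (C' * l ^ (-η))) (md hG.meas)
    (md (mc hG)) fun α _ => ?_).trans ?_
  · have d1 := k2 (measurable_hi α (md hG.meas)) (norm_hi_le α _)
    have d2 := k2 (measurable_lo α (md hG.meas)) (norm_lo_le α _)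
    refine ⟨_, _, md (mc d1), md (mc d2), fun x => ?_, ?_, ?_⟩
    · rw [← add_div, ← cv_add_right hK d1.nice.int d2.nice.int]
      congr 2
      funext y
      rw [wm, wm, ← mul_add, ← hi_add_lo, mul_div_cancel₀ _ (u0 y)]
    · rw [k1 (hi α _), w_conv (s := b) hlam.le zero_le_two (by ring) d1.meas, ← k1,
        w_conv (s := b) hlam.le zero_le_two (by ring) (mc d1)]
      exact h _ A lam hM hA hlam h1.1 h1.2 _ d1
    · rw [k1 (lo α _), w_conv (s := 0) hlam.le zero_le_four (by ring) d2.meas, ← k1,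
        w_conv (s := 0) hlam.le zero_le_four (by ring) (mc d2), k0, k0]
      exact h' l hl hl' _ d2
  · have h5 := one l hl hl'
    rw [← ENNReal.ofReal_add (by positivity) (by positivity), ← ENNReal.ofReal_mul hD.le]
    refine mul_le_mul_left (ENNReal.ofReal_le_ofReal ?_) _
    rw [mul_assoc, add_mul]
    exact mul_le_mul_of_nonneg_left
      (add_le_add_left (le_mul_of_one_le_right (by positivity) h5) _) hD.le

end Vale.Agent.P117
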