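import Vale.Agent.P117.Cx

/-!
The Schur test for the commutator with the weight. Put `u = 1 + lam |t|`, `u' = 1 + lam |t'|`, `v = u' / u`. Then
`|wt t - wt t'| = wt t' * |v ^ b - 1|`, `|u - u'| ≤ lam |t - t'|`, and `|v ^ b - 1| ≤ |v - 1| * 2 * min 1 (v ^ (b - 1))`.
Take `L t t' = 2 lam / u * min 1 (v ^ (b - 1))`, `φ t = u ^ (-1/2)`. Both integrals are even in the variable; substitute `u` (or bound the integrand on
`u' ≤ u` and `u ≤ u'` by pure powers: `∫_0^u w ^ (-1/2)`, `∫_u^∞ w ^ (b - 3/2)`, `∫_0^{u'} w ^ (-1/2 - b)`, `∫_{u'}^∞ w ^ (-3/2)`).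
Any other choice of `L`, `φ` is fine.
-/

open MeasureTheory Set Real Filter
open scoped FourierTransform RealInnerProductSpace ContDiff ENNReal Topology

noncomputable section

namespace Vale.Agent.P117

theorem wl_aff {a : ℝ} (ha : a ≠ 0) {h : ℝ → ℝ≥0∞} (hh : Measurable h) :
    ∫⁻ t, ENNReal.ofReal |a| * h (1 + a * t) = ∫⁻ w, h w := by
  have h1 : Measurable fun s : ℝ => h (1 + s) := hh.comp (measurable_const_add 1)
  rw [lintegral_const_mul' _ _ ENNReal.ofReal_ne_top, ← lintegral_add_left_eq_self h 1]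
  conv_rhs => rw [← Real.smul_map_volume_mul_left ha]
  rw [lintegral_smul_measure, lintegral_map h1 (measurable_const_mul a), smul_eq_mul]

theorem wl_lo {α A u : ℝ} (hα : α < 1) (hA : 0 ≤ A) (hu : 0 < u) :
    ∫⁻ w in Ioc 0 u, ENNReal.ofReal (A * w ^ (-α)) = ENNReal.ofReal (A * (u ^ (1 - α) / (1 - α))) := by
  have h1 : -1 < -α := by linarith
  have hi : IntegrableOn (fun w : ℝ => A * w ^ (-α)) (Ioc 0 u) :=
    ((intervalIntegral.intervalIntegrable_rpow' h1).const_mul A).1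
  rw [← ofReal_integral_eq_lintegral_ofReal hi, ← intervalIntegral.integral_of_le hu.le,
    intervalIntegral.integral_const_mul, integral_rpow (Or.inl h1), Real.zero_rpow (by linarith),
    sub_zero, neg_add_eq_sub]
  filter_upwards [ae_restrict_mem measurableSet_Ioc] with w hw
  exact mul_nonneg hA (Real.rpow_nonneg hw.1.le _)

theorem wl_hi {σ B u : ℝ} (hσ : 0 < σ) (hB : 0 ≤ B) (hu : 0 < u) :
    ∫⁻ w in Ioi u, ENNReal.ofReal (B * w ^ (-(1 + σ))) = ENNReal.ofReal (B * (u ^ (-σ) / σ)) := by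
  have h1 : -(1 + σ) < -1 := by linarith
  have hi : IntegrableOn (fun w : ℝ => B * w ^ (-(1 + σ))) (Ioi u) :=
    (integrableOn_Ioi_rpow_of_lt h1 hu).const_mul B
  rw [← ofReal_integral_eq_lintegral_ofReal hi, integral_const_mul, integral_Ioi_rpow_of_lt h1 hu,
    show -(1 + σ) + 1 = -σ by ring, neg_div_neg_eq]
  filter_upwards [ae_restrict_mem measurableSet_Ioi] with w hw
  exact mul_nonneg hB (Real.rpow_nonneg (hu.trans hw).le _)

theorem wl_int {lam α σ A B u : ℝ} (hl : 0 < lam) (hα : α < 1) (hσ : 0 < σ) (hA : 0 ≤ A)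
    (hB : 0 ≤ B) (hu : 0 < u) {g : ℝ → ℝ} (h1 : ∀ w, 0 < w → w ≤ u → g w ≤ A * w ^ (-α))
    (h2 : ∀ w, u < w → g w ≤ B * w ^ (-(1 + σ))) :
    ∫⁻ t, ENNReal.ofReal (lam * g (1 + lam * |t|)) ≤
      ENNReal.ofReal (2 * (A * (u ^ (1 - α) / (1 - α)) + B * (u ^ (-σ) / σ))) := by
  set h : ℝ → ℝ≥0∞ := fun w => (Ioc 0 u).indicator (fun w => ENNReal.ofReal (A * w ^ (-α))) w +
    (Ioi u).indicator (fun w => ENNReal.ofReal (B * w ^ (-(1 + σ)))) w with hh
  have m1 : Measurable ((Ioc 0 u).indicator fun w : ℝ => ENNReal.ofReal (A * w ^ (-α))) :=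
    Measurable.indicator (by fun_prop) measurableSet_Ioc
  have m2 : Measurable ((Ioi u).indicator fun w : ℝ => ENNReal.ofReal (B * w ^ (-(1 + σ)))) :=
    Measurable.indicator (by fun_prop) measurableSet_Ioi
  have hm : Measurable h := m1.add m2
  have hg : ∀ w, 0 < w → ENNReal.ofReal (g w) ≤ h w := by
    intro w hw
    rcases le_or_gt w u with h' | h'
    · refine le_trans ?_ le_self_add
      rw [indicator_of_mem (show w ∈ Ioc 0 u from ⟨hw, h'⟩)]
      exact ENNReal.ofReal_le_ofReal (h1 w hw h')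
    · refine le_trans ?_ le_add_self
      rw [indicator_of_mem (show w ∈ Ioi u from h')]
      exact ENNReal.ofReal_le_ofReal (h2 w h')
  have p1 : 0 ≤ A * (u ^ (1 - α) / (1 - α)) :=
    mul_nonneg hA (div_nonneg (Real.rpow_nonneg hu.le _) (by linarith))
  have p2 : 0 ≤ B * (u ^ (-σ) / σ) := by positivity
  have hI : ∫⁻ w, h w = ENNReal.ofReal (A * (u ^ (1 - α) / (1 - α)) + B * (u ^ (-σ) / σ)) := by
    rw [hh, lintegral_add_left m1, lintegral_indicator measurableSet_Ioc,
      lintegral_indicator measurableSet_Ioi, wl_lo hα hA hu, wl_hi hσ hB hu,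
      ENNReal.ofReal_add p1 p2]
  calc _ ≤ ∫⁻ t, (ENNReal.ofReal |lam| * h (1 + lam * t) +
        ENNReal.ofReal |-lam| * h (1 + -lam * t)) := by
        refine lintegral_mono fun t => ?_
        have e := mul_le_mul_right (hg (1 + lam * |t|) (by positivity)) (ENNReal.ofReal lam)
        rw [ENNReal.ofReal_mul hl.le, abs_neg, abs_of_pos hl]
        rcases le_total 0 t with ht | ht
        · rw [abs_of_nonneg ht] at e ⊢
          exact e.trans le_self_add
        · rw [abs_of_nonpos ht] at e ⊢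
          rw [neg_mul_comm]
          exact e.trans le_add_self
    _ = _ := by
        rw [lintegral_add_left (by fun_prop), wl_aff hl.ne' hm, wl_aff (neg_ne_zero.2 hl.ne') hm,
          hI, two_mul, ENNReal.ofReal_add (add_nonneg p1 p2) (add_nonneg p1 p2)]

theorem wl_lip {b u v : ℝ} (h0 : 0 ≤ b) (h1 : b ≤ 1) (hu : 0 < u) (huv : u ≤ v) :
    |u ^ (-b) - v ^ (-b)| ≤ v⁻¹ * u ^ (-b) * |u - v| := by
  have hv : 0 < v := hu.trans_le huv
  have e1 : v ^ (-b) ≤ u ^ (-b) := Real.rpow_le_rpow_of_nonpos hu huv (by linarith)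
  have e2 : u / v ≤ (u / v) ^ b := by
    conv_lhs => rw [← Real.rpow_one (u / v)]
    exact Real.rpow_le_rpow_of_exponent_ge (by positivity) ((div_le_one hv).2 huv) h1
  have e3 : v ^ (-b) = u ^ (-b) * (u / v) ^ b := by
    rw [Real.div_rpow hu.le hv.le, Real.rpow_neg hu.le, Real.rpow_neg hv.le]
    have := (Real.rpow_pos_of_pos hu b).ne'
    field_simp
  have e4 := mul_le_mul_of_nonneg_left e2 (Real.rpow_nonneg hu.le (-b))
  rw [abs_of_nonneg (sub_nonneg.2 e1), abs_of_nonpos (sub_nonpos.2 huv), e3]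
  have e5 : v⁻¹ * u ^ (-b) * -(u - v) = u ^ (-b) - u ^ (-b) * (u / v) := by
    field_simp
    ring
  linarith

theorem wl_lip' {b u v : ℝ} (h0 : 0 ≤ b) (h1 : b ≤ 1) (hu : 0 < u) (hv : 0 < v) :
    |u ^ (-b) - v ^ (-b)| ≤ (max u v)⁻¹ * (min u v) ^ (-b) * |u - v| := by
  rcases le_total u v with h | h
  · rw [max_eq_right h, min_eq_left h]
    exact wl_lip h0 h1 hu h
  · rw [max_eq_left h, min_eq_right h, abs_sub_comm, abs_sub_comm u v]
    exact wl_lip h0 h1 hv h

theorem schur_L {b : ℝ} (h0 : 0 ≤ b) (h1 : b < 1 / 2) : ∃ C : ℝ, 0 < C ∧ ∀ lam : ℝ, 0 < lam →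
    ∃ (L : ℝ → ℝ → ℝ) (φ : ℝ → ℝ), Measurable (Function.uncurry L) ∧ (∀ t t', 0 < L t t') ∧
      Measurable φ ∧ (∀ t, 0 < φ t) ∧
      (∀ t t', |wt lam b t - wt lam b t'| ≤ L t t' * wt lam b t' * |t - t'|) ∧
      (∀ t, ∫⁻ t', ENNReal.ofReal (L t t' * φ t') ≤ ENNReal.ofReal (C * φ t)) ∧
      ∀ t', ∫⁻ t, ENNReal.ofReal (L t t' * φ t) ≤ ENNReal.ofReal (C * φ t') := by
  have hσ : 0 < 1 / 2 - b := by linarith
  refine ⟨2 * (2 + 1 / (1 / 2 - b)), by positivity, fun lam hl => ?_⟩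
  have hu : ∀ t : ℝ, 0 < 1 + lam * |t| := fun t => by positivity
  refine ⟨fun t t' => lam * ((max (1 + lam * |t|) (1 + lam * |t'|))⁻¹ *
      (min (1 + lam * |t|) (1 + lam * |t'|)) ^ (-b) * (1 + lam * |t'|) ^ b),
    fun t => (1 + lam * |t|) ^ (-(1 / 2 : ℝ)), ?_, fun t t' => ?_, by fun_prop,
    fun t => Real.rpow_pos_of_pos (hu t) _, fun t t' => ?_, fun t => ?_, fun t' => ?_⟩
  · unfold Function.uncurry
    fun_prop
  · have := lt_max_of_lt_left (c := 1 + lam * |t'|) (hu t)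
    have := lt_min (hu t) (hu t')
    have := hu t'
    positivity
  · unfold wt
    refine (wl_lip' h0 (by linarith) (hu t) (hu t')).trans ?_
    have e1 : |1 + lam * |t| - (1 + lam * |t'|)| ≤ lam * |t - t'| := by
      rw [add_sub_add_left_eq_sub, ← mul_sub, abs_mul, abs_of_pos hl]
      exact mul_le_mul_of_nonneg_left (abs_abs_sub_abs_le_abs_sub t t') hl.le
    have e2 : (1 + lam * |t'|) ^ b * (1 + lam * |t'|) ^ (-b) = 1 := by
      rw [← Real.rpow_add (hu t'), add_neg_cancel, Real.rpow_zero]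
    have p1 := lt_max_of_lt_left (c := 1 + lam * |t'|) (hu t)
    have p2 := lt_min (hu t) (hu t')
    refine (mul_le_mul_of_nonneg_left e1 (by positivity)).trans (le_of_eq ?_)
    linear_combination (-((max (1 + lam * |t|) (1 + lam * |t'|))⁻¹ *
      (min (1 + lam * |t|) (1 + lam * |t'|)) ^ (-b) * (lam * |t - t'|))) * e2
  · have hp := hu t
    beta_reduce
    generalize 1 + lam * |t| = u at hp ⊢
    have := wl_int (α := 1 / 2) (A := u⁻¹) (B := u ^ (-b)) hl (by norm_num) hσ (by positivity)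
      (by positivity) hp
      (g := fun w => (max u w)⁻¹ * (min u w) ^ (-b) * w ^ b * w ^ (-(1 / 2 : ℝ)))
      (fun w hw h => by
        rw [max_eq_left h, min_eq_right h, mul_assoc u⁻¹, ← Real.rpow_add hw, neg_add_cancel,
          Real.rpow_zero, mul_one])
      (fun w h => by
        have hw := hp.trans h
        rw [max_eq_right h.le, min_eq_left h.le, mul_comm w⁻¹, ← Real.rpow_neg_one, mul_assoc,
          mul_assoc, ← Real.rpow_add hw, ← Real.rpow_add hw]
        exact le_of_eq (by congr 2; ring))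
    simp only [mul_assoc] at this ⊢
    refine this.trans (le_of_eq ?_)
    congr 2
    rw [← mul_div_assoc, ← mul_div_assoc, ← Real.rpow_neg_one, ← Real.rpow_add hp,
      ← Real.rpow_add hp, show (-1 : ℝ) + (1 - 1 / 2) = -(1 / 2) by ring,
      show -b + -(1 / 2 - b) = -(1 / 2) by ring]
    ring
  · have hp := hu t'
    beta_reduce
    generalize 1 + lam * |t'| = u at hp ⊢
    have := wl_int (α := b + 1 / 2) (σ := 1 / 2) (A := u⁻¹ * u ^ b) (B := 1) hl (by linarith)
      (by norm_num) (by positivity) zero_le_one hp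
      (g := fun w => (max w u)⁻¹ * (min w u) ^ (-b) * u ^ b * w ^ (-(1 / 2 : ℝ)))
      (fun w hw h => by
        rw [max_eq_right h, min_eq_left h, mul_right_comm u⁻¹, mul_assoc, ← Real.rpow_add hw,
          neg_add])
      (fun w h => by
        have hw := hp.trans h
        rw [max_eq_left h.le, min_eq_right h.le, mul_assoc w⁻¹, ← Real.rpow_add hp,
          neg_add_cancel, Real.rpow_zero, mul_one, one_mul, ← Real.rpow_neg_one,
          ← Real.rpow_add hw, neg_add])
    simp only [mul_assoc] at this ⊢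
    refine this.trans (le_of_eq ?_)
    congr 2
    rw [← mul_div_assoc, ← mul_div_assoc, ← mul_assoc, ← Real.rpow_neg_one, ← Real.rpow_add hp,
      ← Real.rpow_add hp, show -1 + b + (1 - (b + 1 / 2)) = -(1 / 2) by ring,
      show 1 - (b + 1 / 2) = 1 / 2 - b by ring]
    ring

end Vale.Agent.P117
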