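import Vale.Agent.P117.WL
import Vale.Agent.P117.Slice
import Vale.Agent.P117.Plan
import Vale.Agent.P117.Schur

/-!
The weighted `L²` estimate. With `K = 𝓕⁻ M`, `w = wt lam b`:
`wm (cv K G) ⟨t, z⟩ - cv K (wm G) ⟨t, z⟩ = ∫ t', (w t - w t') * E t t' z`, `E t t' z = ∫ z', K ⟨t - t', z - z'⟩ * G ⟨t', z'⟩ = cv (𝓕⁻ (pf M (t - t'))) (G ⟨t', ·⟩) z`
(`integral_cx'`, `inv_slice`). `cv_L2` on the line gives `∫ ‖E‖² dz ≤ (A / |t - t'|)² Np 2 (G ⟨t', ·⟩)` for `t ≠ t'`. Apply `schur2` with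
`e = ‖(w t - w t') * E‖ₑ`, `H t' = ofReal A ^ 2 * Np 2 (wm G ⟨t', ·⟩)`, and `cv_L2` on the plane for `cv K (wm G)`; `Np_add_le'`, `lintegral_cx'`.
-/

open MeasureTheory Set Real Filter
open scoped FourierTransform RealInnerProductSpace ContDiff ENNReal Topology

noncomputable section

namespace Vale.Agent.P117

/-- the convolution in the second variable -/
def wl2_E (K G : ℂ → ℂ) (t t' z : ℝ) : ℂ := ∫ z' : ℝ, K ⟨t - t', z - z'⟩ * G ⟨t', z'⟩

theorem wl2_meas {K G : ℂ → ℂ} (hK : Measurable K) (hG : Measurable G) :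
    Measurable fun w : ℝ × ℝ × ℝ => wl2_E K G w.1 w.2.1 w.2.2 := by
  have h : Measurable fun q : (ℝ × ℝ × ℝ) × ℝ =>
      K ⟨q.1.1 - q.1.2.1, q.1.2.2 - q.2⟩ * G ⟨q.1.2.1, q.2⟩ :=
    (hK.comp (measurable_mk.comp (f := fun q : (ℝ × ℝ × ℝ) × ℝ =>
      (q.1.1 - q.1.2.1, q.1.2.2 - q.2)) (by fun_prop))).mul
      (hG.comp (measurable_mk.comp (f := fun q : (ℝ × ℝ × ℝ) × ℝ => (q.1.2.1, q.2)) (by fun_prop)))
  exact h.stronglyMeasurable.integral_prod_right'.measurable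

theorem wl2_id {K G : ℂ → ℂ} (hK : Ker K) (hG : Dec G) {lam b : ℝ} (hl : 0 ≤ lam) (hb : 0 ≤ b)
    (t z : ℝ) : wm lam b (cv K G) ⟨t, z⟩ - cv K (wm lam b G) ⟨t, z⟩ =
      ∫ t', ((wt lam b t - wt lam b t' : ℝ) : ℂ) * wl2_E K G t t' z := by
  have i1 := (cv_integrable hK hG.nice.int ⟨t, z⟩).const_mul (wt lam b t : ℂ)
  have i2 := cv_integrable hK (hG.wm hl hb).nice.int ⟨t, z⟩
  rw [wm, cv, cv, ← integral_const_mul, ← integral_sub i1 i2]
  refine (integral_cx' (i1.sub i2)).trans (integral_congr_ae (.of_forall fun t' => ?_))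
  simp only [wl2_E, ← integral_const_mul]
  refine integral_congr_ae (.of_forall fun z' => ?_)
  have e : (⟨t, z⟩ : ℂ) - ⟨t', z'⟩ = ⟨t - t', z - z'⟩ := rfl
  simp only [Pi.sub_apply, e, wm]
  push_cast
  ring

theorem wl2_slice {M G : ℂ → ℂ} (hM : Sm M) (hG : Dec G) {A : ℝ}
    (hp : ∀ τ ζ, |τ| * ‖pf M τ ζ‖ ≤ A) {t t' : ℝ} (h : t ≠ t') :
    Np volume 2 (wl2_E (𝓕⁻ M) G t t') ≤
      ENNReal.ofReal (A / |t - t'|) ^ 2 * Np volume 2 fun z : ℝ => G ⟨t', z⟩ := by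
  have e : wl2_E (𝓕⁻ M) G t t' = cv (𝓕⁻ (pf M (t - t'))) fun z : ℝ => G ⟨t', z⟩ := by
    funext z
    simp only [wl2_E, cv, inv_slice hM.ker.int]
  rw [e]
  refine cv_L2 (pf_integrable hM.ker.int _) (fun ζ => ?_) (hG.slice' t').int
  rw [le_div_iff₀ (abs_pos.2 (sub_ne_zero.2 h)), mul_comm]
  exact hp _ _

theorem wl2 {b : ℝ} (h0 : 0 ≤ b) (h1 : b < 1 / 2) : ∃ C : ℝ, 0 < C ∧ ∀ (M : ℂ → ℂ) (A lam : ℝ),
    Sm M → 0 < A → 0 < lam → (∀ ξ, ‖M ξ‖ ≤ A) → (∀ τ ζ, |τ| * ‖pf M τ ζ‖ ≤ A) → ∀ G, Dec G →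
      Np volume 2 (wm lam b (cv (𝓕⁻ M) G)) ≤
        ENNReal.ofReal (C * A ^ 2) * Np volume 2 (wm lam b G) := by
  obtain ⟨C, hC, hs⟩ := schur_L h0 h1
  refine ⟨4 * (1 + C ^ 2), by positivity, fun M A lam hM hA hl hMA hp G hG => ?_⟩
  obtain ⟨L, φ, mL, hL, mφ, hφ, hw, s1, s2⟩ := hs lam hl
  have hK := hM.ker_inv
  have hG' := hG.wm hl.le h0
  have mw : Measurable (wt lam b) := (continuous_wt hl.le b).measurable
  have m1 : Measurable (cv (𝓕⁻ M) (wm lam b G)) := (cv_ker hK hG'.nice).cont.measurable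
  have m2 : Measurable (wm lam b (cv (𝓕⁻ M) G)) :=
    (Complex.measurable_ofReal.comp (mw.comp Complex.measurable_re)).mul
      (cv_ker hK hG.nice).cont.measurable
  have mH : Measurable fun t' : ℝ => ∫⁻ z : ℝ, ‖wm lam b G ⟨t', z⟩‖ₑ ^ (2 : ℝ) :=
    Measurable.lintegral_prod_right' (f := fun q : ℝ × ℝ => ‖wm lam b G ⟨q.1, q.2⟩‖ₑ ^ (2 : ℝ))
      ((hG'.meas.comp measurable_mk).enorm.pow_const _)
  have key := schur2 (μ := volume) (ζ := volume)
    (e := fun t t' z => ‖((wt lam b t - wt lam b t' : ℝ) : ℂ) * wl2_E (𝓕⁻ M) G t t' z‖ₑ)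
    (((Complex.measurable_ofReal.comp ((mw.comp measurable_fst).sub
      (mw.comp measurable_snd.fst))).mul (wl2_meas hK.cont.measurable hG.meas)).enorm)
    mL hL mφ hφ (mH.const_mul (ENNReal.ofReal A ^ 2)) (fun t t' => ?_) s1 s2
  · have hD : Np volume 2 (fun x => wm lam b (cv (𝓕⁻ M) G) x - cv (𝓕⁻ M) (wm lam b G) x) ≤
        ENNReal.ofReal C ^ 2 * (ENNReal.ofReal A ^ 2 * Np volume 2 (wm lam b G)) := by
      rw [lintegral_const_mul _ mH, ← lintegral_cx' (hG'.meas.enorm.pow_const _)] at key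
      refine le_trans ?_ key
      rw [Np_two, lintegral_cx' ((m2.fun_sub m1).enorm.pow_const _)]
      refine lintegral_mono fun t => lintegral_mono fun z => pow_le_pow_left' ?_ 2
      rw [wl2_id hK hG hl.le h0]
      exact enorm_integral_le_lintegral_enorm _
    have h3 := Np_add_le' (μ := volume) zero_le_two m1
      fun x => wm lam b (cv (𝓕⁻ M) G) x - cv (𝓕⁻ M) (wm lam b G) x
    simp only [add_sub_cancel] at h3
    refine h3.trans ((mul_le_mul_right (add_le_add (cv_L2 hM.ker.int hMA hG'.nice.int) hD)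
      _).trans_eq ?_)
    rw [ENNReal.ofReal_mul (by positivity), ENNReal.ofReal_mul (by norm_num),
      ENNReal.ofReal_add (by norm_num) (by positivity), ENNReal.ofReal_pow hC.le,
      ENNReal.ofReal_pow hA.le, ENNReal.ofReal_one, ENNReal.ofReal_ofNat, ENNReal.rpow_two]
    ring
  · rcases eq_or_ne t t' with rfl | h
    · simp
    have hτ : 0 < |t - t'| := abs_pos.2 (sub_ne_zero.2 h)
    have e1 := Np_const_mul (μ := volume) zero_le_two (wt lam b t' : ℂ) fun z : ℝ => G ⟨t', z⟩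
    rw [← Np_two, Np_const_mul zero_le_two]
    refine (mul_le_mul_right (wl2_slice hM hG hp h) _).trans (le_trans ?_
      (mul_le_mul_right (mul_le_mul_right e1.ge _) _))
    rw [← mul_assoc, ← mul_assoc, ← mul_assoc, ENNReal.rpow_two, ENNReal.rpow_two, ← mul_pow,
      ← mul_pow, ← mul_pow]
    refine mul_le_mul_left (pow_le_pow_left' ?_ 2) _
    have hw' := wt_pos hl.le b t'
    rw [← ofReal_norm, ← ofReal_norm, Complex.norm_real, Complex.norm_real, Real.norm_eq_abs,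
      Real.norm_of_nonneg hw'.le, ← ENNReal.ofReal_mul (abs_nonneg _),
      ← ENNReal.ofReal_mul (hL t t').le, ← ENNReal.ofReal_mul (mul_pos (hL t t') hA).le]
    refine ENNReal.ofReal_le_ofReal
      ((mul_le_mul_of_nonneg_right (hw t t') (by positivity)).trans_eq ?_)
    field_simp

end Vale.Agent.P117
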